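import Vale.Agent.Lib.P182.Defs

namespace Vale.Agent.Lib.P182

open Finset

variable {n : ℕ}

/-- Strict dominance. -/
def SDom (v : Fin n → ℤ) : Prop := ∀ i j : Fin n, i < j → |v j| < v i

theorem mem_evenSigns {e : Fin n → ℤˣ} : e ∈ evenSigns n ↔ ∏ i, e i = 1 := by
  simp [evenSigns]

theorem one_mem_evenSigns : (1 : Fin n → ℤˣ) ∈ evenSigns n := by
  simp [mem_evenSigns]

theorem wact_apply (σ : Equiv.Perm (Fin n)) (e : Fin n → ℤˣ) (v : Fin n → ℤ) (i : Fin n) :
    wact σ e v i = (e i : ℤ) * v (σ i) := rfl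

theorem wact_one (v : Fin n → ℤ) : wact 1 1 v = v := by
  funext i; simp [wact]

theorem wact_add (σ : Equiv.Perm (Fin n)) (e : Fin n → ℤˣ) (v w : Fin n → ℤ) :
    wact σ e (v + w) = wact σ e v + wact σ e w := by
  funext i; simp [wact, mul_add]

theorem units_abs (u : ℤˣ) : |(u : ℤ)| = 1 := by
  rcases Int.units_eq_one_or u with h | h <;> simp [h]

theorem abs_wact (σ : Equiv.Perm (Fin n)) (e : Fin n → ℤˣ) (v : Fin n → ℤ) (i : Fin n) :
    |wact σ e v i| = |v (σ i)| := by
  simp [wact, abs_mul, units_abs]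

/-- Reindexing by a permutation. -/
theorem alt_comp_perm (τ : Equiv.Perm (Fin n)) (v : Fin n → ℤ) :
    alt (fun i => v (τ i)) = ((Equiv.Perm.sign τ : ℤˣ) : ℤ) • alt v := by
  unfold alt
  rw [Finset.smul_sum]
  refine Fintype.sum_equiv (Equiv.mulLeft τ) _ _ (fun σ => ?_)
  rw [Finset.smul_sum]
  refine Finset.sum_congr rfl (fun e _ => ?_)
  rw [AddMonoidAlgebra.smul_single]
  have h1 : wact σ e (fun i => v (τ i)) = wact (τ * σ) e v := rfl
  have h2 : ((Equiv.Perm.sign σ : ℤˣ) : ℤ)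
      = ((Equiv.Perm.sign τ : ℤˣ) : ℤ) • ((Equiv.Perm.sign (τ * σ) : ℤˣ) : ℤ) := by
    rw [Equiv.Perm.sign_mul, smul_eq_mul, Units.val_mul, ← mul_assoc, ← Units.val_mul,
      Int.units_mul_self]
    simp
  simp only [Equiv.coe_mulLeft]
  rw [h1, h2]

/-- Reindexing by an even sign change. -/
theorem alt_sign_mul (d : Fin n → ℤˣ) (hd : d ∈ evenSigns n) (v : Fin n → ℤ) :
    alt (fun i => (d i : ℤ) * v i) = alt v := by
  unfold alt
  refine Finset.sum_congr rfl (fun σ _ => ?_)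
  refine Finset.sum_bij' (fun e _ => fun i => e i * d (σ i)) (fun e _ => fun i => e i * d (σ i))
    ?_ ?_ ?_ ?_ ?_
  · intro e he
    rw [mem_evenSigns] at he ⊢
    rw [Finset.prod_mul_distrib, he, one_mul, Equiv.prod_comp σ d]
    exact mem_evenSigns.mp hd
  · intro e he
    rw [mem_evenSigns] at he ⊢
    rw [Finset.prod_mul_distrib, he, one_mul, Equiv.prod_comp σ d]
    exact mem_evenSigns.mp hd
  · intro e _
    funext i
    rw [mul_assoc, Int.units_mul_self, mul_one]
  · intro e _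
    funext i
    rw [mul_assoc, Int.units_mul_self, mul_one]
  · intro e _
    congr 1
    funext i
    simp [wact, mul_assoc]

end Vale.Agent.Lib.P182
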