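import Vale.Agent.Lib.P182.Basic

namespace Vale.Agent.Lib.P182

open Finset

variable {n : ℕ}

theorem alt_eq_neg_of_swap {v : Fin n → ℤ} {i j : Fin n} (hij : i ≠ j)
    (h : (fun k => v (Equiv.swap i j k)) = v) : alt v = 0 := by
  have h1 := alt_comp_perm (Equiv.swap i j) v
  rw [h, Equiv.Perm.sign_swap hij] at h1
  ext m
  have h2 := congrArg (fun y => y.coeff m) h1
  simp at h2
  simp
  omega

/-- The alternant vanishes if two coordinates are equal. -/
theorem alt_eq_zero_of_eq {v : Fin n → ℤ} {i j : Fin n} (hij : i ≠ j) (h : v i = v j) :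
    alt v = 0 := by
  apply alt_eq_neg_of_swap hij
  funext k
  by_cases hki : k = i
  · rw [hki, Equiv.swap_apply_left, h]
  · by_cases hkj : k = j
    · rw [hkj, Equiv.swap_apply_right, h]
    · rw [Equiv.swap_apply_of_ne_of_ne hki hkj]

theorem prod_two_signs (i j : Fin n) (hij : i ≠ j) :
    (fun k : Fin n => (if k = i then (-1 : ℤˣ) else 1) * (if k = j then (-1 : ℤˣ) else 1))
      ∈ evenSigns n := by
  rw [mem_evenSigns, Finset.prod_mul_distrib, Finset.prod_ite_eq', Finset.prod_ite_eq']
  simp

/-- The alternant vanishes if two coordinates are opposite. -/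
theorem alt_eq_zero_of_eq_neg {v : Fin n → ℤ} {i j : Fin n} (hij : i ≠ j) (h : v i = - v j) :
    alt v = 0 := by
  set d : Fin n → ℤˣ :=
    fun k => (if k = i then (-1 : ℤˣ) else 1) * (if k = j then (-1 : ℤˣ) else 1) with hd
  have hdmem : d ∈ evenSigns n := prod_two_signs i j hij
  have hdi : ((d i : ℤˣ) : ℤ) = -1 := by simp [hd, hij]
  have hdj : ((d j : ℤˣ) : ℤ) = -1 := by simp [hd, Ne.symm hij]
  have hdk : ∀ k, k ≠ i → k ≠ j → ((d k : ℤˣ) : ℤ) = 1 := by
    intro k hki hkj
    simp [hd, hki, hkj]
  have hw : (fun k => (fun m => ((d m : ℤˣ) : ℤ) * v m) (Equiv.swap i j k)) = v := by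
    funext k
    by_cases hki : k = i
    · rw [hki, Equiv.swap_apply_left]
      show ((d j : ℤˣ) : ℤ) * v j = v i
      rw [hdj, h]; ring
    · by_cases hkj : k = j
      · rw [hkj, Equiv.swap_apply_right]
        show ((d i : ℤˣ) : ℤ) * v i = v j
        rw [hdi, h]; ring
      · rw [Equiv.swap_apply_of_ne_of_ne hki hkj]
        show ((d k : ℤˣ) : ℤ) * v k = v k
        rw [hdk k hki hkj]; ring
  have h1 := alt_comp_perm (Equiv.swap i j) (fun m => ((d m : ℤˣ) : ℤ) * v m)
  rw [hw, Equiv.Perm.sign_swap hij, alt_sign_mul d hdmem v] at h1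
  ext m
  have h2 := congrArg (fun y => y.coeff m) h1
  simp at h2
  simp
  omega

/-- Coefficients of an alternant. -/
theorem alt_coeff (v m : Fin n → ℤ) :
    (alt v).coeff m = ∑ σ : Equiv.Perm (Fin n), ∑ e ∈ evenSigns n,
      if wact σ e v = m then ((Equiv.Perm.sign σ : ℤˣ) : ℤ) else 0 := by
  classical
  unfold alt
  simp [Finsupp.single_apply]

/-- The support of an alternant lies in the orbit. -/
theorem exists_of_mem_support_alt {v m : Fin n → ℤ} (hm : m ∈ (alt v).coeff.support) :
    ∃ σ : Equiv.Perm (Fin n), ∃ e ∈ evenSigns n, wact σ e v = m := by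
  classical
  by_contra hcon
  push Not at hcon
  rw [Finsupp.mem_support_iff, alt_coeff] at hm
  apply hm
  refine Finset.sum_eq_zero (fun σ _ => Finset.sum_eq_zero (fun e he => ?_))
  rw [if_neg (hcon σ e he)]

theorem perm_eq_one_of_strictMono (σ : Equiv.Perm (Fin n)) (h : StrictMono σ) : σ = 1 := by
  ext i
  have h1 : i ≤ σ i := h.id_le i
  have h2 : σ i ≤ i := by
    have := (h.dual).id_le (OrderDual.toDual i)
    exact this
  simp [le_antisymm h2 h1]

/-- Rigidity: a weakly dominant vector conjugate to a strictly dominant one, by the identity. -/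
theorem rigid {X Y : Fin n → ℤ} (hX : Dominant X) (hY : SDom Y)
    {σ : Equiv.Perm (Fin n)} {e : Fin n → ℤˣ} (he : e ∈ evenSigns n)
    (h : wact σ e X = Y) : σ = 1 ∧ e = 1 := by
  have habs : ∀ i, |X (σ i)| = |Y i| := by
    intro i
    rw [← h, abs_wact]
  have hYanti : ∀ i j, i < j → |Y j| < |Y i| := by
    intro i j hij
    exact lt_of_lt_of_le (hY i j hij) (le_abs_self _)
  have hXanti : ∀ i j, i < j → |X j| ≤ |X i| := by
    intro i j hij
    exact le_trans (hX i j hij) (le_abs_self _)
  have hσ : StrictMono σ := by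
    intro i j hij
    by_contra hcon
    push Not at hcon
    have h1 := hYanti i j hij
    rw [← habs i, ← habs j] at h1
    rcases hcon.lt_or_eq with h2 | h2
    · exact absurd (hXanti _ _ h2) (not_le.mpr h1)
    · rw [h2] at h1
      exact lt_irrefl _ h1
  have hσ1 : σ = 1 := perm_eq_one_of_strictMono σ hσ
  subst hσ1
  refine ⟨rfl, ?_⟩
  have hval : ∀ i, (e i : ℤ) * X i = Y i := by
    intro i
    have := congrFun h i
    simpa [wact] using this
  have hpos : ∀ i j : Fin n, i < j → e i = 1 := by
    intro i j hij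
    rcases Int.units_eq_one_or (e i) with h1 | h1
    · exact h1
    · exfalso
      have h2 := hval i
      rw [h1] at h2
      have h3 : 0 < Y i := lt_of_le_of_lt (abs_nonneg _) (hY i j hij)
      have h4 : 0 ≤ X i := le_trans (abs_nonneg _) (hX i j hij)
      simp at h2
      omega
  funext i
  by_contra hi
  have hprod : ∏ k, e k = e i := by
    apply Finset.prod_eq_single i
    · intro k _ hki
      rcases lt_or_gt_of_ne hki with hlt | hgt
      · exact hpos k i hlt
      · exact absurd (hpos i k hgt) hi
    · intro hni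
      exact absurd (Finset.mem_univ i) hni
  rw [mem_evenSigns.mp he] at hprod
  exact hi hprod.symm

/-- The coefficient of a strictly dominant exponent in the alternant of a weakly dominant
vector. -/
theorem alt_coeff_dom {X Y : Fin n → ℤ} (hX : Dominant X) (hY : SDom Y) :
    (alt X).coeff Y = if X = Y then 1 else 0 := by
  classical
  rw [alt_coeff]
  by_cases hXY : X = Y
  · rw [if_pos hXY]
    rw [Finset.sum_eq_single (1 : Equiv.Perm (Fin n))]
    · rw [Finset.sum_eq_single (1 : Fin n → ℤˣ)]
      · rw [wact_one, if_pos hXY]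
        simp
      · intro e he hne
        rw [if_neg]
        intro hcon
        exact hne (rigid hX hY he hcon).2
      · intro hcon
        exact absurd one_mem_evenSigns hcon
    · intro σ _ hne
      refine Finset.sum_eq_zero (fun e he => ?_)
      rw [if_neg]
      intro hcon
      exact hne (rigid hX hY he hcon).1
    · intro hcon
      exact absurd (Finset.mem_univ _) hcon
  · rw [if_neg hXY]
    refine Finset.sum_eq_zero (fun σ _ => Finset.sum_eq_zero (fun e he => ?_))
    rw [if_neg]
    intro hcon
    obtain ⟨h1, h2⟩ := rigid hX hY he hcon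
    subst h1 h2
    rw [wact_one] at hcon
    exact hXY hcon

end Vale.Agent.Lib.P182
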