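import Mathlib

/-!
# Weyl alternants of type `D_n` in doubled coordinates

A weight `lam` of `Spin(2n)` (all coordinates in `ℤ` or all in `1/2 + ℤ`) is represented by
the integer vector `2 * lam : Fin n → ℤ`.  The formal exponential of a weight lives in the
group ring `ℤ[ℤ^n]`, here `AddMonoidAlgebra ℤ (Fin n → ℤ)`.
-/

namespace Vale.Agent.Lib.P182

/-- Sign vectors `e : Fin n → ℤˣ` with an even number of minus signs. -/
def evenSigns (n : ℕ) : Finset (Fin n → ℤˣ) :=
  Finset.univ.filter fun e => ∏ i, e i = 1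

/-- The action on `ℤ^n` of the element `(e, σ)` of the Weyl group of type `D_n`
(signed permutations with an even number of sign changes): `(wact σ e v) i = e i * v (σ i)`. -/
def wact {n : ℕ} (σ : Equiv.Perm (Fin n)) (e : Fin n → ℤˣ) (v : Fin n → ℤ) : Fin n → ℤ :=
  fun i => (e i : ℤ) * v (σ i)

/-- The Weyl alternant `A_v = ∑_{w ∈ W(D_n)} sgn(w) e^{w v}` in the group ring `ℤ[ℤ^n]`. -/
noncomputable def alt {n : ℕ} (v : Fin n → ℤ) : AddMonoidAlgebra ℤ (Fin n → ℤ) :=
  ∑ σ : Equiv.Perm (Fin n), ∑ e ∈ evenSigns n,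
    AddMonoidAlgebra.single (wact σ e v) ((Equiv.Perm.sign σ : ℤˣ) : ℤ)

/-- `2ρ = (2n-2, 2n-4, …, 2, 0)`, the sum of the positive roots of `D_n`. -/
def rho2 (n : ℕ) : Fin n → ℤ := fun i => 2 * ((n : ℤ) - 1 - (i : ℤ))

/-- Dominance for type `D_n`: `v_1 ≥ v_2 ≥ … ≥ v_{n-1} ≥ |v_n|`. -/
def Dominant {n : ℕ} (v : Fin n → ℤ) : Prop := ∀ i j : Fin n, i < j → |v j| ≤ v i

/-- `x` is twice an element of the root lattice `Q(D_n) = {q ∈ ℤ^n : ∑ q_i even}`. -/
def InTwoQ {n : ℕ} (x : Fin n → ℤ) : Prop := (∀ i, 2 ∣ x i) ∧ 4 ∣ ∑ i, x i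

/-- `v` is twice a weight of `Spin(2n)`: all coordinates have the same parity. -/
def IsWt {n : ℕ} (v : Fin n → ℤ) : Prop := ∀ i j : Fin n, 2 ∣ v i - v j

/-- `c` is the multiplicity function of the tensor product of the irreducible representations
with (doubled) highest weights `L` and `M`: by Weyl's character formula,
`A_{L + 2ρ} * A_{M + 2ρ} = A_{2ρ} * ∑_K c(K) A_{K + 2ρ}`, with `c` supported on dominant
vectors. -/
def IsTensorMult {n : ℕ} (L M : Fin n → ℤ) (c : (Fin n → ℤ) →₀ ℤ) : Prop :=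
  (∀ K ∈ c.support, Dominant K) ∧
    alt (L + rho2 n) * alt (M + rho2 n)
      = alt (rho2 n) * ∑ K ∈ c.support, c K • alt (K + rho2 n)

/-- `χ` is the Weyl character of the irreducible representation with (doubled) highest weight
`L`: Weyl's character formula `χ * A_{2ρ} = A_{L + 2ρ}`. -/
def IsWeylChar {n : ℕ} (L : Fin n → ℤ) (χ : AddMonoidAlgebra ℤ (Fin n → ℤ)) : Prop :=
  χ * alt (rho2 n) = alt (L + rho2 n)

/-- `c` gives the multiplicities of the irreducible characters in the product of `χ` with the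
irreducible character of (doubled) highest weight `M`:
`χ * A_{M + 2ρ} = ∑_K c(K) A_{K + 2ρ}`, with `c` supported on dominant vectors. -/
def IsTensorDecomp {n : ℕ} (χ : AddMonoidAlgebra ℤ (Fin n → ℤ)) (M : Fin n → ℤ)
    (c : (Fin n → ℤ) →₀ ℤ) : Prop :=
  (∀ K ∈ c.support, Dominant K) ∧
    χ * alt (M + rho2 n) = ∑ K ∈ c.support, c K • alt (K + rho2 n)

end Vale.Agent.Lib.P182
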