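import Vale.Agent.Lib.P182.Defs

/-!
# The dual weight in type `D_n`

Weights are written in doubled coordinates.  The dual of the irreducible representation with
highest weight `v` has highest weight `dual v = -w_0 v`: for even `n` this is `v` itself, for odd
`n` the sign of the last coordinate is changed.
-/

namespace Vale.Agent.Lib.P182

/-- The sign vector of the duality of weights: `-1` at the last index when `n` is odd, and `1`
everywhere else. -/
def dsgn (n : ℕ) : Fin n → ℤˣ := fun i => if (i : ℕ) + 1 = n ∧ Odd n then -1 else 1

/-- The dual weight `-w_0 v`: the last coordinate changes sign when `n` is odd. -/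
def dual {n : ℕ} (v : Fin n → ℤ) : Fin n → ℤ := fun i => ((dsgn n i : ℤˣ) : ℤ) * v i

end Vale.Agent.Lib.P182
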