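import Vale.Agent.Lib.P182.HalfSpin

namespace Vale.Agent.Lib.P182

open Finset

variable {n : ℕ}

/-- The coefficient of an orbit point in the alternant of a regular vector. -/
theorem alt_coeff_wact {v : Fin n → ℤ} (hv : ∀ i j, i ≠ j → |v i| ≠ |v j|)
    (σ : Equiv.Perm (Fin n)) (e : Fin n → ℤˣ) (he : e ∈ evenSigns n) :
    (alt v).coeff (wact σ e v) = ((Equiv.Perm.sign σ : ℤˣ) : ℤ) := by
  classical
  rw [alt_coeff]
  have hσeq : ∀ σ' : Equiv.Perm (Fin n), ∀ e' : Fin n → ℤˣ,
      wact σ' e' v = wact σ e v → σ' = σ := by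
    intro σ' e' h
    ext i
    have h1 := congrArg (fun w => |w i|) h
    simp only [abs_wact] at h1
    by_contra hne
    exact hv (σ' i) (σ i) (fun hc => hne (congrArg Fin.val hc)) h1
  rw [Finset.sum_eq_single σ]
  · rw [Finset.sum_eq_single e]
    · rw [if_pos rfl]
    · intro e' he' hne
      rw [if_neg]
      intro hcon
      apply hne
      have hval : ∀ i, ((e' i : ℤˣ) : ℤ) * v (σ i) = ((e i : ℤˣ) : ℤ) * v (σ i) := by
        intro i
        exact congrFun hcon i
      have heq : ∀ i, v (σ i) ≠ 0 → e' i = e i := by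
        intro i hi
        exact Units.ext (mul_right_cancel₀ hi (hval i))
      funext i0
      by_contra hi0
      have hv0 : v (σ i0) = 0 := by
        by_contra hc
        exact hi0 (heq i0 hc)
      have hothers : ∀ k, k ≠ i0 → e' k = e k := by
        intro k hk
        apply heq
        intro hc
        apply hv (σ k) (σ i0)
        · intro hcc
          exact hk (σ.injective hcc)
        · rw [hc, hv0]
      have h1 := Finset.mul_prod_erase Finset.univ e' (Finset.mem_univ i0)
      have h2 := Finset.mul_prod_erase Finset.univ e (Finset.mem_univ i0)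
      have h3 : ∏ k ∈ Finset.univ.erase i0, e' k = ∏ k ∈ Finset.univ.erase i0, e k := by
        refine Finset.prod_congr rfl (fun k hk => hothers k (Finset.mem_erase.mp hk).1)
      rw [mem_evenSigns.mp he'] at h1
      rw [mem_evenSigns.mp he, ← h1, h3] at h2
      exact hi0 (mul_right_cancel h2).symm
    · intro hcon
      exact absurd he hcon
  · intro σ' _ hne
    refine Finset.sum_eq_zero (fun e' _ => ?_)
    rw [if_neg]
    intro hcon
    exact hne (hσeq σ' e' hcon)
  · intro hcon
    exact absurd (Finset.mem_univ _) hcon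

theorem rho2_regular : ∀ i j : Fin n, i ≠ j → |rho2 n i| ≠ |rho2 n j| := by
  intro i j hij h
  rw [abs_of_nonneg (rho2_nonneg i), abs_of_nonneg (rho2_nonneg j)] at h
  apply hij
  apply Fin.ext
  simp only [rho2] at h
  omega

theorem sdom_rho2 : SDom (rho2 n) := by
  have h := sdom_add_rho2 (n := n) (K := 0) (by intro i j _; simp)
  simpa using h

theorem alt_rho2_ne_zero : alt (rho2 n) ≠ 0 := by
  intro h
  have h1 := alt_coeff_dom (X := rho2 n) (Y := rho2 n)
    (fun i j hij => le_of_lt (sdom_rho2 i j hij)) sdom_rho2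
  rw [h] at h1
  simp at h1

theorem two_signs_mem (s : ℤˣ) (i k : Fin n) (hik : i ≠ k) :
    (fun m : Fin n => (if m = i then s else 1) * (if m = k then s else 1)) ∈ evenSigns n := by
  rw [mem_evenSigns, Finset.prod_mul_distrib, Finset.prod_ite_eq', Finset.prod_ite_eq']
  simp

/-- Support bound for the character of `V(N * half-spin)`: all coordinates of its exponents are
at most `N` in absolute value (doubled coordinates). -/
theorem supp_bound (hn : 2 ≤ n) (u : Fin n → ℤˣ) (N : ℕ)
    (χ : AddMonoidAlgebra ℤ (Fin n → ℤ))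
    (hχ : χ * alt (rho2 n) = alt (N • sv u + rho2 n)) :
    ∀ β ∈ χ.coeff.support, ∀ i, |β i| ≤ N := by
  intro β hβ i
  have hkey : ∀ s : ℤˣ, ((s : ℤˣ) : ℤ) * β i ≤ N := by
    intro s
    let key : (Fin n → ℤ) →+ ℤ :=
      (AddMonoidHom.mulLeft ((s : ℤˣ) : ℤ)).comp (Pi.evalAddMonoidHom (fun _ => ℤ) i)
    have hkeyapp : ∀ w : Fin n → ℤ, key w = ((s : ℤˣ) : ℤ) * w i := fun w => rfl
    have hB : ∀ c ∈ (χ * alt (rho2 n)).coeff.support, key c ≤ (N : ℤ) + 2 * ((n : ℤ) - 1) := by
      intro c hc
      rw [hχ] at hc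
      obtain ⟨σ, e, _, hw⟩ := exists_of_mem_support_alt hc
      rw [hkeyapp, ← hw]
      have h1 : |((s : ℤˣ) : ℤ) * wact σ e (N • sv u + rho2 n) i|
          = |(N : ℤ) * sv u (σ i) + rho2 n (σ i)| := by
        rw [abs_mul, units_abs, one_mul, abs_wact]
        simp
      have h2 := abs_add_le ((N : ℤ) * sv u (σ i)) (rho2 n (σ i))
      have h3 : |(N : ℤ) * sv u (σ i)| = N := by
        rw [abs_mul]
        have : |sv u (σ i)| = 1 := units_abs (u (σ i))
        rw [this]
        simp
      have h4 := rho2_le (σ i)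
      have h5 := rho2_nonneg (σ i)
      rw [abs_of_nonneg h5] at h2
      have h6 := le_abs_self (((s : ℤˣ) : ℤ) * wact σ e (N • sv u + rho2 n) i)
      omega
    have hA : ∃ a ∈ (alt (rho2 n)).coeff.support, 2 * ((n : ℤ) - 1) ≤ key a := by
      have h0 : 0 < n := by omega
      set z0 : Fin n := ⟨0, h0⟩ with hz0
      obtain ⟨k, hk⟩ : ∃ k : Fin n, i ≠ k := by
        by_cases hi : i.val = 0
        · refine ⟨⟨1, by omega⟩, ?_⟩
          intro hcon
          have := congrArg Fin.val hcon
          simp at this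
          omega
        · refine ⟨z0, ?_⟩
          intro hcon
          have := congrArg Fin.val hcon
          simp [hz0] at this
          omega
      set e0 : Fin n → ℤˣ := fun m => (if m = i then s else 1) * (if m = k then s else 1)
        with he0
      have he0mem : e0 ∈ evenSigns n := two_signs_mem s i k hk
      refine ⟨wact (Equiv.swap i z0) e0 (rho2 n), ?_, ?_⟩
      · rw [Finsupp.mem_support_iff, alt_coeff_wact rho2_regular _ _ he0mem]
        exact Units.ne_zero _
      · rw [hkeyapp]
        have h1 : e0 i = s := by simp [he0, hk]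
        have h2 : rho2 n z0 = 2 * ((n : ℤ) - 1) := by simp [rho2, hz0]
        simp only [wact, Equiv.swap_apply_left, h1, h2]
        rw [← mul_assoc, ← Units.val_mul, Int.units_mul_self]
        simp
    have := key_bound key χ (alt (rho2 n)) _ _ hB hA β hβ
    rw [hkeyapp] at this
    linarith
  have h1 := hkey 1
  have h2 := hkey (-1)
  simp at h1 h2
  rw [abs_le]
  constructor <;> linarith

/-- Extracting a coefficient from a combination of alternants of dominant weights. -/
theorem coeff_sum_alt (c : (Fin n → ℤ) →₀ ℤ) (hc : ∀ K' ∈ c.support, Dominant K')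
    (K : Fin n → ℤ) (hK : Dominant K) :
    (∑ K' ∈ c.support, c K' • alt (K' + rho2 n)).coeff (K + rho2 n) = c K := by
  classical
  rw [AddMonoidAlgebra.coeff_sum, Finsupp.finsetSum_apply]
  have h1 : ∀ K' ∈ c.support, (c K' • alt (K' + rho2 n)).coeff (K + rho2 n)
      = if K' = K then c K' else 0 := by
    intro K' hK'
    have hd : Dominant (K' + rho2 n) := fun i j hij => le_of_lt (sdom_add_rho2 (hc K' hK') i j hij)
    rw [AddMonoidAlgebra.coeff_smul, Finsupp.smul_apply, alt_coeff_dom hd (sdom_add_rho2 hK)]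
    by_cases h : K' = K
    · simp [h]
    · have : ¬ (K' + rho2 n = K + rho2 n) := fun hc => h (add_right_cancel hc)
      simp [h, this]
  rw [Finset.sum_congr rfl h1, Finset.sum_ite_eq']
  split_ifs with h
  · rfl
  · exact (Finsupp.notMem_support_iff.mp h).symm

/-- Parity: if `4 ∣ ∑ (u_i - s_i)` for sign vectors `u`, `s`, then `∏ u = ∏ s`. -/
theorem prod_eq_of_four_dvd (u s : Fin n → ℤˣ)
    (h : (4 : ℤ) ∣ ∑ i, (((u i : ℤˣ) : ℤ) - ((s i : ℤˣ) : ℤ))) : ∏ i, u i = ∏ i, s i := by
  classical
  have key : ∀ T : Finset (Fin n),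
      (∏ i ∈ T, u i * s i = 1 ∧ (4 : ℤ) ∣ ∑ i ∈ T, (((u i : ℤˣ) : ℤ) - ((s i : ℤˣ) : ℤ)))
      ∨ (∏ i ∈ T, u i * s i = -1
        ∧ (4 : ℤ) ∣ ∑ i ∈ T, (((u i : ℤˣ) : ℤ) - ((s i : ℤˣ) : ℤ)) - 2) := by
    intro T
    induction T using Finset.induction_on with
    | empty => left; simp
    | insert a T ha ih =>
      rw [Finset.prod_insert ha, Finset.sum_insert ha]
      rcases Int.units_eq_one_or (u a) with h1 | h1 <;>
        rcases Int.units_eq_one_or (s a) with h2 | h2 <;>
        rcases ih with ⟨h3, h4⟩ | ⟨h3, h4⟩ <;>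
        simp only [h1, h2, h3] <;>
        first
          | (left; refine ⟨by decide, ?_⟩; simp only [Units.val_one, Units.val_neg]; omega)
          | (right; refine ⟨by decide, ?_⟩; simp only [Units.val_one, Units.val_neg]; omega)
  rcases key Finset.univ with ⟨h1, _⟩ | ⟨_, h2⟩
  · rw [Finset.prod_mul_distrib] at h1
    have h3 : ∏ i, u i = (∏ i, s i)⁻¹ := eq_inv_of_mul_eq_one_left h1
    rw [h3]
    rcases Int.units_eq_one_or (∏ i, s i) with h4 | h4 <;> rw [h4] <;> decide
  · exfalso
    omega

end Vale.Agent.Lib.P182
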