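import Vale.Agent.Lib.P182.Exist3
import Vale.Agent.Lib.P182.DualDefs
import Vale.Agent.Lib.P182.HalfSpinMain

/-!
# Duality for tensor product multiplicities of type `D_n`

`c^K_{L,M} = c^{M*}_{L,K*}`, where `*` is the duality of weights (`-w_0`): it changes the sign
of the last coordinate when `n` is odd and is the identity when `n` is even.
-/

namespace Vale.Agent.Lib.P182

open Finset

variable {n : ℕ}

/-- Coefficients of the product of an element with an alternant. -/
theorem coeff_mul_alt (χ : AddMonoidAlgebra ℤ (Fin n → ℤ)) (Y X : Fin n → ℤ) :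
    (χ * alt Y).coeff X = ∑ σ : Equiv.Perm (Fin n), ∑ e ∈ evenSigns n,
      ((Equiv.Perm.sign σ : ℤˣ) : ℤ) * χ.coeff (X - wact σ e Y) := by
  unfold alt
  rw [Finset.mul_sum, AddMonoidAlgebra.coeff_sum, Finsupp.finsetSum_apply]
  refine Finset.sum_congr rfl (fun σ _ => ?_)
  rw [Finset.mul_sum, AddMonoidAlgebra.coeff_sum, Finsupp.finsetSum_apply]
  refine Finset.sum_congr rfl (fun e _ => ?_)
  rw [AddMonoidAlgebra.coeff_mul_single_apply, sub_eq_add_neg, mul_comm]

/-- The additive automorphism of the weight lattice given by a signed permutation. -/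
def wactHom (τ : Equiv.Perm (Fin n)) (d : Fin n → ℤˣ) : (Fin n → ℤ) →+ (Fin n → ℤ) where
  toFun := wact τ d
  map_zero' := by funext i; simp [wact]
  map_add' := wact_add τ d

theorem wactHom_apply (τ : Equiv.Perm (Fin n)) (d : Fin n → ℤˣ) (v : Fin n → ℤ) :
    wactHom τ d v = wact τ d v := rfl

theorem units_int_mul_self (u : ℤˣ) : ((u : ℤˣ) : ℤ) * ((u : ℤˣ) : ℤ) = 1 := by
  rw [← Units.val_mul, Int.units_mul_self]; rfl

/-- A Weyl group element acts on an alternant by its sign. -/
theorem mapDomain_alt (τ : Equiv.Perm (Fin n)) (d : Fin n → ℤˣ) (hd : d ∈ evenSigns n)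
    (v : Fin n → ℤ) :
    AddMonoidAlgebra.mapDomain (wact τ d) (alt v)
      = ((Equiv.Perm.sign τ : ℤˣ) : ℤ) • alt v := by
  classical
  have hmap : ∀ (S : Finset (Fin n → ℤˣ)) (g : (Fin n → ℤˣ) → AddMonoidAlgebra ℤ (Fin n → ℤ)),
      AddMonoidAlgebra.mapDomain (wact τ d) (∑ e ∈ S, g e)
        = ∑ e ∈ S, AddMonoidAlgebra.mapDomain (wact τ d) (g e) := by
    intro S g
    induction S using Finset.induction_on with
    | empty => simp
    | insert a S ha ih => rw [Finset.sum_insert ha, Finset.sum_insert ha,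
        AddMonoidAlgebra.mapDomain_add, ih]
  have hmap2 : ∀ (S : Finset (Equiv.Perm (Fin n)))
      (g : Equiv.Perm (Fin n) → AddMonoidAlgebra ℤ (Fin n → ℤ)),
      AddMonoidAlgebra.mapDomain (wact τ d) (∑ σ ∈ S, g σ)
        = ∑ σ ∈ S, AddMonoidAlgebra.mapDomain (wact τ d) (g σ) := by
    intro S g
    induction S using Finset.induction_on with
    | empty => simp
    | insert a S ha ih => rw [Finset.sum_insert ha, Finset.sum_insert ha,
        AddMonoidAlgebra.mapDomain_add, ih]
  unfold alt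
  rw [hmap2, Finset.smul_sum]
  refine Fintype.sum_equiv (Equiv.mulRight τ) _ _ (fun σ => ?_)
  rw [hmap, Finset.smul_sum]
  refine Finset.sum_bij' (fun e _ => fun i => d i * e (τ i))
    (fun e _ => fun j => d (τ.symm j) * e (τ.symm j)) ?_ ?_ ?_ ?_ ?_
  · intro e he
    rw [mem_evenSigns] at he ⊢
    rw [Finset.prod_mul_distrib, mem_evenSigns.mp hd, one_mul, Equiv.prod_comp τ e]
    exact he
  · intro e he
    rw [mem_evenSigns] at he ⊢
    have h1 : ∏ j, d (τ.symm j) * e (τ.symm j) = ∏ j, (fun i => d i * e i) (τ.symm j) := rfl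
    rw [h1, Equiv.prod_comp τ.symm (fun i => d i * e i), Finset.prod_mul_distrib,
      mem_evenSigns.mp hd, one_mul]
    exact he
  · intro e _
    funext j
    simp only [Equiv.apply_symm_apply]
    rw [← mul_assoc, Int.units_mul_self, one_mul]
  · intro e _
    funext i
    simp only [Equiv.symm_apply_apply]
    rw [← mul_assoc, Int.units_mul_self, one_mul]
  · intro e _
    rw [AddMonoidAlgebra.mapDomain_single, AddMonoidAlgebra.smul_single, wact_wact]
    simp only [Equiv.coe_mulRight]
    congr 1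
    rw [Equiv.Perm.sign_mul, smul_eq_mul, Units.val_mul, mul_comm, mul_assoc,
      units_int_mul_self, mul_one]

/-- A Weyl character is invariant under the Weyl group. -/
theorem weylChar_mapDomain {L : Fin n → ℤ} {χ : AddMonoidAlgebra ℤ (Fin n → ℤ)}
    (hχ : IsWeylChar L χ) (τ : Equiv.Perm (Fin n)) (d : Fin n → ℤˣ) (hd : d ∈ evenSigns n) :
    AddMonoidAlgebra.mapDomain (wact τ d) χ = χ := by
  have h1 : AddMonoidAlgebra.mapDomainRingHom ℤ (wactHom τ d) (χ * alt (rho2 n))
      = AddMonoidAlgebra.mapDomainRingHom ℤ (wactHom τ d) (alt (L + rho2 n)) := by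
    unfold IsWeylChar at hχ
    rw [hχ]
  rw [map_mul] at h1
  have h2 : ∀ x, AddMonoidAlgebra.mapDomainRingHom ℤ (wactHom τ d) x
      = AddMonoidAlgebra.mapDomain (wact τ d) x := fun x => rfl
  rw [h2, h2, h2, mapDomain_alt τ d hd, mapDomain_alt τ d hd] at h1
  unfold IsWeylChar at hχ
  rw [← hχ, mul_smul_comm] at h1
  have h3 := congrArg (fun y => ((Equiv.Perm.sign τ : ℤˣ) : ℤ) • y) h1
  simp only [smul_smul, units_int_mul_self, one_smul] at h3
  exact mul_right_cancel₀ alt_rho2_ne_zero h3

theorem weylChar_coeff_wact {L : Fin n → ℤ} {χ : AddMonoidAlgebra ℤ (Fin n → ℤ)}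
    (hχ : IsWeylChar L χ) (τ : Equiv.Perm (Fin n)) (d : Fin n → ℤˣ) (hd : d ∈ evenSigns n)
    (x : Fin n → ℤ) : χ.coeff (wact τ d x) = χ.coeff x := by
  have h1 := weylChar_mapDomain hχ τ d hd
  have h2 : (AddMonoidAlgebra.mapDomain (wact τ d) χ).coeff (wact τ d x) = χ.coeff x := by
    rw [AddMonoidAlgebra.coeff_mapDomain]
    exact Finsupp.mapDomain_apply (wact_injective τ d) _ _
  rw [h1] at h2
  exact h2

theorem dual_dual (v : Fin n → ℤ) : dual (dual v) = v := by
  funext i
  unfold dual
  rw [← mul_assoc, units_int_mul_self, one_mul]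

theorem abs_dual (v : Fin n → ℤ) (i : Fin n) : |dual v i| = |v i| := by
  unfold dual
  rw [abs_mul, units_abs, one_mul]

theorem dsgn_of_lt {i j : Fin n} (hij : i < j) : dsgn n i = 1 := by
  unfold dsgn
  rw [if_neg]
  intro hcon
  have h1 := j.isLt
  have h2 := Fin.lt_def.mp hij
  omega

theorem dominant_dual {v : Fin n → ℤ} (h : Dominant v) : Dominant (dual v) := by
  intro i j hij
  rw [abs_dual]
  unfold dual
  rw [dsgn_of_lt hij]
  simpa using h i j hij

theorem isWt_dual {v : Fin n → ℤ} (h : IsWt v) : IsWt (dual v) := by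
  intro i j
  have h1 := h i j
  unfold dual
  rcases Int.units_eq_one_or (dsgn n i) with h2 | h2 <;>
    rcases Int.units_eq_one_or (dsgn n j) with h3 | h3 <;>
    rw [h2, h3] <;> simp <;> omega

theorem dual_add (v w : Fin n → ℤ) : dual (v + w) = dual v + dual w := by
  funext i
  simp [dual, mul_add]

theorem dual_nsmul (N : ℕ) (v : Fin n → ℤ) : dual (N • v) = N • dual v := by
  funext i
  simp [dual]
  ring

theorem dual_rho2 : dual (rho2 n) = rho2 n := by
  funext i
  unfold dual dsgn
  by_cases h : (i : ℕ) + 1 = n ∧ Odd n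
  · rw [if_pos h]
    unfold rho2
    have h1 : (n : ℤ) = (i : ℤ) + 1 := by exact_mod_cast h.1.symm
    rw [h1]
    simp
  · rw [if_neg h]
    simp

/-- The product of the negated duality signs is `1`: `-dual` is in the Weyl group. -/
theorem prod_neg_dsgn : ∀ n : ℕ, ∏ i : Fin n, (- dsgn n i) = 1 := by
  intro n
  by_cases hodd : Odd n
  · obtain ⟨m, rfl⟩ : ∃ m, n = m + 1 := ⟨n - 1, by have := hodd.pos; omega⟩
    rw [Fin.prod_univ_castSucc]
    have h1 : ∀ i : Fin m, - dsgn (m + 1) (Fin.castSucc i) = -1 := by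
      intro i
      unfold dsgn
      rw [if_neg]
      intro hcon
      have := i.isLt
      simp at hcon
      omega
    have h2 : - dsgn (m + 1) (Fin.last m) = 1 := by
      unfold dsgn
      rw [if_pos ⟨by simp, hodd⟩]
      simp
    rw [Finset.prod_congr rfl (fun i _ => h1 i), h2, mul_one, Finset.prod_const, Finset.card_univ,
      Fintype.card_fin]
    have hm : Even m := by
      rcases Nat.even_or_odd m with h | h
      · exact h
      · exact absurd hodd (by rw [Nat.not_odd_iff_even]; exact Odd.add_one h)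
    exact Even.neg_one_pow hm
  · have h1 : ∀ i : Fin n, - dsgn n i = -1 := by
      intro i
      unfold dsgn
      rw [if_neg (fun hcon => hodd hcon.2)]
    rw [Finset.prod_congr rfl (fun i _ => h1 i), Finset.prod_const, Finset.card_univ,
      Fintype.card_fin]
    exact Even.neg_one_pow (Nat.not_odd_iff_even.mp hodd)

theorem prod_dsgn_sq : (∏ i : Fin n, dsgn n i) * (∏ i : Fin n, dsgn n i) = 1 :=
  Int.units_mul_self _

/-- Duality of tensor product multiplicities: `c^K_{L,M} = c^{M*}_{L,K*}`. -/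
theorem tensorMult_dual {L M K : Fin n → ℤ} (hL : Dominant L) (hLw : IsWt L)
    (hM : Dominant M) (hK : Dominant K) {c c' : (Fin n → ℤ) →₀ ℤ}
    (hc : IsTensorMult L M c) (hc' : IsTensorMult L (dual K) c') : c K = c' (dual M) := by
  classical
  obtain ⟨χ, hχ, -⟩ := exists_weylChar L hL hLw
  have h1 := tensorDecomp_of_tensorMult hχ hc
  have h2 := tensorDecomp_of_tensorMult hχ hc'
  have e1 : c K = (χ * alt (M + rho2 n)).coeff (K + rho2 n) := by
    rw [h1.2, coeff_sum_alt c h1.1 K hK]
  have e2 : c' (dual M) = (χ * alt (dual K + rho2 n)).coeff (dual M + rho2 n) := by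
    rw [h2.2, coeff_sum_alt c' h2.1 (dual M) (dominant_dual hM)]
  rw [e1, e2, coeff_mul_alt, coeff_mul_alt, ← Finset.sum_product', ← Finset.sum_product']
  symm
  refine Finset.sum_bij'
    (fun p _ => (p.1.symm, fun j => dsgn n (p.1.symm j) * p.2 (p.1.symm j) * dsgn n j))
    (fun p _ => (p.1.symm, fun j => dsgn n (p.1.symm j) * p.2 (p.1.symm j) * dsgn n j))
    ?_ ?_ ?_ ?_ ?_
  · intro p hp
    rw [Finset.mem_product] at hp ⊢
    refine ⟨Finset.mem_univ _, ?_⟩
    rw [mem_evenSigns]
    have h3 : ∏ j, dsgn n (p.1.symm j) * p.2 (p.1.symm j) * dsgn n j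
        = (∏ j, (fun i => dsgn n i * p.2 i) (p.1.symm j)) * ∏ j, dsgn n j := by
      rw [← Finset.prod_mul_distrib]
    rw [h3, Equiv.prod_comp p.1.symm (fun i => dsgn n i * p.2 i), Finset.prod_mul_distrib,
      mem_evenSigns.mp hp.2, mul_one, prod_dsgn_sq]
  · intro p hp
    rw [Finset.mem_product] at hp ⊢
    refine ⟨Finset.mem_univ _, ?_⟩
    rw [mem_evenSigns]
    have h3 : ∏ j, dsgn n (p.1.symm j) * p.2 (p.1.symm j) * dsgn n j
        = (∏ j, (fun i => dsgn n i * p.2 i) (p.1.symm j)) * ∏ j, dsgn n j := by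
      rw [← Finset.prod_mul_distrib]
    rw [h3, Equiv.prod_comp p.1.symm (fun i => dsgn n i * p.2 i), Finset.prod_mul_distrib,
      mem_evenSigns.mp hp.2, mul_one, prod_dsgn_sq]
  · intro p _
    refine Prod.ext (Equiv.symm_symm _) ?_
    funext j
    simp only [Equiv.symm_symm, Equiv.symm_apply_apply]
    rcases Int.units_eq_one_or (dsgn n (p.1 j)) with h | h <;>
      rcases Int.units_eq_one_or (dsgn n j) with h' | h' <;> simp [h, h']
  · intro p _
    refine Prod.ext (Equiv.symm_symm _) ?_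
    funext j
    simp only [Equiv.symm_symm, Equiv.symm_apply_apply]
    rcases Int.units_eq_one_or (dsgn n (p.1 j)) with h | h <;>
      rcases Int.units_eq_one_or (dsgn n j) with h' | h' <;> simp [h, h']
  · intro p hp
    obtain ⟨σ, e⟩ := p
    rw [Finset.mem_product] at hp
    have he : e ∈ evenSigns n := hp.2
    simp only
    rw [Equiv.Perm.sign_symm]
    congr 1
    -- the two exponents differ by a Weyl group element
    have he3 : (fun i => e i * (- dsgn n (σ i))) ∈ evenSigns n := by
      rw [mem_evenSigns, Finset.prod_mul_distrib, mem_evenSigns.mp he, one_mul,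
        Equiv.prod_comp σ (fun j => - dsgn n j)]
      exact prod_neg_dsgn n
    have hA : dual M + rho2 n - wact σ e (dual K + rho2 n)
        = wact σ (fun i => e i * (- dsgn n (σ i)))
          (K + rho2 n - wact σ.symm
            (fun j => dsgn n (σ.symm j) * e (σ.symm j) * dsgn n j) (M + rho2 n)) := by
      funext i
      have hr : ((dsgn n i : ℤˣ) : ℤ) * rho2 n i = rho2 n i := congrFun (dual_rho2 (n := n)) i
      have hr2 : ((dsgn n (σ i) : ℤˣ) : ℤ) * rho2 n (σ i) = rho2 n (σ i) :=
        congrFun (dual_rho2 (n := n)) (σ i)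
      have ha := units_int_mul_self (e i)
      have hs := units_int_mul_self (dsgn n (σ i))
      simp only [Pi.sub_apply, Pi.add_apply, wact, Equiv.symm_apply_apply, Units.val_mul,
        Units.val_neg, dual]
      linear_combination
        (-(((dsgn n i : ℤˣ) : ℤ) * (M i + rho2 n i) * ((dsgn n (σ i) : ℤˣ) : ℤ)
          * ((dsgn n (σ i) : ℤˣ) : ℤ))) * ha
        + (-(((dsgn n i : ℤˣ) : ℤ) * (M i + rho2 n i))) * hs
        + ((e i : ℤˣ) : ℤ) * hr2 + (-1 : ℤ) * hr
    rw [hA, weylChar_coeff_wact hχ σ _ he3]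

end Vale.Agent.Lib.P182
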