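import Vale.Agent.Lib.P182.HalfSpinMain

namespace Vale.Agent.Lib.P182

open Finset

variable {n : ℕ}

theorem isWt_wact {v : Fin n → ℤ} (h : IsWt v) (σ : Equiv.Perm (Fin n)) (e : Fin n → ℤˣ) :
    IsWt (wact σ e v) := by
  intro i j
  have h0 := h (σ i) (σ j)
  simp only [wact]
  rcases Int.units_eq_one_or (e i) with h1 | h1 <;>
    rcases Int.units_eq_one_or (e j) with h2 | h2 <;>
    simp only [h1, h2, Units.val_one, Units.val_neg] <;> omega

theorem rho2_even (i : Fin n) : 2 ∣ rho2 n i := Dvd.intro _ rfl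

theorem isWt_add_rho2 {v : Fin n → ℤ} (h : IsWt v) : IsWt (v + rho2 n) := by
  intro i j
  have h0 := h i j
  have h1 := rho2_even (n := n) i
  have h2 := rho2_even (n := n) j
  simp only [Pi.add_apply]
  omega

theorem isWt_sub_rho2 {v : Fin n → ℤ} (h : IsWt v) : IsWt (v - rho2 n) := by
  intro i j
  have h0 := h i j
  have h1 := rho2_even (n := n) i
  have h2 := rho2_even (n := n) j
  simp only [Pi.sub_apply]
  omega

theorem isWt_add {v w : Fin n → ℤ} (hv : IsWt v) (hw : IsWt w) : IsWt (v + w) := by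
  intro i j
  have h0 := hv i j
  have h1 := hw i j
  simp only [Pi.add_apply]
  omega

theorem sdom_gap {X : Fin n → ℤ} (hX : SDom X) (hW : IsWt X) :
    ∀ d : ℕ, ∀ i j : Fin n, j.val = i.val + d + 1 → |X j| + 2 * ((d : ℤ) + 1) ≤ X i := by
  intro d
  induction d with
  | zero =>
    intro i j hd
    have hlt : i < j := by show i.val < j.val; omega
    have h1 := hX i j hlt
    have h2 := hW i j
    rcases abs_cases (X j) with ⟨h3, _⟩ | ⟨h3, _⟩ <;> rw [h3] at h1 ⊢ <;> push_cast <;> omega
  | succ d ih =>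
    intro i j hd
    have hk : i.val + 1 < n := by have := j.isLt; omega
    have h1 := ih ⟨i.val + 1, hk⟩ j (by simp; omega)
    have hlt : i < (⟨i.val + 1, hk⟩ : Fin n) := by show i.val < i.val + 1; omega
    have h2 := hX i _ hlt
    have h3 := hW i ⟨i.val + 1, hk⟩
    have h4 := le_abs_self (X ⟨i.val + 1, hk⟩)
    rcases abs_cases (X ⟨i.val + 1, hk⟩) with ⟨h5, _⟩ | ⟨h5, _⟩ <;> rw [h5] at h2 h4 <;>
      push_cast <;> omega

theorem dominant_sub_rho2 {X : Fin n → ℤ} (hX : SDom X) (hW : IsWt X) :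
    Dominant (X - rho2 n) := by
  intro i j hij
  have hij' : i.val < j.val := hij
  have h1 := sdom_gap hX hW (j.val - i.val - 1) i j (by omega)
  have h2 : rho2 n i = rho2 n j + 2 * (((j.val - i.val - 1 : ℕ) : ℤ) + 1) := by
    simp only [rho2]
    have : ((j.val - i.val - 1 : ℕ) : ℤ) = (j.val : ℤ) - (i.val : ℤ) - 1 := by omega
    rw [this]; ring
  simp only [Pi.sub_apply]
  by_cases hlast : j.val + 1 < n
  · have h3 := sdom_gap hX hW (n - 1 - j.val - 1) j ⟨n - 1, by omega⟩ (by simp; omega)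
    have h4 : rho2 n j = 2 * (((n - 1 - j.val - 1 : ℕ) : ℤ) + 1) := by
      simp only [rho2]
      have : ((n - 1 - j.val - 1 : ℕ) : ℤ) = (n : ℤ) - 1 - (j.val : ℤ) - 1 := by omega
      rw [this]; ring
    have h5 := abs_nonneg (X ⟨n - 1, by omega⟩)
    have h6 := le_abs_self (X j)
    rw [abs_of_nonneg (by omega)]
    omega
  · have h4 : rho2 n j = 0 := by
      have := j.isLt
      simp only [rho2]
      have : (j.val : ℤ) = (n : ℤ) - 1 := by omega
      rw [this]; ring
    rw [h4, sub_zero]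
    omega

/-- Squared norm. -/
def nsq (v : Fin n → ℤ) : ℤ := ∑ i, (v i) ^ 2

theorem units_sq_int (u : ℤˣ) : ((u : ℤˣ) : ℤ) ^ 2 = 1 := by
  rcases Int.units_eq_one_or u with h | h <;> simp [h]

theorem nsq_wact (σ : Equiv.Perm (Fin n)) (e : Fin n → ℤˣ) (v : Fin n → ℤ) :
    nsq (wact σ e v) = nsq v := by
  simp only [nsq, wact, mul_pow, units_sq_int, one_mul]
  exact Equiv.sum_comp σ (fun i => (v i) ^ 2)

theorem nsq_nonneg (v : Fin n → ℤ) : 0 ≤ nsq v :=
  Finset.sum_nonneg (fun i _ => sq_nonneg _)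

/-- Every vector has vanishing alternant or is conjugate to a strictly dominant one. -/
theorem exists_sdom_or_zero (v : Fin n → ℤ) :
    alt v = 0 ∨ ∃ τ : Equiv.Perm (Fin n), ∃ d ∈ evenSigns n, SDom (wact τ d v) := by
  by_cases hreg : ∀ i j, i ≠ j → |v i| ≠ |v j|
  · right
    set τ : Equiv.Perm (Fin n) := Tuple.sort (fun i => -|v i|) with hτ
    have hmono : Monotone ((fun i => -|v i|) ∘ τ) := Tuple.monotone_sort _
    have hstrict : ∀ i j, i < j → |v (τ j)| < |v (τ i)| := by
      intro i j hij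
      have h1 := hmono (le_of_lt hij)
      simp only [Function.comp] at h1
      have h2 : |v (τ i)| ≠ |v (τ j)| := hreg _ _ (fun hc => (ne_of_lt hij) (τ.injective hc))
      omega
    by_cases hn : n = 0
    · subst hn
      exact ⟨τ, 1, one_mem_evenSigns, fun i => i.elim0⟩
    · have hl : n - 1 < n := by omega
      set l : Fin n := ⟨n - 1, hl⟩ with hldef
      set d0 : Fin n → ℤˣ := fun i => if 0 ≤ v (τ i) then 1 else -1 with hd0
      set p : ℤˣ := ∏ i, d0 i with hp
      set d : Fin n → ℤˣ := fun i => d0 i * (if i = l then p else 1) with hd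
      have hdmem : d ∈ evenSigns n := by
        rw [mem_evenSigns, Finset.prod_mul_distrib, Finset.prod_ite_eq']
        simp only [Finset.mem_univ, if_true]
        exact Int.units_mul_self p
      refine ⟨τ, d, hdmem, ?_⟩
      intro i j hij
      rw [abs_wact]
      have hil : i ≠ l := by
        intro hc
        have h1 : i.val < j.val := hij
        have h2 := j.isLt
        rw [hc] at h1
        simp only [hldef] at h1
        omega
      have hdi : d i = d0 i := by simp [hd, hil]
      have hval : wact τ d v i = |v (τ i)| := by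
        simp only [wact, hdi, hd0]
        split_ifs with h1
        · rw [abs_of_nonneg h1]; simp
        · rw [abs_of_neg (not_le.mp h1)]; simp
      rw [hval]
      exact hstrict i j hij
  · left
    push Not at hreg
    obtain ⟨i, j, hij, habs⟩ := hreg
    rcases abs_eq_abs.mp habs with h | h
    · exact alt_eq_zero_of_eq hij h
    · exact alt_eq_zero_of_eq_neg hij h

theorem alt_wact (σ : Equiv.Perm (Fin n)) (e : Fin n → ℤˣ) (he : e ∈ evenSigns n)
    (v : Fin n → ℤ) : alt (wact σ e v) = ((Equiv.Perm.sign σ : ℤˣ) : ℤ) • alt v := by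
  have h1 : wact σ e v = fun i => ((e i : ℤˣ) : ℤ) * (fun k => v (σ k)) i := rfl
  rw [h1, alt_sign_mul e he, alt_comp_perm]

/-- Weak rearrangement inequality for the Weyl group of type `D_n`. -/
theorem sum_mul_wact_le (R' B : Fin n → ℤ) (hanti : ∀ i j, i ≤ j → R' j ≤ R' i)
    (hnonneg : ∀ i, 0 ≤ R' i) (hlast : ∀ i, (∀ j, j ≤ i) → R' i = 0) (hB : Dominant B)
    (σ : Equiv.Perm (Fin n)) (e : Fin n → ℤˣ) :
    ∑ i, R' i * wact σ e B i ≤ ∑ i, R' i * B i := by
  have step1 : ∑ i, R' i * wact σ e B i ≤ ∑ i, |B (σ i)| * R' i := by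
    refine Finset.sum_le_sum (fun i _ => ?_)
    have h1 := le_abs_self (wact σ e B i)
    rw [abs_wact] at h1
    rw [mul_comm]
    exact mul_le_mul_of_nonneg_right h1 (hnonneg i)
  have hmono : Monovary (fun i => |B i|) R' := by
    intro i j hlt
    have hji : j < i := by
      by_contra hc
      push Not at hc
      exact absurd (hanti i j hc) (not_le.mpr hlt)
    exact le_trans (hB j i hji) (le_abs_self _)
  have step2 : ∑ i, |B (σ i)| * R' i ≤ ∑ i, |B i| * R' i :=
    hmono.sum_comp_perm_mul_le_sum_mul (σ := σ)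
  have step3 : ∑ i, |B i| * R' i = ∑ i, R' i * B i := by
    refine Finset.sum_congr rfl (fun i _ => ?_)
    by_cases hl : ∀ j, j ≤ i
    · rw [hlast i hl]; ring
    · push Not at hl
      obtain ⟨j, hj⟩ := hl
      have h1 : 0 ≤ B i := le_trans (abs_nonneg _) (hB i j hj)
      rw [abs_of_nonneg h1]; ring
  linarith

end Vale.Agent.Lib.P182
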