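import Vale.Agent.Lib.P182.Exist

namespace Vale.Agent.Lib.P182

open Finset

variable {n : ℕ}

theorem wact_injective (σ : Equiv.Perm (Fin n)) (e : Fin n → ℤˣ) :
    Function.Injective (wact σ e) := by
  intro v w h
  funext i
  have h1 := congrFun h (σ.symm i)
  simp only [wact, Equiv.apply_symm_apply] at h1
  exact mul_left_cancel₀ (Units.ne_zero _) h1

/-- Strict rearrangement: a nontrivial Weyl conjugate of a dominant vector has strictly smaller
inner product with `2ρ`. -/
theorem sum_rho2_wact_lt (B : Fin n → ℤ) (hB : Dominant B)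
    (σ : Equiv.Perm (Fin n)) (e : Fin n → ℤˣ) (he : e ∈ evenSigns n) (hne : wact σ e B ≠ B) :
    ∑ i, rho2 n i * wact σ e B i < ∑ i, rho2 n i * B i := by
  classical
  set t := wact σ e B with ht
  have hR_anti : ∀ i j : Fin n, i ≤ j → rho2 n j ≤ rho2 n i := by
    intro i j hij
    rcases hij.lt_or_eq with h | h
    · have := rho2_lt (n := n) h; omega
    · rw [h]
  have hR_last : ∀ i : Fin n, (∀ j, j ≤ i) → rho2 n i = 0 := by
    intro i hi
    by_cases hn : i.val + 1 < n
    · have := hi ⟨i.val + 1, hn⟩
      have h2 : i.val + 1 ≤ i.val := this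
      omega
    · have := i.isLt
      simp only [rho2]
      have : (i.val : ℤ) = (n : ℤ) - 1 := by omega
      rw [this]; ring
  have hweak := sum_mul_wact_le (rho2 n) B hR_anti rho2_nonneg hR_last hB σ e
  by_contra hcon
  push Not at hcon
  have heq : ∑ i, rho2 n i * t i = ∑ i, rho2 n i * B i := le_antisymm hweak hcon
  -- coordinates other than the last agree
  have hcoord : ∀ i0 : Fin n, (∃ j, i0 < j) → t i0 = B i0 := by
    intro i0 ⟨j0, hj0⟩
    have hRi0 : 2 ≤ rho2 n i0 := by
      have := rho2_lt (n := n) hj0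
      have := rho2_nonneg (n := n) j0
      omega
    have hpert : ∀ s : ℤ, (s = 1 ∨ s = -1) → s * t i0 ≤ s * B i0 := by
      intro s hs
      set R' : Fin n → ℤ := fun i => rho2 n i + (if i = i0 then s else 0) with hR'
      have h1 : ∀ i j, i ≤ j → R' j ≤ R' i := by
        intro i j hij
        rcases hij.lt_or_eq with h | h
        · have := rho2_lt (n := n) h
          simp only [hR']
          split_ifs <;> rcases hs with hs | hs <;> omega
        · rw [h]
      have h2 : ∀ i, 0 ≤ R' i := by
        intro i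
        have := rho2_nonneg (n := n) i
        simp only [hR']
        split_ifs with h
        · rw [h]; rcases hs with hs | hs <;> omega
        · omega
      have h3 : ∀ i, (∀ j, j ≤ i) → R' i = 0 := by
        intro i hi
        have hne : i ≠ i0 := by
          intro hc
          rw [hc] at hi
          exact absurd (hi j0) (not_le.mpr hj0)
        simp only [hR', hne, if_false, add_zero]
        exact hR_last i hi
      have h4 := sum_mul_wact_le R' B h1 h2 h3 hB σ e
      have h5 : ∀ w : Fin n → ℤ, ∑ i, R' i * w i = ∑ i, rho2 n i * w i + s * w i0 := by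
        intro w
        simp only [hR', add_mul, Finset.sum_add_distrib]
        congr 1
        simp [Finset.sum_ite_eq']
      rw [h5, h5] at h4
      rw [← ht] at h4
      linarith
    have h1 := hpert 1 (Or.inl rfl)
    have h2 := hpert (-1) (Or.inr rfl)
    linarith
  apply hne
  funext i
  by_cases hi : ∃ j, i < j
  · exact hcoord i hi
  · push Not at hi
    -- `i` is the last index
    have hothers : ∀ k, k ≠ i → t k = B k := by
      intro k hk
      exact hcoord k ⟨i, lt_of_le_of_ne (hi k) hk⟩
    have hnsq : nsq t = nsq B := nsq_wact σ e B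
    have hsq : (t i) ^ 2 = (B i) ^ 2 := by
      simp only [nsq] at hnsq
      rw [← Finset.add_sum_erase Finset.univ _ (Finset.mem_univ i),
        ← Finset.add_sum_erase Finset.univ (fun k => (B k) ^ 2) (Finset.mem_univ i)] at hnsq
      have h3 : ∑ k ∈ Finset.univ.erase i, (t k) ^ 2 = ∑ k ∈ Finset.univ.erase i, (B k) ^ 2 := by
        refine Finset.sum_congr rfl (fun k hk => ?_)
        rw [hothers k (Finset.mem_erase.mp hk).1]
      linarith
    rcases sq_eq_sq_iff_eq_or_eq_neg.mp hsq with h | h
    · exact h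
    · by_cases hB0 : B i = 0
      · rw [h, hB0]; simp
      · exfalso
        have hprod : ∏ k, t k = ∏ k, B k := by
          simp only [ht, wact]
          rw [Finset.prod_mul_distrib, Equiv.prod_comp σ B]
          have : ∏ k, ((e k : ℤˣ) : ℤ) = 1 := by
            rw [← Units.coe_prod, mem_evenSigns.mp he]; simp
          rw [this, one_mul]
        rw [← Finset.mul_prod_erase Finset.univ t (Finset.mem_univ i),
          ← Finset.mul_prod_erase Finset.univ B (Finset.mem_univ i)] at hprod
        have h3 : ∏ k ∈ Finset.univ.erase i, t k = ∏ k ∈ Finset.univ.erase i, B k := by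
          refine Finset.prod_congr rfl (fun k hk => ?_)
          rw [hothers k (Finset.mem_erase.mp hk).1]
        have hpos : 0 < ∏ k ∈ Finset.univ.erase i, B k := by
          apply Finset.prod_pos
          intro k hk
          have hki : k ≠ i := (Finset.mem_erase.mp hk).1
          have h4 := hB k i (lt_of_le_of_ne (hi k) hki)
          have h5 : 0 < |B i| := abs_pos.mpr hB0
          omega
        rw [h3, h] at hprod
        have h6 : -B i = B i := mul_right_cancel₀ (ne_of_gt hpos) hprod
        omega

/-- The norm of `2ρ + t` strictly decreases away from the dominant point of an orbit. -/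
theorem nsq_rho2_add_lt (B : Fin n → ℤ) (hB : Dominant B)
    (σ : Equiv.Perm (Fin n)) (e : Fin n → ℤˣ) (he : e ∈ evenSigns n) (hne : wact σ e B ≠ B) :
    nsq (rho2 n + wact σ e B) < nsq (rho2 n + B) := by
  have h1 := sum_rho2_wact_lt B hB σ e he hne
  have h2 : nsq (wact σ e B) = nsq B := nsq_wact σ e B
  have h3 : ∀ w : Fin n → ℤ, nsq (rho2 n + w) = nsq (rho2 n) + 2 * ∑ i, rho2 n i * w i + nsq w := by
    intro w
    simp only [nsq, Pi.add_apply, Finset.mul_sum, ← Finset.sum_add_distrib]
    refine Finset.sum_congr rfl (fun i _ => ?_)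
    ring
  rw [h3, h3, h2]
  linarith

/-- The Weyl orbit of a vector, as a finite set. -/
noncomputable def orbit (B : Fin n → ℤ) : Finset (Fin n → ℤ) :=
  open Classical in
  (Finset.univ ×ˢ evenSigns n).image
    (fun p : Equiv.Perm (Fin n) × (Fin n → ℤˣ) => wact p.1 p.2 B)

theorem mem_orbit {B t : Fin n → ℤ} :
    t ∈ orbit B ↔ ∃ σ : Equiv.Perm (Fin n), ∃ e ∈ evenSigns n, wact σ e B = t := by
  classical
  simp only [orbit, Finset.mem_image, Finset.mem_product, Finset.mem_univ, true_and, Prod.exists]

theorem self_mem_orbit (B : Fin n → ℤ) : B ∈ orbit B :=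
  mem_orbit.mpr ⟨1, 1, one_mem_evenSigns, wact_one B⟩

theorem wact_wact (σ τ : Equiv.Perm (Fin n)) (e d : Fin n → ℤˣ) (v : Fin n → ℤ) :
    wact σ e (wact τ d v) = wact (τ * σ) (fun i => e i * d (σ i)) v := by
  funext i
  simp [wact, mul_assoc]

theorem wact_mem_orbit {B t : Fin n → ℤ} (ht : t ∈ orbit B) (σ : Equiv.Perm (Fin n))
    (e : Fin n → ℤˣ) (he : e ∈ evenSigns n) : wact σ e t ∈ orbit B := by
  obtain ⟨τ, d, hd, rfl⟩ := mem_orbit.mp ht
  rw [wact_wact]
  refine mem_orbit.mpr ⟨τ * σ, _, ?_, rfl⟩
  rw [mem_evenSigns, Finset.prod_mul_distrib, mem_evenSigns.mp he, one_mul, Equiv.prod_comp σ d]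
  exact mem_evenSigns.mp hd

theorem orbit_stable (B : Fin n → ℤ) (σ : Equiv.Perm (Fin n)) (e : Fin n → ℤˣ)
    (he : e ∈ evenSigns n) :
    ∑ t ∈ orbit B, AddMonoidAlgebra.single (wact σ e t) (1 : ℤ)
      = ∑ t ∈ orbit B, AddMonoidAlgebra.single t (1 : ℤ) := by
  classical
  have himg : (orbit B).image (wact σ e) = orbit B := by
    apply Finset.eq_of_subset_of_card_le
    · intro t ht
      obtain ⟨t', ht', rfl⟩ := Finset.mem_image.mp ht
      exact wact_mem_orbit ht' σ e he
    · rw [Finset.card_image_of_injective _ (wact_injective σ e)]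
  conv_rhs => rw [← himg]
  rw [Finset.sum_image (fun x _ y _ h => wact_injective σ e h)]

/-- The orbit sum of `B`. -/
noncomputable def orbSum (B : Fin n → ℤ) : AddMonoidAlgebra ℤ (Fin n → ℤ) :=
  ∑ t ∈ orbit B, AddMonoidAlgebra.single t (1 : ℤ)

theorem orbSum_mul_alt (B v : Fin n → ℤ) :
    orbSum B * alt v = ∑ t ∈ orbit B, alt (v + t) :=
  sum_single_mul_alt (orbit B) id (orbit_stable B) v

end Vale.Agent.Lib.P182
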