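import Vale.Agent.Lib.P182.Exist2

namespace Vale.Agent.Lib.P182

open Finset

variable {n : ℕ}

/-- `F` is an integer combination of alternants of shifted dominant vectors. -/
def IsAltComb (F : AddMonoidAlgebra ℤ (Fin n → ℤ)) : Prop :=
  ∃ c : (Fin n → ℤ) →₀ ℤ, (∀ K ∈ c.support, Dominant K) ∧
    F = ∑ K ∈ c.support, c K • alt (K + rho2 n)

theorem altComb_eq_sum (c : (Fin n → ℤ) →₀ ℤ) :
    ∑ K ∈ c.support, c K • alt (K + rho2 n) = c.sum (fun K a => a • alt (K + rho2 n)) := rfl

theorem isAltComb_zero : IsAltComb (0 : AddMonoidAlgebra ℤ (Fin n → ℤ)) :=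
  ⟨0, by simp, by simp⟩

theorem isAltComb_add {F G : AddMonoidAlgebra ℤ (Fin n → ℤ)} (hF : IsAltComb F)
    (hG : IsAltComb G) : IsAltComb (F + G) := by
  classical
  obtain ⟨c, hc, rfl⟩ := hF
  obtain ⟨c', hc', rfl⟩ := hG
  refine ⟨c + c', ?_, ?_⟩
  · intro K hK
    rcases Finset.mem_union.mp (Finsupp.support_add hK) with h | h
    · exact hc K h
    · exact hc' K h
  · rw [altComb_eq_sum, altComb_eq_sum, altComb_eq_sum, Finsupp.sum_add_index']
    · intro a; simp
    · intro a b1 b2; rw [add_smul]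

theorem isAltComb_zsmul {F : AddMonoidAlgebra ℤ (Fin n → ℤ)} (z : ℤ) (hF : IsAltComb F) :
    IsAltComb (z • F) := by
  obtain ⟨c, hc, rfl⟩ := hF
  refine ⟨z • c, ?_, ?_⟩
  · intro K hK
    exact hc K (Finsupp.support_smul hK)
  · rw [altComb_eq_sum, altComb_eq_sum, Finsupp.sum_smul_index (by intro a; simp)]
    simp only [Finsupp.sum, Finset.smul_sum, mul_smul]

theorem isAltComb_sub {F G : AddMonoidAlgebra ℤ (Fin n → ℤ)} (hF : IsAltComb F)
    (hG : IsAltComb G) : IsAltComb (F - G) := by
  have h := isAltComb_add hF (isAltComb_zsmul (-1) hG)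
  simpa [sub_eq_add_neg] using h

theorem isAltComb_sum {ι : Type*} (S : Finset ι) (F : ι → AddMonoidAlgebra ℤ (Fin n → ℤ))
    (h : ∀ s ∈ S, IsAltComb (F s)) : IsAltComb (∑ s ∈ S, F s) := by
  classical
  induction S using Finset.induction_on with
  | empty => simpa using isAltComb_zero
  | insert a S ha ih =>
    rw [Finset.sum_insert ha]
    exact isAltComb_add (h a (Finset.mem_insert_self a S))
      (ih (fun s hs => h s (Finset.mem_insert_of_mem hs)))

theorem sign_smul_sign_smul (τ : Equiv.Perm (Fin n)) (F : AddMonoidAlgebra ℤ (Fin n → ℤ)) :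
    ((Equiv.Perm.sign τ : ℤˣ) : ℤ) • ((Equiv.Perm.sign τ : ℤˣ) : ℤ) • F = F := by
  rw [smul_smul, ← Units.val_mul, Int.units_mul_self]
  simp

theorem isAltComb_alt_of_isWt (v : Fin n → ℤ) (hW : IsWt v) : IsAltComb (alt v) := by
  rcases exists_sdom_or_zero v with h0 | ⟨τ, d, hd, hsd⟩
  · rw [h0]; exact isAltComb_zero
  · have hW' : IsWt (wact τ d v) := isWt_wact hW τ d
    have hdom : Dominant (wact τ d v - rho2 n) := dominant_sub_rho2 hsd hW'
    have h1 : alt v = ((Equiv.Perm.sign τ : ℤˣ) : ℤ) • alt (wact τ d v - rho2 n + rho2 n) := by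
      rw [sub_add_cancel, alt_wact τ d hd, sign_smul_sign_smul]
    rw [h1]
    apply isAltComb_zsmul
    refine ⟨Finsupp.single (wact τ d v - rho2 n) 1, ?_, ?_⟩
    · intro K hK
      have := Finsupp.support_single_subset hK
      rw [Finset.mem_singleton] at this
      rw [this]; exact hdom
    · rw [altComb_eq_sum, Finsupp.sum_single_index (by simp)]
      simp

theorem isWt_rho2 : IsWt (rho2 n) := by
  intro i j
  have h1 := rho2_even (n := n) i
  have h2 := rho2_even (n := n) j
  omega

/-- Existence of Weyl characters: the alternant of a shifted dominant weight is divisible by the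
Weyl denominator, and the quotient times any alternant is a combination of alternants. -/
theorem exists_char : ∀ k : ℕ, ∀ B : Fin n → ℤ, Dominant B → IsWt B →
    (nsq (rho2 n + B)).toNat = k →
    ∃ χ : AddMonoidAlgebra ℤ (Fin n → ℤ), χ * alt (rho2 n) = alt (B + rho2 n) ∧
      ∀ M, IsWt M → IsAltComb (χ * alt (M + rho2 n)) := by
  classical
  intro k
  induction k using Nat.strong_induction_on with
  | _ k ih =>
    intro B hB hW hk
    have hstep : ∀ t ∈ (orbit B).erase B, ∃ χt : AddMonoidAlgebra ℤ (Fin n → ℤ),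
        χt * alt (rho2 n) = alt (rho2 n + t) ∧
          ∀ M, IsWt M → IsAltComb (χt * alt (M + rho2 n)) := by
      intro t ht
      obtain ⟨hneB, htorb⟩ := Finset.mem_erase.mp ht
      obtain ⟨σ, e, he, rfl⟩ := mem_orbit.mp htorb
      rcases exists_sdom_or_zero (rho2 n + wact σ e B) with h0 | ⟨τ, d, hd, hsd⟩
      · refine ⟨0, by rw [zero_mul, h0], fun M _ => by rw [zero_mul]; exact isAltComb_zero⟩
      · have hW' : IsWt (wact τ d (rho2 n + wact σ e B)) :=
          isWt_wact (isWt_add isWt_rho2 (isWt_wact hW σ e)) τ d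
        have hB' : Dominant (wact τ d (rho2 n + wact σ e B) - rho2 n) :=
          dominant_sub_rho2 hsd hW'
        have hcancel : rho2 n + (wact τ d (rho2 n + wact σ e B) - rho2 n)
            = wact τ d (rho2 n + wact σ e B) := by abel
        have hlt : (nsq (rho2 n + (wact τ d (rho2 n + wact σ e B) - rho2 n))).toNat < k := by
          rw [hcancel, nsq_wact, ← hk]
          have h1 := nsq_rho2_add_lt B hB σ e he hneB
          have h2 := nsq_nonneg (rho2 n + wact σ e B)
          omega
        obtain ⟨χ', hχ', hcomb'⟩ := ih _ hlt _ hB' (isWt_sub_rho2 hW') rfl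
        refine ⟨((Equiv.Perm.sign τ : ℤˣ) : ℤ) • χ', ?_, ?_⟩
        · rw [smul_mul_assoc, hχ', sub_add_cancel, alt_wact τ d hd, sign_smul_sign_smul]
        · intro M hM
          rw [smul_mul_assoc]
          exact isAltComb_zsmul _ (hcomb' M hM)
    choose! f hf using hstep
    refine ⟨orbSum B - ∑ t ∈ (orbit B).erase B, f t, ?_, ?_⟩
    · rw [sub_mul, orbSum_mul_alt, Finset.sum_mul,
        Finset.sum_congr rfl (fun t ht => (hf t ht).1),
        ← Finset.add_sum_erase (orbit B) _ (self_mem_orbit B), add_sub_cancel_right, add_comm]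
    · intro M hM
      rw [sub_mul, orbSum_mul_alt, Finset.sum_mul]
      apply isAltComb_sub
      · apply isAltComb_sum
        intro t ht
        apply isAltComb_alt_of_isWt
        obtain ⟨σ, e, he, rfl⟩ := mem_orbit.mp ht
        exact isWt_add (isWt_add_rho2 hM) (isWt_wact hW σ e)
      · apply isAltComb_sum
        intro t ht
        exact (hf t ht).2 M hM

/-- Existence of the Weyl character of a dominant weight. -/
theorem exists_weylChar (L : Fin n → ℤ) (hL : Dominant L) (hW : IsWt L) :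
    ∃ χ : AddMonoidAlgebra ℤ (Fin n → ℤ), IsWeylChar L χ ∧
      ∀ M, IsWt M → IsAltComb (χ * alt (M + rho2 n)) :=
  exists_char _ L hL hW rfl

/-- Existence of tensor product multiplicities. -/
theorem exists_tensorMult (L M : Fin n → ℤ) (hL : Dominant L) (hWL : IsWt L) (hWM : IsWt M) :
    ∃ c : (Fin n → ℤ) →₀ ℤ, IsTensorMult L M c := by
  obtain ⟨χ, hχ, hcomb⟩ := exists_weylChar L hL hWL
  obtain ⟨c, hcd, hc⟩ := hcomb M hWM
  refine ⟨c, hcd, ?_⟩
  unfold IsWeylChar at hχ
  rw [← hc, ← hχ]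
  ring

/-- Uniqueness of tensor product multiplicities. -/
theorem tensorMult_unique {L M : Fin n → ℤ} {c c' : (Fin n → ℤ) →₀ ℤ}
    (h : IsTensorMult L M c) (h' : IsTensorMult L M c') : c = c' := by
  have h1 : ∑ K ∈ c.support, c K • alt (K + rho2 n)
      = ∑ K ∈ c'.support, c' K • alt (K + rho2 n) :=
    mul_left_cancel₀ alt_rho2_ne_zero (h.2.symm.trans h'.2)
  ext K
  by_cases hK : Dominant K
  · rw [← coeff_sum_alt c h.1 K hK, ← coeff_sum_alt c' h'.1 K hK, h1]
  · have e1 : c K = 0 := by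
      by_contra hc
      exact hK (h.1 K (Finsupp.mem_support_iff.mpr hc))
    have e2 : c' K = 0 := by
      by_contra hc
      exact hK (h'.1 K (Finsupp.mem_support_iff.mpr hc))
    rw [e1, e2]

theorem tensorDecomp_of_tensorMult {L M : Fin n → ℤ} {χ : AddMonoidAlgebra ℤ (Fin n → ℤ)}
    {c : (Fin n → ℤ) →₀ ℤ} (hχ : IsWeylChar L χ) (h : IsTensorMult L M c) :
    IsTensorDecomp χ M c := by
  refine ⟨h.1, mul_left_cancel₀ alt_rho2_ne_zero ?_⟩
  unfold IsWeylChar at hχ
  rw [← h.2, ← hχ]
  ring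

end Vale.Agent.Lib.P182
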