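import Vale.Agent.Lib.P182.FrIp

/-!
# Calculus of the coefficientwise weight operators `wt w` on the group ring `ℤ[ℤ^n]`
-/

namespace Vale.Agent.Lib.P182

open Finset

variable {n : ℕ}

theorem wt_add (w : (Fin n → ℤ) → ℤ) (f g : AddMonoidAlgebra ℤ (Fin n → ℤ)) :
    wt w (f + g) = wt w f + wt w g := by
  ext γ
  rw [wt_coeff, AddMonoidAlgebra.coeff_add, AddMonoidAlgebra.coeff_add, Finsupp.add_apply,
    Finsupp.add_apply, wt_coeff, wt_coeff, mul_add]

theorem wt_sub (w : (Fin n → ℤ) → ℤ) (f g : AddMonoidAlgebra ℤ (Fin n → ℤ)) :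
    wt w (f - g) = wt w f - wt w g := by
  ext γ
  rw [wt_coeff, AddMonoidAlgebra.coeff_sub, AddMonoidAlgebra.coeff_sub, Finsupp.sub_apply,
    Finsupp.sub_apply, wt_coeff, wt_coeff, mul_sub]

theorem wt_zsmul (w : (Fin n → ℤ) → ℤ) (z : ℤ) (f : AddMonoidAlgebra ℤ (Fin n → ℤ)) :
    wt w (z • f) = z • wt w f := by
  ext γ
  rw [wt_coeff, AddMonoidAlgebra.coeff_smul, AddMonoidAlgebra.coeff_smul, Finsupp.smul_apply,
    Finsupp.smul_apply, wt_coeff, smul_eq_mul, smul_eq_mul]
  ring

theorem frcalc_wt_zero (w : (Fin n → ℤ) → ℤ) :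
    wt w (0 : AddMonoidAlgebra ℤ (Fin n → ℤ)) = 0 := by
  ext γ
  rw [wt_coeff]
  simp

theorem wt_sum {ι : Type*} (s : Finset ι) (w : (Fin n → ℤ) → ℤ)
    (f : ι → AddMonoidAlgebra ℤ (Fin n → ℤ)) :
    wt w (∑ i ∈ s, f i) = ∑ i ∈ s, wt w (f i) := by
  classical
  induction s using Finset.induction_on with
  | empty => rw [Finset.sum_empty, Finset.sum_empty, frcalc_wt_zero]
  | insert a s ha ih => rw [Finset.sum_insert ha, Finset.sum_insert ha, wt_add, ih]

theorem wt_single (w : (Fin n → ℤ) → ℤ) (a : Fin n → ℤ) (r : ℤ) :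
    wt w (AddMonoidAlgebra.single a r) = AddMonoidAlgebra.single a (w a * r) := by
  ext γ
  rw [wt_coeff, AddMonoidAlgebra.coeff_single, AddMonoidAlgebra.coeff_single,
    Finsupp.single_apply, Finsupp.single_apply]
  split_ifs with h
  · rw [h]
  · rw [mul_zero]

/-- Leibniz rule for an additive weight. -/
theorem wt_mul (w : (Fin n → ℤ) → ℤ) (hw : ∀ a b, w (a + b) = w a + w b)
    (f g : AddMonoidAlgebra ℤ (Fin n → ℤ)) :
    wt w (f * g) = wt w f * g + f * wt w g := by
  refine AddMonoidAlgebra.induction_linear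
    (motive := fun f => wt w (f * g) = wt w f * g + f * wt w g) f ?_ ?_ ?_
  · rw [zero_mul, frcalc_wt_zero, zero_mul, zero_mul, add_zero]
  · intro x y hx hy
    rw [add_mul, wt_add, hx, hy, wt_add, add_mul, add_mul]
    abel
  · intro a r
    refine AddMonoidAlgebra.induction_linear
      (motive := fun g => wt w (AddMonoidAlgebra.single a r * g)
        = wt w (AddMonoidAlgebra.single a r) * g + AddMonoidAlgebra.single a r * wt w g) g ?_ ?_ ?_
    · rw [mul_zero, frcalc_wt_zero, mul_zero, mul_zero, add_zero]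
    · intro x y hx hy
      rw [mul_add, wt_add, hx, hy, wt_add, mul_add, mul_add]
      abel
    · intro b s
      rw [AddMonoidAlgebra.single_mul_single, wt_single, wt_single, wt_single,
        AddMonoidAlgebra.single_mul_single, AddMonoidAlgebra.single_mul_single,
        ← AddMonoidAlgebra.single_add, hw]
      congr 1
      ring

theorem frcalc_sum_single {ι : Type*} (s : Finset ι) (m : Fin n → ℤ) (c : ι → ℤ) :
    ∑ i ∈ s, AddMonoidAlgebra.single m (c i)
      = (AddMonoidAlgebra.single m (∑ i ∈ s, c i) : AddMonoidAlgebra ℤ (Fin n → ℤ)) := by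
  classical
  induction s using Finset.induction_on with
  | empty => rw [Finset.sum_empty, Finset.sum_empty, AddMonoidAlgebra.single_zero]
  | insert a s ha ih =>
    rw [Finset.sum_insert ha, Finset.sum_insert ha, AddMonoidAlgebra.single_add, ih]

/-- Second-order Leibniz rule for the norm square `nsq v = ∑ i, v i ^ 2`. -/
theorem wt_nsq_mul (f g : AddMonoidAlgebra ℤ (Fin n → ℤ)) :
    wt nsq (f * g) = wt nsq f * g
      + (2 : ℤ) • ∑ i : Fin n, wt (fun γ => γ i) f * wt (fun γ => γ i) g + f * wt nsq g := by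
  refine AddMonoidAlgebra.induction_linear
    (motive := fun f => wt nsq (f * g) = wt nsq f * g
      + (2 : ℤ) • ∑ i : Fin n, wt (fun γ => γ i) f * wt (fun γ => γ i) g + f * wt nsq g)
    f ?_ ?_ ?_
  · simp only [zero_mul, frcalc_wt_zero, Finset.sum_const_zero, smul_zero, add_zero]
  · intro x y hx hy
    rw [add_mul, wt_add, hx, hy, wt_add, add_mul, add_mul]
    simp only [wt_add, add_mul, Finset.sum_add_distrib, smul_add]
    abel
  · intro a r
    refine AddMonoidAlgebra.induction_linear
      (motive := fun g => wt nsq (AddMonoidAlgebra.single a r * g)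
        = wt nsq (AddMonoidAlgebra.single a r) * g
          + (2 : ℤ) • ∑ i : Fin n, wt (fun γ => γ i) (AddMonoidAlgebra.single a r)
              * wt (fun γ => γ i) g
          + AddMonoidAlgebra.single a r * wt nsq g) g ?_ ?_ ?_
    · simp only [mul_zero, frcalc_wt_zero, Finset.sum_const_zero, smul_zero, add_zero]
    · intro x y hx hy
      rw [mul_add, wt_add, hx, hy, wt_add, mul_add, mul_add]
      simp only [wt_add, mul_add, Finset.sum_add_distrib, smul_add]
      abel
    · intro b s
      simp only [AddMonoidAlgebra.single_mul_single, wt_single]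
      rw [frcalc_sum_single, AddMonoidAlgebra.smul_single, ← AddMonoidAlgebra.single_add,
        ← AddMonoidAlgebra.single_add]
      congr 1
      rw [nsq_add, smul_eq_mul]
      have h1 : ∑ i : Fin n, a i * r * (b i * s) = ip a b * (r * s) := by
        unfold ip
        rw [Finset.sum_mul]
        apply Finset.sum_congr rfl
        intro i _
        ring
      rw [h1]
      ring

/-- Product rule over a finite set, for an additive weight. -/
theorem wt_prod {ι : Type*} [DecidableEq ι] (w : (Fin n → ℤ) → ℤ)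
    (hw : ∀ a b, w (a + b) = w a + w b) (s : Finset ι)
    (f : ι → AddMonoidAlgebra ℤ (Fin n → ℤ)) :
    wt w (∏ x ∈ s, f x) = ∑ x ∈ s, wt w (f x) * ∏ y ∈ s.erase x, f y := by
  have hw0 : w 0 = 0 := by
    have h := hw 0 0
    rw [add_zero] at h
    linarith
  induction s using Finset.induction_on with
  | empty =>
    rw [Finset.prod_empty, Finset.sum_empty, AddMonoidAlgebra.one_def, wt_single, hw0, zero_mul,
      AddMonoidAlgebra.single_zero]
  | insert a s ha ih =>
    rw [Finset.prod_insert ha, wt_mul w hw, ih, Finset.sum_insert ha, Finset.erase_insert ha,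
      Finset.mul_sum]
    congr 1
    apply Finset.sum_congr rfl
    intro x hx
    have hax : a ≠ x := fun h => ha (h ▸ hx)
    rw [Finset.erase_insert_of_ne hax,
      Finset.prod_insert (fun h => ha (Finset.mem_of_mem_erase h))]
    ring

theorem wt_ip (v : Fin n → ℤ) (f : AddMonoidAlgebra ℤ (Fin n → ℤ)) :
    wt (fun γ => ip γ v) f = ∑ i : Fin n, v i • wt (fun γ => γ i) f := by
  ext γ
  rw [wt_coeff, AddMonoidAlgebra.coeff_sum, Finsupp.finsetSum_apply]
  unfold ip
  rw [Finset.sum_mul]
  apply Finset.sum_congr rfl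
  intro i _
  rw [AddMonoidAlgebra.coeff_smul, Finsupp.smul_apply, wt_coeff, smul_eq_mul]
  ring

/-- All exponents of an alternant have the same norm square. -/
theorem wt_nsq_alt (v : Fin n → ℤ) : wt nsq (alt v) = nsq v • alt v := by
  unfold alt
  rw [wt_sum, Finset.smul_sum]
  apply Finset.sum_congr rfl
  intro σ _
  rw [wt_sum, Finset.smul_sum]
  apply Finset.sum_congr rfl
  intro e _
  rw [wt_single, nsq_wact, AddMonoidAlgebra.smul_single, smul_eq_mul]

theorem wt_Fh (w : (Fin n → ℤ) → ℤ) (hw : ∀ a b, w (a + b) = w a + w b) (h : Fin n → ℤ) :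
    wt w (Fh h) = w h • Gh h := by
  have hw0 : w 0 = 0 := by
    have h0 := hw 0 0
    rw [add_zero] at h0
    linarith
  have hneg : w (-h) = - w h := by
    have h1 := hw h (-h)
    rw [add_neg_cancel, hw0] at h1
    linarith
  unfold Fh Gh
  rw [wt_sub, wt_single, wt_single, hneg, smul_add, AddMonoidAlgebra.smul_single,
    AddMonoidAlgebra.smul_single, smul_eq_mul, neg_mul, AddMonoidAlgebra.single_neg,
    sub_neg_eq_add]

end Vale.Agent.Lib.P182
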