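import Vale.Agent.Lib.P182.FrIp

/-!
# Simple-root decomposition of `L - γ` for `γ` in the hull of the Weyl orbit of `L`
-/

namespace Vale.Agent.Lib.P182

open Finset

variable {n : ℕ}

/-- the product of the sign vector `(1, …, 1, s)` is `s` -/
theorem frdecomp_prod_last (hn : 1 ≤ n) (s : ℤˣ) :
    ∏ i : Fin n, (if i.val + 1 = n then s else 1) = s := by
  have h1 : ∀ i : Fin n, i ≠ (⟨n - 1, by omega⟩ : Fin n) →
      (if i.val + 1 = n then s else 1) = 1 := by
    intro i hi
    rw [Ne, Fin.ext_iff] at hi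
    simp only at hi
    rw [if_neg (by omega)]
  rw [Fintype.prod_eq_single (⟨n - 1, by omega⟩ : Fin n) h1]
  simp only
  rw [if_pos (by omega)]

/-- the sign inequality behind the two spin-type fundamental coweights -/
theorem frdecomp_sign (hn : 1 ≤ n) {L : Fin n → ℤ} (hL : Dominant L) (u : Fin n → ℤˣ) (s : ℤˣ)
    (hu : ∏ i, u i = s) :
    ∑ i, ((u i : ℤˣ) : ℤ) * L i
      ≤ ∑ i : Fin n, (if i.val + 1 = n then ((s : ℤˣ) : ℤ) else 1) * L i := by
  classical
  obtain ⟨l, hl⟩ : ∃ l : Fin n, l.val + 1 = n := ⟨⟨n - 1, by omega⟩, by simp only; omega⟩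
  have hlast : ∀ i : Fin n, i ≠ l → i.val + 1 ≠ n := by
    intro i hi h
    apply hi
    rw [Fin.ext_iff]
    omega
  have hnn : ∀ i : Fin n, i ≠ l → |L l| ≤ L i := by
    intro i hi
    apply hL i l
    rw [Fin.lt_def]
    have h1 := hlast i hi
    have h2 := i.isLt
    omega
  rw [← sub_nonneg, ← Finset.sum_sub_distrib]
  have hterm : ∀ i : Fin n, i ≠ l →
      0 ≤ (if i.val + 1 = n then ((s : ℤˣ) : ℤ) else 1) * L i - ((u i : ℤˣ) : ℤ) * L i := by
    intro i hi
    rw [if_neg (hlast i hi)]
    have h0 : 0 ≤ L i := le_trans (abs_nonneg _) (hnn i hi)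
    rcases Int.units_eq_one_or (u i) with h | h
    · rw [h]; simp
    · rw [h]
      simp only [Units.val_neg, Units.val_one]
      linarith
  by_cases hs : u l = s
  · apply Finset.sum_nonneg
    intro i _
    by_cases hi : i = l
    · rw [hi, if_pos hl, hs]; simp
    · exact hterm i hi
  · have hex : ∃ i0, i0 ≠ l ∧ u i0 = -1 := by
      by_contra hcon
      push Not at hcon
      have h1 : ∀ i, i ≠ l → u i = 1 := by
        intro i hi
        rcases Int.units_eq_one_or (u i) with h | h
        · exact h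
        · exact absurd h (hcon i hi)
      have h2 : ∏ i, u i = u l := Fintype.prod_eq_single l h1
      exact hs (by rw [← h2, hu])
    obtain ⟨i0, hi0, hu0⟩ := hex
    have hsub : ∑ i ∈ ({i0, l} : Finset (Fin n)),
          ((if i.val + 1 = n then ((s : ℤˣ) : ℤ) else 1) * L i - ((u i : ℤˣ) : ℤ) * L i)
        ≤ ∑ i : Fin n,
          ((if i.val + 1 = n then ((s : ℤˣ) : ℤ) else 1) * L i - ((u i : ℤˣ) : ℤ) * L i) := by
      apply Finset.sum_le_sum_of_subset_of_nonneg (Finset.subset_univ _)
      intro i _ hi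
      have hil : i ≠ l := by
        intro h
        apply hi
        rw [h]
        simp
      exact hterm i hil
    refine le_trans ?_ hsub
    rw [Finset.sum_pair hi0, if_neg (hlast i0 hi0), if_pos hl, hu0]
    have h1 := hnn i0 hi0
    have h2 := le_abs_self (L l)
    have h3 := neg_abs_le (L l)
    simp only [Units.val_neg, Units.val_one]
    rcases Int.units_eq_one_or s with h | h <;> rcases Int.units_eq_one_or (u l) with h' | h'
    · exact absurd (h'.trans h.symm) hs
    · rw [h, h']
      simp only [Units.val_neg, Units.val_one]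
      linarith
    · rw [h, h']
      simp only [Units.val_neg, Units.val_one]
      linarith
    · exact absurd (h'.trans h.symm) hs

/-- Weyl conjugates of a dominant vector pair at most as large as the vector itself with the
test vector `(1, …, 1, s)` -/
theorem frdecomp_wact_sign (hn : 1 ≤ n) {L : Fin n → ℤ} (hL : Dominant L) (s : ℤˣ)
    (σ : Equiv.Perm (Fin n)) (e : Fin n → ℤˣ) (he : e ∈ evenSigns n) :
    ip (wact σ e L) (fun i : Fin n => if i.val + 1 = n then ((s : ℤˣ) : ℤ) else 1)
      ≤ ip L (fun i : Fin n => if i.val + 1 = n then ((s : ℤˣ) : ℤ) else 1) := by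
  unfold ip
  have hy : ∀ i : Fin n, (if i.val + 1 = n then ((s : ℤˣ) : ℤ) else 1)
      = (((if i.val + 1 = n then s else 1 : ℤˣ) : ℤˣ) : ℤ) := by
    intro i
    split_ifs <;> simp
  have h1 : ∑ i, wact σ e L i * (if i.val + 1 = n then ((s : ℤˣ) : ℤ) else 1)
      = ∑ j, (((if (σ.symm j).val + 1 = n then s else 1) * e (σ.symm j) : ℤˣ) : ℤ) * L j := by
    rw [← Equiv.sum_comp σ
      (fun j => (((if (σ.symm j).val + 1 = n then s else 1) * e (σ.symm j) : ℤˣ) : ℤ) * L j)]
    refine Finset.sum_congr rfl (fun i _ => ?_)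
    simp only [Equiv.symm_apply_apply, wact_apply, hy, Units.val_mul]
    ring
  have hprod : ∏ j, ((if (σ.symm j).val + 1 = n then s else 1) * e (σ.symm j)) = s := by
    rw [← Equiv.prod_comp σ
      (fun j => ((if (σ.symm j).val + 1 = n then s else 1) * e (σ.symm j)))]
    simp only [Equiv.symm_apply_apply]
    rw [Finset.prod_mul_distrib, mem_evenSigns.mp he, mul_one]
    exact frdecomp_prod_last hn s
  rw [h1]
  refine le_trans (frdecomp_sign hn hL _ s hprod) (le_of_eq ?_)
  exact Finset.sum_congr rfl (fun i _ => mul_comm _ _)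

/-- Weyl conjugates of a dominant vector pair at most as large as the vector itself with the
indicator of an initial segment that misses the last index -/
theorem frdecomp_wact_ind {L : Fin n → ℤ} (hL : Dominant L) (j : ℕ) (hj : j + 1 < n)
    (σ : Equiv.Perm (Fin n)) (e : Fin n → ℤˣ) :
    ip (wact σ e L) (fun i : Fin n => if i.val ≤ j then 1 else 0)
      ≤ ip L (fun i : Fin n => if i.val ≤ j then 1 else 0) := by
  have key := sum_mul_wact_le (fun i : Fin n => if i.val ≤ j then (1 : ℤ) else 0) L
    (by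
      intro a b hab
      rw [Fin.le_def] at hab
      split_ifs with h1 h2 h2
      · exact le_rfl
      · exact absurd (le_trans hab h1) h2
      · exact zero_le_one
      · exact le_rfl)
    (by
      intro i
      split_ifs
      · exact zero_le_one
      · exact le_rfl)
    (by
      intro i hi
      have h1 := hi ⟨n - 1, by omega⟩
      rw [Fin.le_def] at h1
      simp only at h1
      rw [if_neg (by omega)])
    hL σ e
  unfold ip
  calc ∑ i, wact σ e L i * (if i.val ≤ j then 1 else 0)
      = ∑ i, (if i.val ≤ j then 1 else 0) * wact σ e L i :=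
        Finset.sum_congr rfl (fun i _ => mul_comm _ _)
    _ ≤ ∑ i, (if i.val ≤ j then 1 else 0) * L i := key
    _ = ∑ i, L i * (if i.val ≤ j then 1 else 0) :=
        Finset.sum_congr rfl (fun i _ => mul_comm _ _)

/-- the hull condition tested against a vector that Weyl conjugation does not increase -/
theorem frdecomp_hull {L γ y : Fin n → ℤ} (hH : InHull L γ)
    (hy : ∀ (σ : Equiv.Perm (Fin n)) (e : Fin n → ℤˣ), e ∈ evenSigns n →
      ip (wact σ e L) y ≤ ip L y) :
    0 ≤ ip (L - γ) y := by
  obtain ⟨σ, e, he, h⟩ := hH y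
  rw [ip_sub_left]
  linarith [hy σ e he]

theorem frdecomp_sum1 (C : ℕ → ℤ) (N K : ℕ) :
    ∑ j ∈ range N, C j * (if K = j then 2 else 0) = if K < N then 2 * C K else 0 := by
  simp only [mul_ite, mul_zero]
  rw [Finset.sum_ite_eq]
  simp only [Finset.mem_range]
  split_ifs
  · ring
  · rfl

theorem frdecomp_sum2 (C : ℕ → ℤ) (N K : ℕ) :
    ∑ j ∈ range N, C j * (if K = j + 1 then 2 else 0)
      = if 1 ≤ K ∧ K ≤ N then 2 * C (K - 1) else 0 := by
  cases K with
  | zero =>
    simp
  | succ K' =>
    have h1 : ∀ j, (K' + 1 = j + 1) = (K' = j) := by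
      intro j
      exact propext (by omega)
    simp only [h1]
    rw [frdecomp_sum1]
    simp only [Nat.add_sub_cancel]
    by_cases h : K' < N
    · rw [if_pos h, if_pos ⟨by omega, by omega⟩]
    · rw [if_neg h, if_neg (by omega)]

/-- If `γ` lies in the hull of the Weyl orbit of the dominant vector `L` and `L - γ` lies in
(twice) the root lattice, then `L - γ` is a combination of the (doubled) simple roots with
natural-number coefficients. -/
theorem exists_sroot_decomp (hn : 2 ≤ n) {L γ : Fin n → ℤ} (hL : Dominant L)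
    (hH : InHull L γ) (hQ : InTwoQ (L - γ)) :
    ∃ c : Fin n → ℕ, L - γ = ∑ j : Fin n, (c j : ℤ) • sroot n j := by
  obtain ⟨m, rfl⟩ : ∃ m, n = m + 2 := ⟨n - 2, by omega⟩
  -- natural-number indexed coordinates of `L - γ`
  obtain ⟨κ', hκ'⟩ : ∃ κ' : ℕ → ℤ, ∀ i : Fin (m + 2), κ' i.val = (L - γ) i ∧
      ∀ i : ℕ, 2 ∣ κ' i := by
    refine ⟨fun i => if h : i < m + 2 then (L - γ) ⟨i, h⟩ else 0, fun i => ⟨?_, ?_⟩⟩
    · simp only [i.isLt, dif_pos, Fin.eta]
    · intro i
      simp only
      split_ifs with h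
      · exact hQ.1 _
      · exact dvd_zero 2
  have hκv : ∀ i : Fin (m + 2), κ' i.val = (L - γ) i := fun i => (hκ' i).1
  have heven : ∀ i : ℕ, 2 ∣ κ' i := (hκ' 0).2
  have hsum : ∀ Y : ℕ → ℤ,
      ip (L - γ) (fun i : Fin (m + 2) => Y i.val) = ∑ i ∈ range (m + 2), κ' i * Y i := by
    intro Y
    unfold ip
    rw [← Fin.sum_univ_eq_sum_range (fun i => κ' i * Y i) (m + 2)]
    exact Finset.sum_congr rfl (fun i _ => by rw [hκv])
  obtain ⟨D, hD⟩ : ∃ D : ℕ → ℤ, ∀ i, κ' i = 2 * D i :=
    ⟨fun i => κ' i / 2, fun i => (Int.mul_ediv_cancel' (heven i)).symm⟩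
  have hT : ∀ j, ∑ i ∈ range (j + 1), κ' i = 2 * ∑ i ∈ range (j + 1), D i := by
    intro j
    rw [Finset.mul_sum]
    exact Finset.sum_congr rfl (fun i _ => hD i)
  -- initial segments
  have hA : ∀ j, j ≤ m → 0 ≤ ∑ i ∈ range (j + 1), D i := by
    intro j hj
    have h1 := frdecomp_hull hH (y := fun i : Fin (m + 2) => if i.val ≤ j then 1 else 0)
      (fun σ e _ => frdecomp_wact_ind hL j (by omega) σ e)
    rw [hsum (fun i => if i ≤ j then 1 else 0)] at h1
    have h2 : ∑ i ∈ range (m + 2), κ' i * (if i ≤ j then 1 else 0)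
        = ∑ i ∈ range (j + 1), κ' i := by
      simp only [mul_ite, mul_one, mul_zero]
      rw [← Finset.sum_filter]
      congr 1
      ext i
      simp only [Finset.mem_filter, Finset.mem_range]
      omega
    rw [h2, hT] at h1
    linarith
  -- the total sum
  have h4 : (4 : ℤ) ∣ 2 * ∑ i ∈ range (m + 1 + 1), D i := by
    rw [← hT (m + 1), ← Fin.sum_univ_eq_sum_range κ' (m + 2)]
    have h5 : ∑ i : Fin (m + 2), κ' i.val = ∑ i, (L - γ) i :=
      Finset.sum_congr rfl (fun i _ => hκv i)
    rw [h5]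
    exact hQ.2
  obtain ⟨E, hE⟩ : ∃ E : ℤ, ∑ i ∈ range (m + 1 + 1), D i = 2 * E := by
    obtain ⟨q, hq⟩ := h4
    exact ⟨q, by linarith⟩
  have hBC : ∀ s : ℤˣ, 0 ≤ ∑ i ∈ range (m + 1), κ' i + κ' (m + 1) * ((s : ℤˣ) : ℤ) := by
    intro s
    have h1 := frdecomp_hull hH
      (y := fun i : Fin (m + 2) => if i.val + 1 = m + 2 then ((s : ℤˣ) : ℤ) else 1)
      (fun σ e he => frdecomp_wact_sign (by omega) hL s σ e he)
    rw [hsum (fun i => if i + 1 = m + 2 then ((s : ℤˣ) : ℤ) else 1)] at h1
    rw [Finset.sum_range_succ] at h1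
    have h2 : ∑ i ∈ range (m + 1), κ' i * (if i + 1 = m + 2 then ((s : ℤˣ) : ℤ) else 1)
        = ∑ i ∈ range (m + 1), κ' i := by
      refine Finset.sum_congr rfl (fun i hi => ?_)
      rw [Finset.mem_range] at hi
      rw [if_neg (by omega), mul_one]
    rw [h2, if_pos rfl] at h1
    exact h1
  have hTm : ∑ i ∈ range (m + 1 + 1), D i = ∑ i ∈ range (m + 1), D i + D (m + 1) :=
    Finset.sum_range_succ _ _
  have hB : 0 ≤ E := by
    have h1 := hBC 1
    rw [hT m, hD (m + 1)] at h1
    simp only [Units.val_one, mul_one] at h1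
    linarith
  have hC : 0 ≤ E - D (m + 1) := by
    have h1 := hBC (-1)
    rw [hT m, hD (m + 1)] at h1
    simp only [Units.val_neg, Units.val_one] at h1
    linarith
  -- the coefficients
  obtain ⟨C, hCdef⟩ : ∃ C : ℕ → ℤ, ∀ j, C j =
      if j < m then ∑ i ∈ range (j + 1), D i else if j = m then E - D (m + 1) else E :=
    ⟨_, fun _ => rfl⟩
  have hC0 : ∀ j, 0 ≤ C j := by
    intro j
    rw [hCdef]
    split_ifs with h1 h2
    · exact hA j (by omega)
    · exact hC
    · exact hB
  refine ⟨fun j => (C j.val).toNat, ?_⟩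
  funext k
  rw [Finset.sum_apply]
  simp only [Pi.smul_apply, smul_eq_mul]
  have hcast : ∀ j : Fin (m + 2), ((C j.val).toNat : ℤ) = C j.val :=
    fun j => Int.toNat_of_nonneg (hC0 _)
  have key : ∑ j : Fin (m + 2), ((C j.val).toNat : ℤ) * sroot (m + 2) j k
      = ∑ j ∈ range (m + 2), C j * (if j + 1 < m + 2
          then (if k.val = j then 2 else 0) - (if k.val = j + 1 then 2 else 0)
          else (if k.val + 2 = m + 2 then 2 else 0) + (if k.val + 1 = m + 2 then 2 else 0)) := by
    rw [← Fin.sum_univ_eq_sum_range (fun j => C j * (if j + 1 < m + 2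
          then (if k.val = j then 2 else 0) - (if k.val = j + 1 then 2 else 0)
          else (if k.val + 2 = m + 2 then 2 else 0) + (if k.val + 1 = m + 2 then 2 else 0)))
      (m + 2)]
    refine Finset.sum_congr rfl (fun j _ => ?_)
    rw [hcast]
    simp only [sroot, Fin.ext_iff]
  rw [key, Finset.sum_range_succ]
  have hsr1 : ∀ j ∈ range (m + 1), C j * (if j + 1 < m + 2
          then (if k.val = j then 2 else 0) - (if k.val = j + 1 then 2 else 0)
          else (if k.val + 2 = m + 2 then 2 else 0) + (if k.val + 1 = m + 2 then 2 else 0))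
      = C j * (if k.val = j then 2 else 0) - C j * (if k.val = j + 1 then 2 else 0) := by
    intro j hj
    rw [Finset.mem_range] at hj
    rw [if_pos (by omega)]
    ring
  rw [Finset.sum_congr rfl hsr1, Finset.sum_sub_distrib, frdecomp_sum1, frdecomp_sum2,
    if_neg (by omega : ¬ (m + 1 + 1 < m + 2))]
  rw [← hκv k, hD]
  have hK := k.isLt
  generalize k.val = K at hK ⊢
  have hC1 : C (m + 1) = E := by
    rw [hCdef, if_neg (by omega), if_neg (by omega)]
  have hCm : C m = E - D (m + 1) := by
    rw [hCdef, if_neg (by omega), if_pos rfl]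
  have hClt : ∀ j, j < m → C j = ∑ i ∈ range (j + 1), D i := by
    intro j hj
    rw [hCdef, if_pos hj]
  rcases Nat.lt_trichotomy K m with h | h | h
  · -- K < m
    rw [if_pos (by omega), if_neg (by omega : ¬ (K + 2 = m + 2)),
      if_neg (by omega : ¬ (K + 1 = m + 2)), hClt K h]
    cases K with
    | zero =>
      simp
    | succ K' =>
      rw [if_pos ⟨by omega, by omega⟩, Nat.add_sub_cancel, hClt K' (by omega),
        Finset.sum_range_succ _ (K' + 1)]
      ring
  · -- K = m
    subst h
    rw [if_pos (by omega), if_pos rfl, if_neg (by omega : ¬ (K + 1 = K + 2)), hCm, hC1]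
    cases K with
    | zero =>
      simp only [zero_add] at hTm hE ⊢
      simp only [Finset.sum_range_one] at hTm
      simp
      linarith
    | succ K' =>
      rw [if_pos ⟨by omega, by omega⟩, Nat.add_sub_cancel, hClt K' (by omega)]
      have h6 : ∑ i ∈ range (K' + 1 + 1), D i = ∑ i ∈ range (K' + 1), D i + D (K' + 1) :=
        Finset.sum_range_succ _ _
      linarith
  · -- K = m + 1
    have hKm : K = m + 1 := by omega
    subst hKm
    rw [if_neg (by omega), if_pos ⟨by omega, le_rfl⟩, Nat.add_sub_cancel,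
      if_neg (by omega : ¬ (m + 1 + 2 = m + 2)), if_pos rfl, hCm, hC1]
    ring

end Vale.Agent.Lib.P182
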