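import Vale.Agent.Lib.P182.Dual

/-!
# Definitions for the Freudenthal formula in type `D_n` (doubled coordinates)
-/

namespace Vale.Agent.Lib.P182

open Finset

variable {n : ℕ}

/-- Index set of the positive roots of `D_n`: pairs `i < j` together with a sign. -/
abbrev PosIdx (n : ℕ) : Type := {p : Fin n × Fin n // p.1 < p.2} × Bool

/-- Half of a (doubled) positive root: `e_i - e_j` (sign `false`) or `e_i + e_j` (sign `true`),
for `i < j`.  The doubled positive roots are the vectors `2 • posH x`. -/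
def posH (x : PosIdx n) : Fin n → ℤ :=
  fun k => (if k = x.1.1.1 then 1 else 0) + (if x.2 then 1 else -1) * (if k = x.1.1.2 then 1 else 0)

/-- The standard inner product on `ℤ^n`. -/
def ip (v w : Fin n → ℤ) : ℤ := ∑ i, v i * w i

/-- `e^h - e^{-h}`. -/
noncomputable def Fh (h : Fin n → ℤ) : AddMonoidAlgebra ℤ (Fin n → ℤ) :=
  AddMonoidAlgebra.single h 1 - AddMonoidAlgebra.single (-h) 1

/-- `e^h + e^{-h}`. -/
noncomputable def Gh (h : Fin n → ℤ) : AddMonoidAlgebra ℤ (Fin n → ℤ) :=
  AddMonoidAlgebra.single h 1 + AddMonoidAlgebra.single (-h) 1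

/-- Multiply the coefficient of `e^γ` by `w γ`. -/
noncomputable def wt (w : (Fin n → ℤ) → ℤ) (f : AddMonoidAlgebra ℤ (Fin n → ℤ)) :
    AddMonoidAlgebra ℤ (Fin n → ℤ) :=
  AddMonoidAlgebra.ofCoeff (Finsupp.onFinset f.coeff.support (fun γ => w γ * f.coeff γ) (by
    intro γ hγ
    rw [Finsupp.mem_support_iff]
    intro h0
    exact hγ (by rw [h0, mul_zero])))

theorem wt_coeff (w : (Fin n → ℤ) → ℤ) (f : AddMonoidAlgebra ℤ (Fin n → ℤ)) (γ : Fin n → ℤ) :
    (wt w f).coeff γ = w γ * f.coeff γ := rfl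

/-- The (doubled) simple roots of `D_n`, `n ≥ 2`: `2 e_j - 2 e_{j+1}` for `j + 1 < n` and
`2 e_{n-2} + 2 e_{n-1}` for the last index. -/
def sroot (n : ℕ) (j : Fin n) : Fin n → ℤ :=
  fun k => if j.val + 1 < n then (if k = j then 2 else 0) - (if k.val = j.val + 1 then 2 else 0)
    else (if k.val + 2 = n then 2 else 0) + (if k.val + 1 = n then 2 else 0)

/-- `γ` lies in the convex hull of the Weyl orbit of `L`, expressed through support functions:
every linear functional is at most as large on `γ` as on some Weyl conjugate of `L`. -/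
def InHull (L γ : Fin n → ℤ) : Prop :=
  ∀ y : Fin n → ℤ, ∃ σ : Equiv.Perm (Fin n), ∃ e ∈ evenSigns n, ip γ y ≤ ip (wact σ e L) y

end Vale.Agent.Lib.P182
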