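import Vale.Agent.Lib.P182.FrDenomB

/-!
# The Weyl denominator formula of type `D_n` (doubled coordinates), up to sign
-/

namespace Vale.Agent.Lib.P182

open Finset

variable {n : ℕ}

/-- `A_{2ρ} = ± ∏_{α > 0} (e^{α/2} - e^{-α/2})`. -/
theorem alt_rho2_eq_prod (n : ℕ) :
    ∃ u : ℤ, (u = 1 ∨ u = -1) ∧ alt (rho2 n) = u • ∏ x : PosIdx n, Fh (posH x) := by
  obtain ⟨u, hu, h⟩ := det_denMat n
  exact ⟨u, hu, by rw [alt_rho2_eq_det, h]⟩

end Vale.Agent.Lib.P182
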