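import Vale.Agent.Lib.P182.FrIp

/-!
# The alternant `A_{2ρ}` of type `D_n` as a determinant
-/

namespace Vale.Agent.Lib.P182

open Finset

variable {n : ℕ}

/-- The matrix with entries `x_i^{m_j} + x_i^{-m_j}`, where `m = rho2 n`, except that the last
column (where `m_j = 0`) has all entries `1`.  Here `x_i^m` is the group-ring element
`e^{m e_i}`. -/
noncomputable def denMat (n : ℕ) : Matrix (Fin n) (Fin n) (AddMonoidAlgebra ℤ (Fin n → ℤ)) :=
  fun i j => if j.val + 1 = n then 1 else
    AddMonoidAlgebra.single (fun k : Fin n => if k = i then rho2 n j else 0) (1 : ℤ)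
      + AddMonoidAlgebra.single (fun k : Fin n => if k = i then - rho2 n j else 0) (1 : ℤ)

/-- A product of monomials is the monomial of the sum of the exponents. -/
theorem frdenoma_prod_single {ι : Type} (s : Finset ι) (v : ι → Fin n → ℤ) :
    ∏ i ∈ s, (AddMonoidAlgebra.single (v i) (1 : ℤ) : AddMonoidAlgebra ℤ (Fin n → ℤ))
      = AddMonoidAlgebra.single (∑ i ∈ s, v i) 1 := by
  classical
  induction s using Finset.induction_on with
  | empty => simp [AddMonoidAlgebra.one_def]
  | insert a s ha ih =>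
    rw [Finset.prod_insert ha, Finset.sum_insert ha, ih, AddMonoidAlgebra.single_mul_single,
      mul_one]

/-- Halving in the group ring. -/
theorem frdenoma_half {A B : AddMonoidAlgebra ℤ (Fin n → ℤ)} (h : A + A = B + B) : A = B := by
  apply AddMonoidAlgebra.coeff_injective
  ext γ
  have h1 := congrArg (fun f : AddMonoidAlgebra ℤ (Fin n → ℤ) => f.coeff γ) h
  simp only [AddMonoidAlgebra.coeff_add, Finsupp.add_apply] at h1
  omega

/-- The sign vector with a single minus sign, at `i0`. -/
def frdenoma_eta (i0 : Fin n) : Fin n → ℤˣ := fun i => if i = i0 then -1 else 1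

theorem frdenoma_prod_eta (i0 : Fin n) : ∏ i, frdenoma_eta i0 i = -1 := by
  unfold frdenoma_eta
  rw [Finset.prod_ite_eq']
  simp

theorem frdenoma_wact_eta (σ : Equiv.Perm (Fin n)) (e : Fin n → ℤˣ) (i0 : Fin n)
    (h0 : rho2 n (σ i0) = 0) :
    wact σ (e * frdenoma_eta i0) (rho2 n) = wact σ e (rho2 n) := by
  funext i
  unfold wact frdenoma_eta
  by_cases hi : i = i0
  · subst hi
    rw [h0, mul_zero, mul_zero]
  · simp [hi]

/-- The sum over all sign vectors is twice the sum over the even ones, when the vector has a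
zero coordinate. -/
theorem frdenoma_sum_all (σ : Equiv.Perm (Fin n)) (i0 : Fin n) (h0 : rho2 n (σ i0) = 0) :
    ∑ e : Fin n → ℤˣ, (AddMonoidAlgebra.single (wact σ e (rho2 n)) (1 : ℤ) :
        AddMonoidAlgebra ℤ (Fin n → ℤ))
      = ∑ e ∈ evenSigns n, AddMonoidAlgebra.single (wact σ e (rho2 n)) (1 : ℤ)
        + ∑ e ∈ evenSigns n, AddMonoidAlgebra.single (wact σ e (rho2 n)) (1 : ℤ) := by
  have hsplit := Finset.sum_filter_add_sum_filter_not (Finset.univ : Finset (Fin n → ℤˣ))
    (fun e => ∏ i, e i = 1)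
    (fun e => (AddMonoidAlgebra.single (wact σ e (rho2 n)) (1 : ℤ) :
      AddMonoidAlgebra ℤ (Fin n → ℤ)))
  have heven : ∑ e ∈ Finset.univ.filter (fun e : Fin n → ℤˣ => ∏ i, e i = 1),
      (AddMonoidAlgebra.single (wact σ e (rho2 n)) (1 : ℤ) : AddMonoidAlgebra ℤ (Fin n → ℤ))
      = ∑ e ∈ evenSigns n, AddMonoidAlgebra.single (wact σ e (rho2 n)) (1 : ℤ) := rfl
  have hodd : ∑ e ∈ evenSigns n,
      (AddMonoidAlgebra.single (wact σ e (rho2 n)) (1 : ℤ) : AddMonoidAlgebra ℤ (Fin n → ℤ))
      = ∑ e ∈ Finset.univ.filter (fun e : Fin n → ℤˣ => ¬ ∏ i, e i = 1),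
        AddMonoidAlgebra.single (wact σ e (rho2 n)) (1 : ℤ) := by
    refine Finset.sum_equiv (Equiv.mulRight (frdenoma_eta i0)) ?_ ?_
    · intro e
      have hprod : ∏ i, (e * frdenoma_eta i0) i = (∏ i, e i) * (-1) := by
        rw [← frdenoma_prod_eta i0, ← Finset.prod_mul_distrib]
        rfl
      simp only [evenSigns, Finset.mem_filter, Finset.mem_univ, true_and, Equiv.coe_mulRight]
      rw [hprod]
      rcases Int.units_eq_one_or (∏ i, e i) with h | h
      · rw [h]
        decide
      · rw [h]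
        decide
    · intro e _
      rw [Equiv.coe_mulRight, frdenoma_wact_eta σ e i0 h0]
  rw [← hsplit, heven, ← hodd]

/-- The product over the coordinates of the two-term sums is the sum over all sign vectors. -/
theorem frdenoma_prod_T (σ : Equiv.Perm (Fin n)) :
    ∏ i, ∑ s : ℤˣ, (AddMonoidAlgebra.single
        (fun k : Fin n => if k = i then (s : ℤ) * rho2 n (σ i) else 0) (1 : ℤ) :
        AddMonoidAlgebra ℤ (Fin n → ℤ))
      = ∑ e : Fin n → ℤˣ, AddMonoidAlgebra.single (wact σ e (rho2 n)) (1 : ℤ) := by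
  rw [Fintype.prod_sum]
  refine Finset.sum_congr rfl (fun e _ => ?_)
  rw [frdenoma_prod_single]
  congr 1
  funext k
  rw [Finset.sum_apply]
  simp [wact]

/-- Each two-term sum is an entry of the matrix, up to the factor `2` in the last column. -/
theorem frdenoma_T_eq (σ : Equiv.Perm (Fin n)) (i : Fin n) :
    ∑ s : ℤˣ, (AddMonoidAlgebra.single
        (fun k : Fin n => if k = i then (s : ℤ) * rho2 n (σ i) else 0) (1 : ℤ) :
        AddMonoidAlgebra ℤ (Fin n → ℤ))
      = (if (σ i).val + 1 = n then 2 else 1) * denMat n i (σ i) := by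
  have huniv : (Finset.univ : Finset ℤˣ) = {1, -1} := by decide
  have hsum : ∀ F : ℤˣ → AddMonoidAlgebra ℤ (Fin n → ℤ), ∑ s : ℤˣ, F s = F 1 + F (-1) := by
    intro F
    rw [huniv, Finset.sum_pair (by decide)]
  rw [hsum]
  by_cases h : (σ i).val + 1 = n
  · have h0 : rho2 n (σ i) = 0 := by
      unfold rho2
      omega
    have e : (fun k : Fin n => if k = i then (0 : ℤ) else 0) = 0 := by
      funext k
      simp
    simp only [denMat, if_pos h, h0, mul_zero, e]
    rw [← AddMonoidAlgebra.one_def]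
    ring
  · simp only [denMat, if_neg h, one_mul, Units.val_one, Units.val_neg, neg_mul]

/-- Exactly one factor `2` occurs. -/
theorem frdenoma_prod_c (m : ℕ) (σ : Equiv.Perm (Fin (m + 1))) :
    ∏ i, (if (σ i).val + 1 = m + 1 then (2 : AddMonoidAlgebra ℤ (Fin (m + 1) → ℤ)) else 1)
      = 2 := by
  have h : ∀ i, ((σ i).val + 1 = m + 1) ↔ i = σ.symm (Fin.last m) := by
    intro i
    constructor
    · intro hi
      have h1 : σ i = Fin.last m := Fin.ext (by simpa using hi)
      rw [← h1, Equiv.symm_apply_apply]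
    · intro hi
      rw [hi, Equiv.apply_symm_apply]
      simp
  simp only [h]
  rw [Finset.prod_ite_eq']
  simp

/-- The sum over the even sign vectors factorises. -/
theorem frdenoma_even_sum (m : ℕ) (σ : Equiv.Perm (Fin (m + 1))) :
    ∑ e ∈ evenSigns (m + 1), (AddMonoidAlgebra.single (wact σ e (rho2 (m + 1))) (1 : ℤ) :
        AddMonoidAlgebra ℤ (Fin (m + 1) → ℤ))
      = ∏ i, denMat (m + 1) i (σ i) := by
  have h0 : rho2 (m + 1) (σ (σ.symm (Fin.last m))) = 0 := by
    rw [Equiv.apply_symm_apply]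
    simp [rho2]
  have h1 := frdenoma_sum_all σ (σ.symm (Fin.last m)) h0
  have h2 := frdenoma_prod_T σ
  have h3 : ∏ i, ∑ s : ℤˣ, (AddMonoidAlgebra.single
        (fun k : Fin (m + 1) => if k = i then (s : ℤ) * rho2 (m + 1) (σ i) else 0) (1 : ℤ) :
        AddMonoidAlgebra ℤ (Fin (m + 1) → ℤ))
      = 2 * ∏ i, denMat (m + 1) i (σ i) := by
    simp only [frdenoma_T_eq]
    rw [Finset.prod_mul_distrib, frdenoma_prod_c]
  apply frdenoma_half
  rw [← h1, ← h2, h3, two_mul]

/-- `A_{2ρ} = det (x_i^{m_j} + x_i^{-m_j})` with the last column replaced by ones: the sum over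
the even sign vectors factors, because `2ρ` has last coordinate `0`. -/
theorem alt_rho2_eq_det (n : ℕ) : alt (rho2 n) = (denMat n).det := by
  cases n with
  | zero =>
    rw [Matrix.det_isEmpty]
    unfold alt
    have hev : evenSigns 0 = Finset.univ := by
      unfold evenSigns
      apply Finset.filter_true_of_mem
      intro e _
      simp
    rw [hev, Finset.univ_unique, Finset.univ_unique, Finset.sum_singleton, Finset.sum_singleton,
      AddMonoidAlgebra.one_def]
    congr 1
    exact Subsingleton.elim _ _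
  | succ m =>
    rw [← Matrix.det_transpose, Matrix.det_apply]
    unfold alt
    refine Finset.sum_congr rfl (fun σ _ => ?_)
    have h := frdenoma_even_sum m σ
    simp only [Matrix.transpose_apply]
    rw [← h, Units.smul_def, Finset.smul_sum]
    refine Finset.sum_congr rfl (fun e _ => ?_)
    rw [AddMonoidAlgebra.smul_single, smul_eq_mul, mul_one]

end Vale.Agent.Lib.P182
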