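import Vale.Agent.Lib.P182.FrDenomA
import Mathlib.LinearAlgebra.Vandermonde

/-!
# The determinant `denMat n` as a product over the positive roots (Vandermonde)
-/

namespace Vale.Agent.Lib.P182

open Finset Polynomial

variable {n : ℕ}

/-- The group-ring element `x_i^m`. -/
noncomputable def frdenomb_xp (i : Fin n) (m : ℤ) : AddMonoidAlgebra ℤ (Fin n → ℤ) :=
  AddMonoidAlgebra.single (fun k : Fin n => if k = i then m else 0) (1 : ℤ)

theorem frdenomb_xp_mul (i : Fin n) (a b : ℤ) :
    frdenomb_xp i a * frdenomb_xp i b = frdenomb_xp i (a + b) := by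
  unfold frdenomb_xp
  rw [AddMonoidAlgebra.single_mul_single, mul_one]
  congr 1
  funext k
  by_cases h : k = i <;> simp [h]

theorem frdenomb_xp_zero (i : Fin n) : frdenomb_xp i 0 = 1 := by
  unfold frdenomb_xp
  rw [AddMonoidAlgebra.one_def]
  congr 1
  funext k
  simp

/-- `x_i^2 + x_i^{-2}`. -/
noncomputable def frdenomb_Y (i : Fin n) : AddMonoidAlgebra ℤ (Fin n → ℤ) :=
  frdenomb_xp i 2 + frdenomb_xp i (-2)

/-- Dickson polynomials: `D 0 = 2`, `D 1 = X`, `D (m+2) = X * D (m+1) - D m`. -/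
noncomputable def frdenomb_D (R : Type) [CommRing R] : ℕ → R[X]
  | 0 => C 2
  | 1 => X
  | (m + 2) => X * frdenomb_D R (m + 1) - frdenomb_D R m

theorem frdenomb_D_eval (i : Fin n) (m : ℕ) :
    (frdenomb_D _ m).eval (frdenomb_Y i)
        = frdenomb_xp i (2 * (m : ℤ)) + frdenomb_xp i (-(2 * (m : ℤ))) ∧
    (frdenomb_D _ (m + 1)).eval (frdenomb_Y i)
        = frdenomb_xp i (2 * ((m + 1 : ℕ) : ℤ)) + frdenomb_xp i (-(2 * ((m + 1 : ℕ) : ℤ))) := by
  induction m with
  | zero =>
    refine ⟨?_, ?_⟩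
    · simp only [frdenomb_D, eval_C, Nat.cast_zero, mul_zero, neg_zero, frdenomb_xp_zero]
      norm_num
    · simp only [frdenomb_D, eval_X, frdenomb_Y]
      norm_num
  | succ m ih =>
    refine ⟨ih.2, ?_⟩
    have e1 : (2 : ℤ) + 2 * ((m + 1 : ℕ) : ℤ) = 2 * ((m + 1 + 1 : ℕ) : ℤ) := by
      push_cast; ring
    have e2 : (2 : ℤ) + -(2 * ((m + 1 : ℕ) : ℤ)) = -(2 * (m : ℤ)) := by
      push_cast; ring
    have e3 : (-2 : ℤ) + 2 * ((m + 1 : ℕ) : ℤ) = 2 * (m : ℤ) := by
      push_cast; ring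
    have e4 : (-2 : ℤ) + -(2 * ((m + 1 : ℕ) : ℤ)) = -(2 * ((m + 1 + 1 : ℕ) : ℤ)) := by
      push_cast; ring
    rw [frdenomb_D, eval_sub, eval_mul, eval_X, ih.1, ih.2, frdenomb_Y, add_mul, mul_add, mul_add,
      frdenomb_xp_mul, frdenomb_xp_mul, frdenomb_xp_mul, frdenomb_xp_mul, e1, e2, e3, e4]
    abel

theorem frdenomb_D_deg (R : Type) [CommRing R] [Nontrivial R] (m : ℕ) :
    (frdenomb_D R m).natDegree ≤ m ∧ (frdenomb_D R (m + 1)).Monic ∧
      (frdenomb_D R (m + 1)).natDegree = m + 1 := by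
  induction m with
  | zero =>
    refine ⟨?_, ?_, ?_⟩
    · simp [frdenomb_D]
    · simp only [frdenomb_D]
      exact monic_X
    · simp [frdenomb_D]
  | succ m ih =>
    obtain ⟨h0, hm, hd⟩ := ih
    have hX : (X * frdenomb_D R (m + 1)).Monic := monic_X.mul hm
    have hXd : (X * frdenomb_D R (m + 1)).natDegree = m + 1 + 1 := by
      rw [Monic.natDegree_mul monic_X hm, natDegree_X, hd]
      ring
    have hlt : (frdenomb_D R m).natDegree < (X * frdenomb_D R (m + 1)).natDegree := by
      rw [hXd]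
      omega
    refine ⟨le_of_eq hd, ?_, ?_⟩
    · have : frdenomb_D R (m + 1 + 1) = X * frdenomb_D R (m + 1) - frdenomb_D R m := by
        simp only [frdenomb_D]
      rw [this]
      apply Monic.sub_of_left hX
      apply degree_lt_degree hlt
    · have : frdenomb_D R (m + 1 + 1) = X * frdenomb_D R (m + 1) - frdenomb_D R m := by
        simp only [frdenomb_D]
      rw [this, natDegree_sub_eq_left_of_natDegree_lt hlt, hXd]

/-- The polynomials whose values at `Y i` are the entries of the column-reversed `denMat`. -/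
noncomputable def frdenomb_p (n : ℕ) (j : Fin n) : (AddMonoidAlgebra ℤ (Fin n → ℤ))[X] :=
  if j.val = 0 then 1 else frdenomb_D _ j.val

theorem frdenomb_p_deg (j : Fin n) : (frdenomb_p n j).natDegree = j := by
  unfold frdenomb_p
  by_cases h : j.val = 0
  · simp [h]
  · rw [if_neg h]
    obtain ⟨k, hk⟩ := Nat.exists_eq_succ_of_ne_zero h
    rw [hk]
    exact (frdenomb_D_deg _ k).2.2

theorem frdenomb_p_monic (j : Fin n) : (frdenomb_p n j).Monic := by
  unfold frdenomb_p
  by_cases h : j.val = 0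
  · simp [h]
  · rw [if_neg h]
    obtain ⟨k, hk⟩ := Nat.exists_eq_succ_of_ne_zero h
    rw [hk]
    exact (frdenomb_D_deg _ k).2.1

theorem frdenomb_denMat_eq (n : ℕ) :
    denMat n = (Matrix.of (fun i j => (frdenomb_p n j).eval (frdenomb_Y i))).submatrix id
      (Fin.revPerm : Equiv.Perm (Fin n)) := by
  funext i j
  simp only [Matrix.submatrix_apply, id, Matrix.of_apply, Fin.revPerm_apply]
  unfold denMat frdenomb_p
  have hv : (Fin.rev j).val = n - (j.val + 1) := Fin.val_rev j
  by_cases h : j.val + 1 = n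
  · have h0 : (Fin.rev j).val = 0 := by omega
    rw [if_pos h, if_pos h0, eval_one]
  · have h0 : ¬ (Fin.rev j).val = 0 := by
      have := j.isLt
      omega
    rw [if_neg h, if_neg h0, (frdenomb_D_eval i (Fin.rev j).val).1]
    have hc : (2 : ℤ) * (((Fin.rev j).val : ℕ) : ℤ) = rho2 n j := by
      have hle : j.val + 1 ≤ n := j.isLt
      rw [hv, Nat.cast_sub hle]
      unfold rho2
      push_cast
      ring
    rw [hc]
    rfl

theorem frdenomb_Y_sub (i j : Fin n) :
    frdenomb_Y i - frdenomb_Y j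
      = Fh (fun k : Fin n => (if k = i then (1 : ℤ) else 0) + 1 * (if k = j then 1 else 0))
        * Fh (fun k : Fin n => (if k = i then (1 : ℤ) else 0) + (-1) * (if k = j then 1 else 0)) := by
  have a1 : ((fun k : Fin n => (if k = i then (1 : ℤ) else 0) + 1 * (if k = j then 1 else 0))
      + (fun k : Fin n => (if k = i then (1 : ℤ) else 0) + (-1) * (if k = j then 1 else 0)))
      = (fun k : Fin n => if k = i then (2 : ℤ) else 0) := by
    funext k
    simp only [Pi.add_apply]
    split_ifs <;> norm_num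
  have a2 : ((fun k : Fin n => (if k = i then (1 : ℤ) else 0) + 1 * (if k = j then 1 else 0))
      + -(fun k : Fin n => (if k = i then (1 : ℤ) else 0) + (-1) * (if k = j then 1 else 0)))
      = (fun k : Fin n => if k = j then (2 : ℤ) else 0) := by
    funext k
    simp only [Pi.add_apply, Pi.neg_apply]
    split_ifs <;> norm_num
  have a3 : (-(fun k : Fin n => (if k = i then (1 : ℤ) else 0) + 1 * (if k = j then 1 else 0))
      + (fun k : Fin n => (if k = i then (1 : ℤ) else 0) + (-1) * (if k = j then 1 else 0)))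
      = (fun k : Fin n => if k = j then (-2 : ℤ) else 0) := by
    funext k
    simp only [Pi.add_apply, Pi.neg_apply]
    split_ifs <;> norm_num
  have a4 : (-(fun k : Fin n => (if k = i then (1 : ℤ) else 0) + 1 * (if k = j then 1 else 0))
      + -(fun k : Fin n => (if k = i then (1 : ℤ) else 0) + (-1) * (if k = j then 1 else 0)))
      = (fun k : Fin n => if k = i then (-2 : ℤ) else 0) := by
    funext k
    simp only [Pi.add_apply, Pi.neg_apply]
    split_ifs <;> norm_num
  unfold Fh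
  rw [sub_mul, mul_sub, mul_sub, AddMonoidAlgebra.single_mul_single,
    AddMonoidAlgebra.single_mul_single, AddMonoidAlgebra.single_mul_single,
    AddMonoidAlgebra.single_mul_single, a1, a2, a3, a4, mul_one]
  unfold frdenomb_Y frdenomb_xp
  abel

theorem frdenomb_prod_pairs {M : Type*} [CommMonoid M] (n : ℕ) (f : Fin n → Fin n → M) :
    ∏ i, ∏ j ∈ Ioi i, f i j = ∏ p : {p : Fin n × Fin n // p.1 < p.2}, f p.1.1 p.1.2 := by
  rw [← Finset.prod_subtype ((univ : Finset (Fin n × Fin n)).filter (fun p => p.1 < p.2))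
    (by simp) (fun p => f p.1 p.2)]
  rw [Finset.prod_filter, Fintype.prod_prod_type]
  apply Finset.prod_congr rfl
  intro i _
  rw [← Finset.prod_filter]
  apply Finset.prod_congr
  · ext j
    simp
  · intro j _
    rfl

theorem frdenomb_prod_posH (n : ℕ) :
    ∏ x : PosIdx n, Fh (posH x)
      = ∏ p : {p : Fin n × Fin n // p.1 < p.2}, (frdenomb_Y p.1.1 - frdenomb_Y p.1.2) := by
  rw [Fintype.prod_prod_type]
  apply Finset.prod_congr rfl
  intro p _
  rw [Fintype.prod_bool, frdenomb_Y_sub]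
  rfl

/-- `det (x_i^{m_j} + x_i^{-m_j}) = ± ∏_{i<j} (x_i x_j^{-1} - x_i^{-1} x_j)(x_i x_j - x_i^{-1} x_j^{-1})`. -/
theorem det_denMat (n : ℕ) :
    ∃ u : ℤ, (u = 1 ∨ u = -1) ∧ (denMat n).det = u • ∏ x : PosIdx n, Fh (posH x) := by
  have hV := Matrix.det_eval_matrixOfPolynomials_eq_det_vandermonde
    (fun i : Fin n => frdenomb_Y i) (frdenomb_p n) frdenomb_p_deg frdenomb_p_monic
  have hdet : (Matrix.of (fun i j => (frdenomb_p n j).eval (frdenomb_Y i))).det
      = (-1 : AddMonoidAlgebra ℤ (Fin n → ℤ)) ^ (Fintype.card {p : Fin n × Fin n // p.1 < p.2})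
        * ∏ x : PosIdx n, Fh (posH x) := by
    rw [← hV, Matrix.det_vandermonde, frdenomb_prod_pairs, frdenomb_prod_posH,
      Fintype.card, ← Finset.prod_const, ← Finset.prod_mul_distrib]
    apply Finset.prod_congr rfl
    intro p _
    ring
  refine ⟨((Equiv.Perm.sign (Fin.revPerm : Equiv.Perm (Fin n)) : ℤˣ) : ℤ)
      * (-1) ^ (Fintype.card {p : Fin n × Fin n // p.1 < p.2}), ?_, ?_⟩
  · rcases Int.units_eq_one_or (Equiv.Perm.sign (Fin.revPerm : Equiv.Perm (Fin n))) with h | h <;>
      rcases neg_one_pow_eq_or ℤ (Fintype.card {p : Fin n × Fin n // p.1 < p.2}) with h' | h' <;>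
      simp [h, h']
  · rw [frdenomb_denMat_eq, Matrix.det_permute', hdet, zsmul_eq_mul]
    push_cast
    ring

end Vale.Agent.Lib.P182
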