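import Vale.Agent.Lib.P182.FrIp

/-!
# Division of a reflection-antisymmetric element by `e^h - e^{-h}`
-/

namespace Vale.Agent.Lib.P182

open Finset

variable {n : ℕ}

/-- Telescoping: `(e^h - e^{-h}) * ∑_{k<q} e^{a - (2k+1) h} = e^a - e^{a - 2q h}`. -/
theorem frdiv_tele (a h : Fin n → ℤ) (q : ℕ) :
    Fh h * ∑ k ∈ range q, AddMonoidAlgebra.single (a - ((2 * k + 1 : ℕ) : ℤ) • h) (1 : ℤ)
      = AddMonoidAlgebra.single a 1
        - AddMonoidAlgebra.single (a - ((2 * q : ℕ) : ℤ) • h) 1 := by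
  induction q with
  | zero => simp
  | succ q ih =>
    rw [Finset.sum_range_succ, mul_add, ih]
    unfold Fh
    rw [sub_mul, AddMonoidAlgebra.single_mul_single, AddMonoidAlgebra.single_mul_single]
    have e1 : h + (a - ((2 * q + 1 : ℕ) : ℤ) • h) = a - ((2 * q : ℕ) : ℤ) • h := by
      funext i
      simp only [Pi.add_apply, Pi.sub_apply, Pi.smul_apply, smul_eq_mul]
      push_cast
      ring
    have e2 : -h + (a - ((2 * q + 1 : ℕ) : ℤ) • h) = a - ((2 * (q + 1) : ℕ) : ℤ) • h := by
      funext i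
      simp only [Pi.add_apply, Pi.sub_apply, Pi.smul_apply, smul_eq_mul, Pi.neg_apply]
      push_cast
      ring
    rw [e1, e2, mul_one]
    abel

/-- If the coefficients of `χ` are invariant under the reflection `γ ↦ γ - ⟨γ, h⟩ h`
(where `⟨h, h⟩ = 2`) and `⟨γ, h⟩` is even on the support of `χ`, then the directional
derivative `∑_γ ⟨γ, h⟩ χ_γ e^γ` is divisible by `e^h - e^{-h}`. -/
theorem exists_div_Fh (χ : AddMonoidAlgebra ℤ (Fin n → ℤ)) (h : Fin n → ℤ) (hh : ip h h = 2)
    (hsym : ∀ γ, χ.coeff (γ - ip γ h • h) = χ.coeff γ)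
    (heven : ∀ γ, χ.coeff γ ≠ 0 → 2 ∣ ip γ h) :
    ∃ Ψ : AddMonoidAlgebra ℤ (Fin n → ℤ), Fh h * Ψ = wt (fun γ => ip γ h) χ := by
  classical
  have hs_ip : ∀ γ : Fin n → ℤ, ip (γ - ip γ h • h) h = - ip γ h := by
    intro γ
    rw [ip_sub_left, ip_smul_left, hh]
    ring
  have hs_inv : ∀ γ : Fin n → ℤ, (γ - ip γ h • h) - ip (γ - ip γ h • h) h • h = γ := by
    intro γ
    rw [hs_ip γ, neg_smul]
    abel
  refine ⟨∑ a ∈ χ.coeff.support, (ip a h * χ.coeff a) •
    ∑ k ∈ range (ip a h / 2).toNat,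
      AddMonoidAlgebra.single (a - ((2 * k + 1 : ℕ) : ℤ) • h) (1 : ℤ), ?_⟩
  rw [Finset.mul_sum]
  have step1 : ∀ a ∈ χ.coeff.support,
      Fh h * ((ip a h * χ.coeff a) • ∑ k ∈ range (ip a h / 2).toNat,
        AddMonoidAlgebra.single (a - ((2 * k + 1 : ℕ) : ℤ) • h) (1 : ℤ))
      = if 0 < ip a h then (ip a h * χ.coeff a) •
          (AddMonoidAlgebra.single a 1 - AddMonoidAlgebra.single (a - ip a h • h) 1)
        else 0 := by
    intro a ha
    rw [mul_smul_comm, frdiv_tele]
    split_ifs with hpos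
    · have hev := heven a (Finsupp.mem_support_iff.1 ha)
      have h2 : ((2 * (ip a h / 2).toNat : ℕ) : ℤ) = ip a h := by
        obtain ⟨c, hc⟩ := hev
        push_cast
        rw [Int.toNat_of_nonneg (by omega)]
        omega
      rw [h2]
    · have h0 : (ip a h / 2).toNat = 0 := by
        rw [Int.toNat_eq_zero]
        omega
      rw [h0]
      simp
  rw [Finset.sum_congr rfl step1, ← Finset.sum_filter]
  ext γ
  rw [wt_coeff, AddMonoidAlgebra.coeff_sum, Finsupp.finsetSum_apply]
  have step2 : ∀ a ∈ χ.coeff.support.filter (fun a => 0 < ip a h),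
      ((ip a h * χ.coeff a) • (AddMonoidAlgebra.single a (1 : ℤ)
          - AddMonoidAlgebra.single (a - ip a h • h) 1)).coeff γ
        = (if a = γ then ip a h * χ.coeff a else 0)
          - (if a = γ - ip γ h • h then ip a h * χ.coeff a else 0) := by
    intro a _
    rw [AddMonoidAlgebra.coeff_smul, AddMonoidAlgebra.coeff_sub, Finsupp.smul_apply,
      Finsupp.sub_apply, AddMonoidAlgebra.coeff_single, AddMonoidAlgebra.coeff_single,
      Finsupp.single_apply, Finsupp.single_apply, smul_eq_mul, mul_sub, mul_ite, mul_ite,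
      mul_one, mul_zero]
    have hiff : (a - ip a h • h = γ) ↔ (a = γ - ip γ h • h) := by
      constructor
      · intro e
        rw [← e]
        exact (hs_inv a).symm
      · intro e
        rw [e]
        exact hs_inv γ
    simp only [hiff]
  rw [Finset.sum_congr rfl step2, Finset.sum_sub_distrib, Finset.sum_ite_eq',
    Finset.sum_ite_eq']
  simp only [Finset.mem_filter, Finsupp.mem_support_iff]
  rw [hs_ip γ, hsym γ]
  by_cases hc : χ.coeff γ = 0
  · simp [hc]
  · rcases lt_trichotomy (ip γ h) 0 with hlt | heq | hgt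
    · rw [if_neg (fun hx => by omega), if_pos ⟨hc, by omega⟩]
      ring
    · rw [if_neg (fun hx => by omega), if_neg (fun hx => by omega), heq]
      ring
    · rw [if_pos ⟨hc, hgt⟩, if_neg (fun hx => by omega)]
      ring

end Vale.Agent.Lib.P182
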