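import Vale.Agent.Lib.P182.FrIp

/-!
# Every vector is Weyl-conjugate to a dominant one
-/

namespace Vale.Agent.Lib.P182

open Finset

variable {n : ℕ}

theorem exists_dominant_conj (v : Fin n → ℤ) :
    ∃ σ : Equiv.Perm (Fin n), ∃ e ∈ evenSigns n, Dominant (wact σ e v) := by
  set τ : Equiv.Perm (Fin n) := Tuple.sort (fun i => -|v i|) with hτ
  have hmono : Monotone ((fun i => -|v i|) ∘ τ) := Tuple.monotone_sort _
  have hanti : ∀ i j, i < j → |v (τ j)| ≤ |v (τ i)| := by
    intro i j hij
    have h1 := hmono (le_of_lt hij)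
    simp only [Function.comp] at h1
    omega
  by_cases hn : n = 0
  · subst hn
    exact ⟨τ, 1, one_mem_evenSigns, fun i => i.elim0⟩
  · have hl : n - 1 < n := by omega
    set l : Fin n := ⟨n - 1, hl⟩ with hldef
    set d0 : Fin n → ℤˣ := fun i => if 0 ≤ v (τ i) then 1 else -1 with hd0
    set p : ℤˣ := ∏ i, d0 i with hp
    set d : Fin n → ℤˣ := fun i => d0 i * (if i = l then p else 1) with hd
    have hdmem : d ∈ evenSigns n := by
      rw [mem_evenSigns, Finset.prod_mul_distrib, Finset.prod_ite_eq']
      simp only [Finset.mem_univ, if_true]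
      exact Int.units_mul_self p
    refine ⟨τ, d, hdmem, ?_⟩
    intro i j hij
    rw [abs_wact]
    have hil : i ≠ l := by
      intro hc
      have h1 : i.val < j.val := hij
      have h2 := j.isLt
      rw [hc] at h1
      simp only [hldef] at h1
      omega
    have hdi : d i = d0 i := by simp [hd, hil]
    have hval : wact τ d v i = |v (τ i)| := by
      simp only [wact, hdi, hd0]
      split_ifs with h1
      · rw [abs_of_nonneg h1]; simp
      · rw [abs_of_neg (not_le.mp h1)]; simp
    rw [hval]
    exact hanti i j hij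

end Vale.Agent.Lib.P182
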