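import Vale.Agent.Lib.P182.FrDefs

/-!
# Basic algebra of the inner product `ip` on `ℤ^n`
-/

namespace Vale.Agent.Lib.P182

open Finset

variable {n : ℕ}

theorem ip_comm (v w : Fin n → ℤ) : ip v w = ip w v := by
  unfold ip
  exact Finset.sum_congr rfl (fun i _ => mul_comm _ _)

theorem ip_add_left (a b w : Fin n → ℤ) : ip (a + b) w = ip a w + ip b w := by
  unfold ip
  rw [← Finset.sum_add_distrib]
  exact Finset.sum_congr rfl (fun i _ => by rw [Pi.add_apply]; ring)

theorem ip_add_right (v a b : Fin n → ℤ) : ip v (a + b) = ip v a + ip v b := by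
  rw [ip_comm, ip_add_left, ip_comm a, ip_comm b]

theorem ip_neg_left (a w : Fin n → ℤ) : ip (-a) w = - ip a w := by
  unfold ip
  rw [← Finset.sum_neg_distrib]
  exact Finset.sum_congr rfl (fun i _ => by rw [Pi.neg_apply]; ring)

theorem ip_neg_right (v a : Fin n → ℤ) : ip v (-a) = - ip v a := by
  rw [ip_comm, ip_neg_left, ip_comm]

theorem ip_sub_left (a b w : Fin n → ℤ) : ip (a - b) w = ip a w - ip b w := by
  rw [sub_eq_add_neg, ip_add_left, ip_neg_left, sub_eq_add_neg]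

theorem ip_sub_right (v a b : Fin n → ℤ) : ip v (a - b) = ip v a - ip v b := by
  rw [ip_comm, ip_sub_left, ip_comm a, ip_comm b]

theorem ip_smul_left (z : ℤ) (a w : Fin n → ℤ) : ip (z • a) w = z * ip a w := by
  unfold ip
  rw [Finset.mul_sum]
  exact Finset.sum_congr rfl (fun i _ => by rw [Pi.smul_apply, smul_eq_mul]; ring)

theorem ip_smul_right (z : ℤ) (v a : Fin n → ℤ) : ip v (z • a) = z * ip v a := by
  rw [ip_comm, ip_smul_left, ip_comm]

theorem ip_nsmul_left (N : ℕ) (a w : Fin n → ℤ) : ip (N • a) w = (N : ℤ) * ip a w := by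
  rw [← natCast_zsmul, ip_smul_left]

theorem ip_nsmul_right (N : ℕ) (v a : Fin n → ℤ) : ip v (N • a) = (N : ℤ) * ip v a := by
  rw [ip_comm, ip_nsmul_left, ip_comm]

theorem ip_zero_left (w : Fin n → ℤ) : ip 0 w = 0 := by
  unfold ip
  simp

theorem ip_zero_right (v : Fin n → ℤ) : ip v 0 = 0 := by
  unfold ip
  simp

theorem ip_sum_left {ι : Type*} (s : Finset ι) (a : ι → Fin n → ℤ) (w : Fin n → ℤ) :
    ip (∑ x ∈ s, a x) w = ∑ x ∈ s, ip (a x) w := by
  classical
  induction s using Finset.induction_on with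
  | empty => simp [ip_zero_left]
  | insert x s hx ih => rw [Finset.sum_insert hx, Finset.sum_insert hx, ip_add_left, ih]

theorem ip_sum_right {ι : Type*} (s : Finset ι) (v : Fin n → ℤ) (a : ι → Fin n → ℤ) :
    ip v (∑ x ∈ s, a x) = ∑ x ∈ s, ip v (a x) := by
  rw [ip_comm, ip_sum_left]
  exact Finset.sum_congr rfl (fun x _ => ip_comm _ _)

theorem nsq_eq_ip (v : Fin n → ℤ) : nsq v = ip v v := by
  unfold nsq ip
  exact Finset.sum_congr rfl (fun i _ => by ring)

theorem nsq_add (a b : Fin n → ℤ) : nsq (a + b) = nsq a + 2 * ip a b + nsq b := by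
  rw [nsq_eq_ip, nsq_eq_ip, nsq_eq_ip, ip_add_left, ip_add_right, ip_add_right, ip_comm b a]
  ring

/-- The Weyl group acts by isometries. -/
theorem ip_wact_wact (σ : Equiv.Perm (Fin n)) (e : Fin n → ℤˣ) (v w : Fin n → ℤ) :
    ip (wact σ e v) (wact σ e w) = ip v w := by
  unfold ip wact
  have h1 : ∀ i : Fin n, ((e i : ℤˣ) : ℤ) * v (σ i) * (((e i : ℤˣ) : ℤ) * w (σ i))
      = v (σ i) * w (σ i) := by
    intro i
    have h2 := units_int_mul_self (e i)
    calc ((e i : ℤˣ) : ℤ) * v (σ i) * (((e i : ℤˣ) : ℤ) * w (σ i))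
        = (((e i : ℤˣ) : ℤ) * ((e i : ℤˣ) : ℤ)) * (v (σ i) * w (σ i)) := by ring
      _ = v (σ i) * w (σ i) := by rw [h2, one_mul]
  rw [Finset.sum_congr rfl (fun i _ => h1 i)]
  exact Equiv.sum_comp σ (fun i => v i * w i)

end Vale.Agent.Lib.P182
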