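import Vale.Agent.Lib.P182.FrIp

/-!
# Exponents of a Weyl character lie in one coset of (twice) the root lattice
-/

namespace Vale.Agent.Lib.P182

open Finset

variable {n : ℕ}

theorem inTwoQ_neg {x : Fin n → ℤ} (h : InTwoQ x) : InTwoQ (-x) := by
  refine ⟨fun i => ?_, ?_⟩
  · rw [Pi.neg_apply]
    exact (dvd_neg (a := (2 : ℤ))).mpr (h.1 i)
  · have e : ∑ i, (-x) i = -∑ i, x i := by
      simp
    rw [e]
    exact (dvd_neg (a := (4 : ℤ))).mpr h.2

theorem inTwoQ_add {x y : Fin n → ℤ} (hx : InTwoQ x) (hy : InTwoQ y) : InTwoQ (x + y) := by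
  refine ⟨fun i => ?_, ?_⟩
  · rw [Pi.add_apply]
    exact dvd_add (hx.1 i) (hy.1 i)
  · have e : ∑ i, (x + y) i = ∑ i, x i + ∑ i, y i := by
      simp [Finset.sum_add_distrib]
    rw [e]
    exact dvd_add hx.2 hy.2

theorem inTwoQ_sub {x y : Fin n → ℤ} (hx : InTwoQ x) (hy : InTwoQ y) : InTwoQ (x - y) := by
  rw [sub_eq_add_neg]
  exact inTwoQ_add hx (inTwoQ_neg hy)

theorem inTwoQ_sroot (hn : 2 ≤ n) (j : Fin n) : InTwoQ (sroot n j) := by
  refine ⟨fun k => ?_, ?_⟩
  · unfold sroot
    split_ifs <;> norm_num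
  · by_cases h : j.val + 1 < n
    · have e : ∀ k : Fin n, sroot n j k
          = (if k = j then 2 else 0) - (if k = ⟨j.val + 1, h⟩ then 2 else 0) := by
        intro k
        unfold sroot
        rw [if_pos h]
        congr 1
        simp [Fin.ext_iff]
      simp [e, Finset.sum_sub_distrib]
    · have hj : j.val + 1 = n := by
        have := j.isLt
        omega
      have e : ∀ k : Fin n, sroot n j k
          = (if k = ⟨n - 2, by omega⟩ then 2 else 0) + (if k = ⟨n - 1, by omega⟩ then 2 else 0) := by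
        intro k
        unfold sroot
        rw [if_neg h]
        have e1 : (k.val + 2 = n) ↔ k = ⟨n - 2, by omega⟩ := by
          rw [Fin.ext_iff]
          constructor <;> intro hk <;> simp at hk ⊢ <;> omega
        have e2 : (k.val + 1 = n) ↔ k = ⟨n - 1, by omega⟩ := by
          rw [Fin.ext_iff]
          constructor <;> intro hk <;> simp at hk ⊢ <;> omega
        simp only [e1, e2]
      simp [e, Finset.sum_add_distrib]

/-- If `L - γ` lies in twice the root lattice and `L` is a weight vector, so is `γ`. -/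
theorem isWt_of_inTwoQ_sub {L γ : Fin n → ℤ} (hLw : IsWt L) (h : InTwoQ (L - γ)) : IsWt γ := by
  intro i j
  have h0 := hLw i j
  have h1 := h.1 i
  have h2 := h.1 j
  simp only [Pi.sub_apply] at h1 h2
  omega

theorem frlat_unit_sub_one_even (u : ℤˣ) : (2 : ℤ) ∣ (u : ℤ) - 1 := by
  rcases Int.units_eq_one_or u with h | h <;> simp [h]

theorem frlat_key {ι : Type*} [DecidableEq ι] (s : Finset ι) (e : ι → ℤˣ) (w : ι → ℤ) (v0 : ℤ)
    (hw : ∀ i ∈ s, (2 : ℤ) ∣ w i - v0) :
    (4 : ℤ) ∣ ∑ i ∈ s, ((e i : ℤ) - 1) * w i - (((∏ i ∈ s, e i : ℤˣ) : ℤ) - 1) * v0 := by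
  induction s using Finset.induction_on with
  | empty => simp
  | insert a s ha ih =>
    rw [Finset.sum_insert ha, Finset.prod_insert ha]
    obtain ⟨k, hk⟩ := ih (fun i hi => hw i (Finset.mem_insert_of_mem hi))
    obtain ⟨p, hp⟩ := frlat_unit_sub_one_even (e a)
    obtain ⟨q, hq⟩ := frlat_unit_sub_one_even (∏ i ∈ s, e i)
    obtain ⟨r, hr⟩ := hw a (Finset.mem_insert_self a s)
    refine ⟨k + p * r - p * q * v0, ?_⟩
    push_cast at hk hq ⊢
    linear_combination hk + (w a - v0) * hp + 2 * p * hr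
      - v0 * (∏ i ∈ s, (e i : ℤ) - 1) * hp - 2 * p * v0 * hq

/-- The Weyl group fixes the class of a weight vector modulo twice the root lattice. -/
theorem inTwoQ_wact_sub {v : Fin n → ℤ} (hv : IsWt v) (σ : Equiv.Perm (Fin n))
    (e : Fin n → ℤˣ) (he : e ∈ evenSigns n) : InTwoQ (wact σ e v - v) := by
  classical
  refine ⟨fun i => ?_, ?_⟩
  · rw [Pi.sub_apply, wact_apply]
    have h0 := hv (σ i) i
    rcases Int.units_eq_one_or (e i) with h | h
    · rw [h]
      simpa using h0
    · rw [h]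
      simp only [Units.val_neg, Units.val_one, neg_mul, one_mul]
      omega
  · have e1 : ∑ i, (wact σ e v - v) i = ∑ i, ((e i : ℤ) - 1) * v (σ i) := by
      have e2 : ∑ i, v i = ∑ i, v (σ i) := (Equiv.sum_comp σ v).symm
      simp only [Pi.sub_apply, wact_apply, Finset.sum_sub_distrib, sub_mul, one_mul]
      rw [e2]
    rw [e1]
    by_cases hn : 0 < n
    · have hk := frlat_key (Finset.univ : Finset (Fin n)) e (fun i => v (σ i)) (v ⟨0, hn⟩)
        (fun i _ => hv (σ i) ⟨0, hn⟩)
      rw [mem_evenSigns.mp he] at hk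
      simpa using hk
    · have hn0 : n = 0 := by omega
      subst hn0
      simp

/-- Coset principle: if the exponents of `g ≠ 0` lie in the coset of `a0` and those of `f * g`
lie in the coset of `b0` (modulo twice the root lattice), then the exponents of `f` lie in the
coset of `b0 - a0`. -/
theorem supp_coset {f g : AddMonoidAlgebra ℤ (Fin n → ℤ)} (hg0 : g ≠ 0) (a0 b0 : Fin n → ℤ)
    (hg : ∀ a, g.coeff a ≠ 0 → InTwoQ (a - a0))
    (hh : ∀ b, (f * g).coeff b ≠ 0 → InTwoQ (b - b0)) :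
    ∀ c, f.coeff c ≠ 0 → InTwoQ (c - (b0 - a0)) := by
  classical
  obtain ⟨f1, f2, hf, hf1, hf2, hf2c⟩ : ∃ f1 f2 : AddMonoidAlgebra ℤ (Fin n → ℤ),
      f = f1 + f2 ∧ (∀ c, f1.coeff c ≠ 0 → InTwoQ (c - (b0 - a0))) ∧
      (∀ c, f2.coeff c ≠ 0 → ¬ InTwoQ (c - (b0 - a0))) ∧
      (∀ c, ¬ InTwoQ (c - (b0 - a0)) → f2.coeff c = f.coeff c) := by
    refine ⟨AddMonoidAlgebra.ofCoeff (Finsupp.filter (fun c => InTwoQ (c - (b0 - a0))) f.coeff),
      AddMonoidAlgebra.ofCoeff (Finsupp.filter (fun c => ¬ InTwoQ (c - (b0 - a0))) f.coeff),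
      ?_, ?_, ?_, ?_⟩
    · apply AddMonoidAlgebra.coeff_injective
      exact (Finsupp.filter_add_filter_not f.coeff (fun c => InTwoQ (c - (b0 - a0)))).symm
    · intro c hc
      by_contra hcon
      exact hc (Finsupp.filter_apply_neg (fun c => InTwoQ (c - (b0 - a0))) f.coeff hcon)
    · intro c hc hcon
      exact hc (Finsupp.filter_apply_neg (fun c => ¬ InTwoQ (c - (b0 - a0))) f.coeff
        (not_not.mpr hcon))
    · intro c hc
      exact Finsupp.filter_apply_pos (fun c => ¬ InTwoQ (c - (b0 - a0))) f.coeff hc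
  have h1 : ∀ b, (f1 * g).coeff b ≠ 0 → InTwoQ (b - b0) := by
    intro b hb
    have hmem := AddMonoidAlgebra.support_coeff_mul_subset f1 g (Finsupp.mem_support_iff.mpr hb)
    obtain ⟨c, hc, a, ha, rfl⟩ := Finset.mem_add.mp hmem
    have hc' := hf1 c (Finsupp.mem_support_iff.mp hc)
    have ha' := hg a (Finsupp.mem_support_iff.mp ha)
    have e : c + a - b0 = (c - (b0 - a0)) + (a - a0) := by abel
    rw [e]
    exact inTwoQ_add hc' ha'
  have h2 : ∀ b, (f2 * g).coeff b ≠ 0 → ¬ InTwoQ (b - b0) := by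
    intro b hb hcon
    have hmem := AddMonoidAlgebra.support_coeff_mul_subset f2 g (Finsupp.mem_support_iff.mpr hb)
    obtain ⟨c, hc, a, ha, rfl⟩ := Finset.mem_add.mp hmem
    have hc' := hf2 c (Finsupp.mem_support_iff.mp hc)
    have ha' := hg a (Finsupp.mem_support_iff.mp ha)
    apply hc'
    have e : c - (b0 - a0) = (c + a - b0) - (a - a0) := by abel
    rw [e]
    exact inTwoQ_sub hcon ha'
  have hprod : f * g = f1 * g + f2 * g := by
    rw [← add_mul, ← hf]
  have h3 : f2 * g = 0 := by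
    apply AddMonoidAlgebra.coeff_injective
    ext b
    by_contra hb
    have hb' : (f2 * g).coeff b ≠ 0 := hb
    have hnot := h2 b hb'
    have hsum : (f * g).coeff b = (f1 * g).coeff b + (f2 * g).coeff b := by
      rw [hprod]
      rfl
    by_cases h1b : (f1 * g).coeff b = 0
    · have hne : (f * g).coeff b ≠ 0 := by
        rw [hsum, h1b, zero_add]
        exact hb'
      exact hnot (hh b hne)
    · exact hnot (h1 b h1b)
  have h4 : f2 = 0 := by
    rcases mul_eq_zero.mp h3 with h | h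
    · exact h
    · exact absurd h hg0
  intro c hc
  by_contra hcon
  have e := hf2c c hcon
  rw [h4] at e
  exact hc e.symm

/-- The exponents of a Weyl character are congruent to the highest weight modulo twice the
root lattice. -/
theorem weylChar_supp_lat {L : Fin n → ℤ} {χ : AddMonoidAlgebra ℤ (Fin n → ℤ)}
    (hLw : IsWt L) (hχ : IsWeylChar L χ) {γ : Fin n → ℤ} (hγ : χ.coeff γ ≠ 0) :
    InTwoQ (L - γ) := by
  have hg : ∀ a, (alt (rho2 n)).coeff a ≠ 0 → InTwoQ (a - rho2 n) := by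
    intro a ha
    obtain ⟨σ, e, he, rfl⟩ := exists_of_mem_support_alt (Finsupp.mem_support_iff.mpr ha)
    exact inTwoQ_wact_sub isWt_rho2 σ e he
  have hh : ∀ b, (χ * alt (rho2 n)).coeff b ≠ 0 → InTwoQ (b - (L + rho2 n)) := by
    intro b hb
    have hχ' : χ * alt (rho2 n) = alt (L + rho2 n) := hχ
    rw [hχ'] at hb
    obtain ⟨σ, e, he, rfl⟩ := exists_of_mem_support_alt (Finsupp.mem_support_iff.mpr hb)
    exact inTwoQ_wact_sub (isWt_add_rho2 hLw) σ e he
  have h := supp_coset alt_rho2_ne_zero (rho2 n) (L + rho2 n) hg hh γ hγ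
  have e : L - γ = -(γ - (L + rho2 n - rho2 n)) := by abel
  rw [e]
  exact inTwoQ_neg h

end Vale.Agent.Lib.P182
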