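import Vale.Agent.Lib.P182.FrIp

/-!
# Elementary facts on the half-roots `posH x` and the simple roots `sroot n j` of `D_n`
-/

namespace Vale.Agent.Lib.P182

open Finset

variable {n : ℕ}

/-- The pairing with a half-root: `⟨X, e_i ± e_j⟩ = X_i ± X_j`. -/
theorem frposh_ip_posH (X : Fin n → ℤ) (x : PosIdx n) :
    ip X (posH x) = X x.1.1.1 + (if x.2 then 1 else -1) * X x.1.1.2 := by
  unfold ip posH
  have h : ∀ k : Fin n,
      X k * ((if k = x.1.1.1 then 1 else 0) + (if x.2 then 1 else -1) * (if k = x.1.1.2 then 1 else 0))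
        = (if k = x.1.1.1 then X k else 0)
          + (if x.2 then 1 else -1) * (if k = x.1.1.2 then X k else 0) := by
    intro k
    split_ifs <;> ring
  rw [Finset.sum_congr rfl (fun k _ => h k), Finset.sum_add_distrib, ← Finset.mul_sum,
    Finset.sum_ite_eq', Finset.sum_ite_eq']
  simp

theorem frposh_posH_fst (x : PosIdx n) : posH x x.1.1.1 = 1 := by
  have hne : x.1.1.1 ≠ x.1.1.2 := ne_of_lt x.1.2
  unfold posH
  rw [if_pos rfl, if_neg hne]
  ring

theorem frposh_posH_snd (x : PosIdx n) : posH x x.1.1.2 = (if x.2 then 1 else -1) := by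
  have hne : x.1.1.2 ≠ x.1.1.1 := (ne_of_lt x.1.2).symm
  unfold posH
  rw [if_pos rfl, if_neg hne]
  ring

theorem frposh_posH_other (x : PosIdx n) (k : Fin n) (h1 : k ≠ x.1.1.1) (h2 : k ≠ x.1.1.2) :
    posH x k = 0 := by
  unfold posH
  rw [if_neg h1, if_neg h2]
  ring

theorem frposh_sign_sq (b : Bool) : (if b then (1 : ℤ) else -1) * (if b then (1 : ℤ) else -1) = 1 := by
  cases b <;> simp

theorem ip_posH_self (x : PosIdx n) : ip (posH x) (posH x) = 2 := by
  rw [frposh_ip_posH, frposh_posH_fst, frposh_posH_snd, frposh_sign_sq]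
  norm_num

/-- The reflection in a root is an element of the Weyl group. -/
theorem refl_eq_wact (x : PosIdx n) :
    ∃ σ : Equiv.Perm (Fin n), ∃ e ∈ evenSigns n,
      ∀ X : Fin n → ℤ, wact σ e X = X - ip X (posH x) • posH x := by
  obtain ⟨⟨⟨i, j⟩, hij⟩, b⟩ := x
  have hij' : i < j := hij
  have hne : i ≠ j := ne_of_lt hij'
  cases b with
  | false =>
    refine ⟨Equiv.swap i j, 1, one_mem_evenSigns, ?_⟩
    intro X
    funext k
    rw [Pi.sub_apply, Pi.smul_apply, frposh_ip_posH, smul_eq_mul]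
    by_cases hki : k = i
    · subst hki
      have h1 := frposh_posH_fst (n := n) ⟨⟨(k, j), hij⟩, false⟩
      simp only at h1
      rw [h1]
      simp [wact]
    · by_cases hkj : k = j
      · subst hkj
        have h1 := frposh_posH_snd (n := n) ⟨⟨(i, k), hij⟩, false⟩
        simp only at h1
        rw [h1]
        simp [wact]
      · have h1 := frposh_posH_other (n := n) ⟨⟨(i, j), hij⟩, false⟩ k hki hkj
        rw [h1]
        simp [wact, Equiv.swap_apply_of_ne_of_ne hki hkj]
  | true =>
    refine ⟨Equiv.swap i j,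
      fun m => (if m = i then (-1 : ℤˣ) else 1) * (if m = j then (-1 : ℤˣ) else 1),
      prod_two_signs i j hne, ?_⟩
    intro X
    funext k
    rw [Pi.sub_apply, Pi.smul_apply, frposh_ip_posH, smul_eq_mul]
    by_cases hki : k = i
    · subst hki
      have h1 := frposh_posH_fst (n := n) ⟨⟨(k, j), hij⟩, true⟩
      simp only at h1
      rw [h1]
      simp [wact, hne]
    · by_cases hkj : k = j
      · subst hkj
        have h1 := frposh_posH_snd (n := n) ⟨⟨(i, k), hij⟩, true⟩
        simp only at h1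
        rw [h1]
        simp [wact, hki]
      · have h1 := frposh_posH_other (n := n) ⟨⟨(i, j), hij⟩, true⟩ k hki hkj
        rw [h1]
        simp [wact, hki, hkj, Equiv.swap_apply_of_ne_of_ne hki hkj]

theorem frposh_sum_bool (p : {p : Fin n × Fin n // p.1 < p.2}) (k : Fin n) :
    ∑ b : Bool, posH (n := n) (p, b) k = 2 * (if k = p.1.1 then 1 else 0) := by
  rw [Fintype.sum_bool]
  unfold posH
  have hne : p.1.1 ≠ p.1.2 := ne_of_lt p.2
  have hne' : p.1.2 ≠ p.1.1 := hne.symm
  by_cases h1 : k = p.1.1 <;> by_cases h2 : k = p.1.2 <;> simp [h1, h2, hne, hne']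

theorem frposh_count (k : Fin n) :
    ∑ p : {p : Fin n × Fin n // p.1 < p.2}, (if k = p.1.1 then (1 : ℤ) else 0)
      = (n : ℤ) - 1 - (k : ℤ) := by
  have h1 : ∑ p : {p : Fin n × Fin n // p.1 < p.2}, (if k = p.1.1 then (1 : ℤ) else 0)
      = ∑ p ∈ (Finset.univ.filter fun p : Fin n × Fin n => p.1 < p.2),
          (if k = p.1 then (1 : ℤ) else 0) := by
    symm
    exact Finset.sum_subtype (Finset.univ.filter fun p : Fin n × Fin n => p.1 < p.2)
      (by intro p; simp) (fun p : Fin n × Fin n => (if k = p.1 then (1 : ℤ) else 0))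
  rw [h1, Finset.sum_filter, Fintype.sum_prod_type]
  have h2 : ∀ a : Fin n, ∑ b : Fin n, (if a < b then (if k = a then (1 : ℤ) else 0) else 0)
      = if k = a then ∑ b : Fin n, (if k < b then (1 : ℤ) else 0) else 0 := by
    intro a
    by_cases hka : k = a
    · subst hka
      simp
    · simp [hka]
  rw [Finset.sum_congr rfl (fun a _ => h2 a), Finset.sum_ite_eq]
  simp only [Finset.mem_univ, if_true]
  rw [← Finset.sum_filter, Finset.sum_const, nsmul_eq_mul, mul_one]
  have h3 : (Finset.univ.filter fun b : Fin n => k < b).card = n - 1 - k.val := by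
    rw [Finset.filter_lt_eq_Ioi, Fin.card_Ioi]
  rw [h3]
  have := k.isLt
  omega

/-- The half-roots sum to `2ρ` (which is the sum of the doubled roots divided by two). -/
theorem sum_posH (n : ℕ) : ∑ x : PosIdx n, posH x = rho2 n := by
  funext k
  rw [Finset.sum_apply, Fintype.sum_prod_type]
  rw [Finset.sum_congr rfl (fun p _ => frposh_sum_bool p k), ← Finset.mul_sum, frposh_count]
  rfl

theorem ip_posH_nonneg {γ : Fin n → ℤ} (hγ : Dominant γ) (x : PosIdx n) : 0 ≤ ip γ (posH x) := by
  rw [frposh_ip_posH]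
  have h := hγ x.1.1.1 x.1.1.2 x.1.2
  have h1 := abs_le.mp h
  cases hb : x.2
  · simp only [Bool.false_eq_true, if_false]
    linarith [h1.2]
  · simp only [if_true]
    linarith [h1.1]

/-- Every simple root is twice a half-root. -/
theorem sroot_eq_posH (hn : 2 ≤ n) (j : Fin n) : ∃ x : PosIdx n, sroot n j = (2 : ℤ) • posH x := by
  by_cases hj : j.val + 1 < n
  · refine ⟨⟨⟨(j, ⟨j.val + 1, hj⟩), ?_⟩, false⟩, ?_⟩
    · show j < (⟨j.val + 1, hj⟩ : Fin n)
      rw [Fin.lt_def]
      simp
    · funext k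
      rw [Pi.smul_apply, smul_eq_mul]
      unfold sroot posH
      simp only [hj, if_true, Bool.false_eq_true, if_false]
      have hiff : (k = (⟨j.val + 1, hj⟩ : Fin n)) ↔ k.val = j.val + 1 := Fin.ext_iff
      by_cases h1 : k = j
      · have h2 : ¬ (k.val = j.val + 1) := by
          rw [h1]
          omega
        have h3 : ¬ (k = (⟨j.val + 1, hj⟩ : Fin n)) := fun h => h2 (hiff.mp h)
        rw [if_pos h1, if_neg h2, if_pos h1, if_neg h3]
        norm_num
      · by_cases h2 : k.val = j.val + 1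
        · have h3 : k = (⟨j.val + 1, hj⟩ : Fin n) := hiff.mpr h2
          rw [if_neg h1, if_pos h2, if_neg h1, if_pos h3]
          norm_num
        · have h3 : ¬ (k = (⟨j.val + 1, hj⟩ : Fin n)) := fun h => h2 (hiff.mp h)
          rw [if_neg h1, if_neg h2, if_neg h1, if_neg h3]
          norm_num
  · have hjn : j.val + 1 = n := by
      have := j.isLt
      omega
    have ha : n - 2 < n := by omega
    have hb : n - 1 < n := by omega
    refine ⟨⟨⟨((⟨n - 2, ha⟩ : Fin n), (⟨n - 1, hb⟩ : Fin n)), ?_⟩, true⟩, ?_⟩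
    · show (⟨n - 2, ha⟩ : Fin n) < (⟨n - 1, hb⟩ : Fin n)
      rw [Fin.lt_def]
      show n - 2 < n - 1
      omega
    · funext k
      rw [Pi.smul_apply, smul_eq_mul]
      unfold sroot posH
      simp only [hj, if_false, if_true]
      have hiff1 : (k = (⟨n - 2, ha⟩ : Fin n)) ↔ k.val + 2 = n := by
        rw [Fin.ext_iff]
        show k.val = n - 2 ↔ k.val + 2 = n
        omega
      have hiff2 : (k = (⟨n - 1, hb⟩ : Fin n)) ↔ k.val + 1 = n := by
        rw [Fin.ext_iff]
        show k.val = n - 1 ↔ k.val + 1 = n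
        omega
      by_cases h1 : k.val + 2 = n
      · by_cases h2 : k.val + 1 = n
        · simp [h1, h2, hiff1, hiff2]
        · simp [h1, h2, hiff1, hiff2]
      · by_cases h2 : k.val + 1 = n
        · simp [h1, h2, hiff1, hiff2]
        · simp [h1, h2, hiff1, hiff2]

/-- On vectors whose coordinates all have the same parity, `⟨γ, posH x⟩` is even. -/
theorem two_dvd_ip_posH {γ : Fin n → ℤ} (hγ : IsWt γ) (x : PosIdx n) : 2 ∣ ip γ (posH x) := by
  rw [frposh_ip_posH]
  have h := hγ x.1.1.1 x.1.1.2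
  cases hb : x.2
  · simp only [Bool.false_eq_true, if_false]
    have e : γ x.1.1.1 + -1 * γ x.1.1.2 = γ x.1.1.1 - γ x.1.1.2 := by ring
    rw [e]
    exact h
  · simp only [if_true]
    have e : γ x.1.1.1 + 1 * γ x.1.1.2 = (γ x.1.1.1 - γ x.1.1.2) + 2 * γ x.1.1.2 := by ring
    rw [e]
    exact dvd_add h (dvd_mul_right 2 _)

end Vale.Agent.Lib.P182
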