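import Vale.Agent.Lib.P182.FrIp

/-!
# Coefficients of the quotient `Ψ` of a directional derivative by `e^h - e^{-h}`
-/

namespace Vale.Agent.Lib.P182

open Finset

variable {n : ℕ}

theorem coeff_mul_Gh (Ψ : AddMonoidAlgebra ℤ (Fin n → ℤ)) (h γ : Fin n → ℤ) :
    (Ψ * Gh h).coeff γ = Ψ.coeff (γ - h) + Ψ.coeff (γ + h) := by
  unfold Gh
  rw [mul_add, AddMonoidAlgebra.coeff_add, Finsupp.add_apply,
    AddMonoidAlgebra.coeff_mul_single_apply, AddMonoidAlgebra.coeff_mul_single_apply,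
    mul_one, mul_one, neg_neg, ← sub_eq_add_neg]

theorem coeff_Fh_mul (Ψ : AddMonoidAlgebra ℤ (Fin n → ℤ)) (h γ : Fin n → ℤ) :
    (Fh h * Ψ).coeff γ = Ψ.coeff (γ - h) - Ψ.coeff (γ + h) := by
  unfold Fh
  rw [sub_mul, AddMonoidAlgebra.coeff_sub, Finsupp.sub_apply,
    AddMonoidAlgebra.coeff_single_mul_apply, AddMonoidAlgebra.coeff_single_mul_apply,
    one_mul, one_mul, neg_neg, neg_add_eq_sub, add_comm h γ]

/-- Telescoping along the string `γ + 2 k h`: the finitely supported `Ψ` is recovered from the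
coefficients of `χ`. -/
theorem psi_tail (χ Ψ : AddMonoidAlgebra ℤ (Fin n → ℤ)) (h : Fin n → ℤ) (hh : ip h h = 2)
    (hΨ : Fh h * Ψ = wt (fun γ => ip γ h) χ) (γ : Fin n → ℤ) :
    ∃ K0 : ℕ, ∀ K : ℕ, K0 ≤ K →
      Ψ.coeff (γ - h) + Ψ.coeff (γ + h) = ip γ h * χ.coeff γ
        + 2 * ∑ k ∈ Finset.Icc 1 K,
            ip (γ + (2 * (k : ℤ)) • h) h * χ.coeff (γ + (2 * (k : ℤ)) • h) := by
  have star : ∀ y : Fin n → ℤ,
      Ψ.coeff (y - h) - Ψ.coeff (y + h) = ip y h * χ.coeff y := by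
    intro y
    rw [← coeff_Fh_mul, hΨ, wt_coeff]
  have tele : ∀ K : ℕ, Ψ.coeff (γ + h) = ∑ k ∈ Finset.Icc 1 K,
      ip (γ + (2 * (k : ℤ)) • h) h * χ.coeff (γ + (2 * (k : ℤ)) • h)
        + Ψ.coeff (γ + (2 * (K : ℤ) + 1) • h) := by
    intro K
    induction K with
    | zero => simp
    | succ K ih =>
      rw [Finset.sum_Icc_succ_top (by omega), add_assoc, ← star]
      have e1 : γ + (2 * ((K + 1 : ℕ) : ℤ)) • h - h = γ + (2 * (K : ℤ) + 1) • h := by
        push_cast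
        module
      have e2 : γ + (2 * ((K + 1 : ℕ) : ℤ)) • h + h
          = γ + (2 * ((K + 1 : ℕ) : ℤ) + 1) • h := by
        push_cast
        module
      rw [e1, e2, sub_add_cancel]
      exact ih
  have hinj : Function.Injective (fun K : ℕ => γ + (2 * (K : ℤ) + 1) • h) := by
    intro K K' hKK
    have h1 : (2 * (K : ℤ) + 1) • h = (2 * (K' : ℤ) + 1) • h := add_left_cancel hKK
    have h2 := congrArg (fun v => ip v h) h1
    simp only [ip_smul_left, hh] at h2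
    omega
  have hfin : Set.Finite ((fun K : ℕ => γ + (2 * (K : ℤ) + 1) • h) ⁻¹'
      (Ψ.coeff.support : Set (Fin n → ℤ))) :=
    Set.Finite.preimage (hinj.injOn) (Finset.finite_toSet _)
  obtain ⟨M, hM⟩ := hfin.bddAbove
  refine ⟨M + 1, fun K hK => ?_⟩
  have hz : Ψ.coeff (γ + (2 * (K : ℤ) + 1) • h) = 0 := by
    by_contra hne
    have hmem : K ∈ ((fun K : ℕ => γ + (2 * (K : ℤ) + 1) • h) ⁻¹'
        (Ψ.coeff.support : Set (Fin n → ℤ))) := by
      simp only [Set.mem_preimage, Finset.mem_coe, Finsupp.mem_support_iff]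
      exact hne
    have hle := hM hmem
    omega
  have h0 := star γ
  have hK := tele K
  rw [hz, add_zero] at hK
  linarith

end Vale.Agent.Lib.P182
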