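import Vale.Agent.Lib.P182.FrRing
import Vale.Agent.Lib.P182.FrDiv
import Vale.Agent.Lib.P182.FrTail
import Vale.Agent.Lib.P182.FrLat
import Vale.Agent.Lib.P182.FrPosH

/-!
# Freudenthal's recursion for the coefficients of a Weyl character of type `D_n`

In doubled coordinates: for every `γ`,
`(|L + 2ρ|^2 - |γ + 2ρ|^2) m(γ) = 4 ∑_{α > 0} ∑_{k ≥ 1} ⟨γ + k α, α/2⟩ m(γ + k α)`,
where `m` denotes the coefficients of the character `χ` with highest weight `L`, the doubled
positive roots are `α = 2 • posH x`, and the inner sum is finite.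
-/

namespace Vale.Agent.Lib.P182

open Finset

variable {n : ℕ}

/-- The directional derivative of a Weyl character along a root is divisible by the
corresponding factor of the Weyl denominator. -/
theorem exists_psi {L : Fin n → ℤ} {χ : AddMonoidAlgebra ℤ (Fin n → ℤ)} (hLw : IsWt L)
    (hχ : IsWeylChar L χ) (x : PosIdx n) :
    ∃ Ψ : AddMonoidAlgebra ℤ (Fin n → ℤ),
      Fh (posH x) * Ψ = wt (fun γ => ip γ (posH x)) χ := by
  refine exists_div_Fh χ (posH x) (ip_posH_self x) ?_ ?_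
  · intro γ
    obtain ⟨σ, e, he, hσ⟩ := refl_eq_wact x
    rw [← hσ γ]
    exact weylChar_coeff_wact hχ σ e he γ
  · intro γ hγ
    exact two_dvd_ip_posH (isWt_of_inTwoQ_sub hLw (weylChar_supp_lat hLw hχ hγ)) x

/-- Freudenthal's recursion formula. -/
theorem freudenthal {L : Fin n → ℤ} {χ : AddMonoidAlgebra ℤ (Fin n → ℤ)} (hLw : IsWt L)
    (hχ : IsWeylChar L χ) (γ : Fin n → ℤ) :
    ∃ K : ℕ, 1 ≤ K ∧ (nsq (L + rho2 n) - nsq (γ + rho2 n)) * χ.coeff γ
      = 4 * ∑ x : PosIdx n, ∑ k ∈ Finset.Icc 1 K,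
          ip (γ + (2 * (k : ℤ)) • posH x) (posH x) * χ.coeff (γ + (2 * (k : ℤ)) • posH x) := by
  classical
  choose Ψ hΨ using fun x => exists_psi hLw hχ x
  have hring := freudenthal_ring hχ Ψ hΨ
  have hcoef : nsq (L + rho2 n) * χ.coeff γ
      = nsq γ * χ.coeff γ + 2 * ∑ x : PosIdx n, (Ψ x * Gh (posH x)).coeff γ
        + nsq (rho2 n) * χ.coeff γ := by
    have h1 := congrArg (fun f : AddMonoidAlgebra ℤ (Fin n → ℤ) => f.coeff γ) hring
    simp only [AddMonoidAlgebra.coeff_add, AddMonoidAlgebra.coeff_smul, Finsupp.add_apply,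
      Finsupp.smul_apply, smul_eq_mul, AddMonoidAlgebra.coeff_sum, Finsupp.finsetSum_apply,
      wt_coeff] at h1
    exact h1
  choose K0 hK0 using fun x => psi_tail χ (Ψ x) (posH x) (ip_posH_self x) (hΨ x) γ
  refine ⟨max 1 (Finset.univ.sup K0), le_max_left _ _, ?_⟩
  set K := max 1 (Finset.univ.sup K0) with hK
  have hx : ∀ x : PosIdx n, (Ψ x * Gh (posH x)).coeff γ = ip γ (posH x) * χ.coeff γ
      + 2 * ∑ k ∈ Finset.Icc 1 K,
          ip (γ + (2 * (k : ℤ)) • posH x) (posH x) * χ.coeff (γ + (2 * (k : ℤ)) • posH x) := by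
    intro x
    rw [coeff_mul_Gh]
    exact hK0 x K (le_trans (Finset.le_sup (Finset.mem_univ x)) (le_max_right _ _))
  have hsum : ∑ x : PosIdx n, ip γ (posH x) = ip γ (rho2 n) := by
    rw [← ip_sum_right, sum_posH]
  have hexp : nsq (γ + rho2 n) = nsq γ + 2 * ip γ (rho2 n) + nsq (rho2 n) := nsq_add γ (rho2 n)
  rw [Finset.sum_congr rfl (fun x _ => hx x), Finset.sum_add_distrib, ← Finset.sum_mul,
    ← Finset.mul_sum, hsum] at hcoef
  rw [hexp]
  linear_combination hcoef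

end Vale.Agent.Lib.P182
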