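import Vale.Agent.Lib.P182.FrPosH

/-!
# Norm inequalities used in the induction for the positivity of weight multiplicities
-/

namespace Vale.Agent.Lib.P182

open Finset

variable {n : ℕ}

/-- The inner product with a simple root which is not the last one. -/
theorem frnorm_ip_sroot_lt (j : Fin n) (h : j.val + 1 < n) (v : Fin n → ℤ) :
    ip (sroot n j) v = 2 * v j - 2 * v ⟨j.val + 1, h⟩ := by
  unfold ip sroot
  simp only [if_pos h]
  have h1 : ∀ k : Fin n,
      ((if k = j then (2 : ℤ) else 0) - (if k.val = j.val + 1 then 2 else 0)) * v k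
        = (if k = j then 2 * v k else 0) - (if k = ⟨j.val + 1, h⟩ then 2 * v k else 0) := by
    intro k
    have h2 : (k.val = j.val + 1) ↔ k = ⟨j.val + 1, h⟩ := by
      rw [Fin.ext_iff]
    by_cases hk1 : k = j
    · by_cases hk2 : k = ⟨j.val + 1, h⟩
      · rw [if_pos hk1, if_pos (h2.mpr hk2), if_pos hk1, if_pos hk2]
        ring
      · rw [if_pos hk1, if_neg (fun hh => hk2 (h2.mp hh)), if_pos hk1, if_neg hk2]
        ring
    · by_cases hk2 : k = ⟨j.val + 1, h⟩
      · rw [if_neg hk1, if_pos (h2.mpr hk2), if_neg hk1, if_pos hk2]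
        ring
      · rw [if_neg hk1, if_neg (fun hh => hk2 (h2.mp hh)), if_neg hk1, if_neg hk2]
        ring
  rw [Finset.sum_congr rfl (fun k _ => h1 k), Finset.sum_sub_distrib, Finset.sum_ite_eq',
    Finset.sum_ite_eq', if_pos (Finset.mem_univ _), if_pos (Finset.mem_univ _)]

/-- The inner product with the last simple root. -/
theorem frnorm_ip_sroot_last (j : Fin n) (h : ¬ j.val + 1 < n) (h2n : n - 2 < n)
    (h1n : n - 1 < n) (hn : 2 ≤ n) (v : Fin n → ℤ) :
    ip (sroot n j) v = 2 * v ⟨n - 2, h2n⟩ + 2 * v ⟨n - 1, h1n⟩ := by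
  unfold ip sroot
  simp only [if_neg h]
  have h1 : ∀ k : Fin n,
      ((if k.val + 2 = n then (2 : ℤ) else 0) + (if k.val + 1 = n then 2 else 0)) * v k
        = (if k = ⟨n - 2, h2n⟩ then 2 * v k else 0) + (if k = ⟨n - 1, h1n⟩ then 2 * v k else 0) := by
    intro k
    have ha : (k.val + 2 = n) ↔ k = ⟨n - 2, h2n⟩ := by
      rw [Fin.ext_iff]
      constructor
      · intro hh
        show k.val = n - 2
        omega
      · intro hh
        have hh' : k.val = n - 2 := hh
        omega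
    have hb : (k.val + 1 = n) ↔ k = ⟨n - 1, h1n⟩ := by
      rw [Fin.ext_iff]
      constructor
      · intro hh
        show k.val = n - 1
        omega
      · intro hh
        have hh' : k.val = n - 1 := hh
        omega
    by_cases hk1 : k = ⟨n - 2, h2n⟩
    · by_cases hk2 : k = ⟨n - 1, h1n⟩
      · rw [if_pos (ha.mpr hk1), if_pos (hb.mpr hk2), if_pos hk1, if_pos hk2]
        ring
      · rw [if_pos (ha.mpr hk1), if_neg (fun hh => hk2 (hb.mp hh)), if_pos hk1, if_neg hk2]
        ring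
    · by_cases hk2 : k = ⟨n - 1, h1n⟩
      · rw [if_neg (fun hh => hk1 (ha.mp hh)), if_pos (hb.mpr hk2), if_neg hk1, if_pos hk2]
        ring
      · rw [if_neg (fun hh => hk1 (ha.mp hh)), if_neg (fun hh => hk2 (hb.mp hh)), if_neg hk1,
          if_neg hk2]
        ring
  rw [Finset.sum_congr rfl (fun k _ => h1 k), Finset.sum_add_distrib, Finset.sum_ite_eq',
    Finset.sum_ite_eq', if_pos (Finset.mem_univ _), if_pos (Finset.mem_univ _)]

theorem ip_sroot_rho2 (hn : 2 ≤ n) (j : Fin n) : ip (sroot n j) (rho2 n) = 4 := by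
  by_cases h : j.val + 1 < n
  · rw [frnorm_ip_sroot_lt j h]
    unfold rho2
    push_cast
    ring
  · have h2n : n - 2 < n := by omega
    have h1n : n - 1 < n := by omega
    rw [frnorm_ip_sroot_last j h h2n h1n hn]
    unfold rho2
    have e2 : ((n - 2 : ℕ) : ℤ) = (n : ℤ) - 2 := by omega
    have e1 : ((n - 1 : ℕ) : ℤ) = (n : ℤ) - 1 := by omega
    simp only [e2, e1]
    ring

theorem ip_sroot_nonneg (hn : 2 ≤ n) {γ : Fin n → ℤ} (hγ : Dominant γ) (j : Fin n) :
    0 ≤ ip (sroot n j) γ := by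
  by_cases h : j.val + 1 < n
  · rw [frnorm_ip_sroot_lt j h]
    have hlt : j < (⟨j.val + 1, h⟩ : Fin n) := by
      rw [Fin.lt_def]
      exact Nat.lt_succ_self _
    have h1 := hγ j ⟨j.val + 1, h⟩ hlt
    have h2 := le_abs_self (γ ⟨j.val + 1, h⟩)
    linarith
  · have h2n : n - 2 < n := by omega
    have h1n : n - 1 < n := by omega
    rw [frnorm_ip_sroot_last j h h2n h1n hn]
    have hlt : (⟨n - 2, h2n⟩ : Fin n) < (⟨n - 1, h1n⟩ : Fin n) := by
      rw [Fin.lt_def]
      show n - 2 < n - 1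
      omega
    have h1 := hγ ⟨n - 2, h2n⟩ ⟨n - 1, h1n⟩ hlt
    have h2 := neg_abs_le (γ ⟨n - 1, h1n⟩)
    linarith

theorem frnorm_dominant_rho2 : Dominant (rho2 n) :=
  fun i j hij => le_of_lt (sdom_rho2 i j hij)

/-- A dominant vector strictly below `L` in the simple-root order has smaller shifted norm. -/
theorem nsq_lt_of_decomp (hn : 2 ≤ n) {L γ : Fin n → ℤ} (hL : Dominant L) (hγ : Dominant γ)
    (c : Fin n → ℕ) (hc : L - γ = ∑ j : Fin n, (c j : ℤ) • sroot n j) (hne : ∃ j, c j ≠ 0) :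
    nsq (γ + rho2 n) < nsq (L + rho2 n) := by
  have hgen : ∀ a b : Fin n → ℤ, ip (a - b) (a + b) = ip a a - ip b b := by
    intro a b
    rw [ip_sub_left, ip_add_right, ip_add_right, ip_comm b a]
    ring
  have hdiff : nsq (L + rho2 n) - nsq (γ + rho2 n)
      = ip (L - γ) ((L + rho2 n) + (γ + rho2 n)) := by
    have e : L - γ = (L + rho2 n) - (γ + rho2 n) := by
      funext i
      simp only [Pi.sub_apply, Pi.add_apply]
      ring
    rw [e, hgen, nsq_eq_ip, nsq_eq_ip]
  have hsum : ip (L - γ) ((L + rho2 n) + (γ + rho2 n))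
      = ∑ j : Fin n, (c j : ℤ) * (ip (sroot n j) L + ip (sroot n j) γ + 8) := by
    rw [hc, ip_sum_left]
    apply Finset.sum_congr rfl
    intro j _
    rw [ip_smul_left, ip_add_right, ip_add_right, ip_add_right, ip_sroot_rho2 hn j]
    ring
  have hpos : 0 < ∑ j : Fin n, (c j : ℤ) * (ip (sroot n j) L + ip (sroot n j) γ + 8) := by
    apply Finset.sum_pos'
    · intro j _
      have h1 := ip_sroot_nonneg hn hL j
      have h2 := ip_sroot_nonneg hn hγ j
      have h3 : (0 : ℤ) ≤ (c j : ℤ) := Int.natCast_nonneg _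
      exact mul_nonneg h3 (by linarith)
    · obtain ⟨j, hj⟩ := hne
      refine ⟨j, Finset.mem_univ _, ?_⟩
      have h1 := ip_sroot_nonneg hn hL j
      have h2 := ip_sroot_nonneg hn hγ j
      have h3 : (0 : ℤ) < (c j : ℤ) := by
        have : 0 < c j := Nat.pos_of_ne_zero hj
        exact_mod_cast this
      exact mul_pos h3 (by linarith)
  linarith

/-- Moving up from a dominant vector along a positive root increases the shifted norm. -/
theorem nsq_lt_add_root {γ : Fin n → ℤ} (hγ : Dominant γ) (x : PosIdx n) (k : ℕ) (hk : 1 ≤ k) :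
    nsq (γ + rho2 n) < nsq (γ + (2 * (k : ℤ)) • posH x + rho2 n) := by
  have e : γ + (2 * (k : ℤ)) • posH x + rho2 n = (γ + rho2 n) + (2 * (k : ℤ)) • posH x := by
    funext i
    simp only [Pi.add_apply]
    ring
  rw [e, nsq_add (γ + rho2 n) ((2 * (k : ℤ)) • posH x), nsq_eq_ip ((2 * (k : ℤ)) • posH x),
    ip_smul_right, ip_smul_left, ip_smul_right, ip_posH_self, ip_add_left]
  have h1 := ip_posH_nonneg hγ x
  have h2 := ip_posH_nonneg (frnorm_dominant_rho2 (n := n)) x
  have hk' : (1 : ℤ) ≤ (k : ℤ) := by exact_mod_cast hk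
  have h3 : 0 ≤ (k : ℤ) * (ip γ (posH x) + ip (rho2 n) (posH x)) :=
    mul_nonneg (by linarith) (by linarith)
  nlinarith

theorem ip_add_root_pos {γ : Fin n → ℤ} (hγ : Dominant γ) (x : PosIdx n) (k : ℕ) (hk : 1 ≤ k) :
    0 < ip (γ + (2 * (k : ℤ)) • posH x) (posH x) := by
  rw [ip_add_left, ip_smul_left, ip_posH_self]
  have h1 := ip_posH_nonneg hγ x
  have hk' : (1 : ℤ) ≤ (k : ℤ) := by exact_mod_cast hk
  linarith

/-- The dominant conjugate has the largest shifted norm in its Weyl orbit. -/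
theorem nsq_le_dominant_conj (δ : Fin n → ℤ) (σ : Equiv.Perm (Fin n)) (e : Fin n → ℤˣ)
    (he : e ∈ evenSigns n) (hd : Dominant (wact σ e δ)) :
    nsq (δ + rho2 n) ≤ nsq (wact σ e δ + rho2 n) := by
  have hinv : wact σ.symm (fun i => e (σ.symm i)) (wact σ e δ) = δ := by
    funext i
    simp only [wact, Equiv.apply_symm_apply]
    have h2 := units_int_mul_self (e (σ.symm i))
    calc ((e (σ.symm i) : ℤˣ) : ℤ) * (((e (σ.symm i) : ℤˣ) : ℤ) * δ i)
        = (((e (σ.symm i) : ℤˣ) : ℤ) * ((e (σ.symm i) : ℤˣ) : ℤ)) * δ i := by ring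
      _ = δ i := by rw [h2, one_mul]
  have hd' : (fun i => e (σ.symm i)) ∈ evenSigns n := by
    rw [mem_evenSigns]
    rw [mem_evenSigns] at he
    rw [← he]
    exact Equiv.prod_comp σ.symm e
  by_cases hne : wact σ.symm (fun i => e (σ.symm i)) (wact σ e δ) = wact σ e δ
  · rw [hinv] at hne
    rw [← hne]
  · have h1 := nsq_rho2_add_lt (wact σ e δ) hd σ.symm (fun i => e (σ.symm i)) hd' hne
    rw [hinv] at h1
    rw [add_comm δ, add_comm (wact σ e δ)]
    exact h1.le

end Vale.Agent.Lib.P182
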