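import Vale.Agent.Lib.P182.FrIp

/-!
# Exponents of a Weyl character lie in the hull of the Weyl orbit of the highest weight
-/

namespace Vale.Agent.Lib.P182

open Finset

variable {n : ℕ}

/-- The exponents of a Weyl character lie in the hull of the Weyl orbit of the highest
weight. -/
theorem weylChar_supp_hull {L : Fin n → ℤ} {χ : AddMonoidAlgebra ℤ (Fin n → ℤ)}
    (hχ : IsWeylChar L χ) {γ : Fin n → ℤ} (hγ : χ.coeff γ ≠ 0) : InHull L γ := by
  classical
  intro y
  have hχ' : χ * alt (rho2 n) = alt (L + rho2 n) := hχ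
  let key : (Fin n → ℤ) →+ ℤ :=
    { toFun := fun v => ip v y
      map_zero' := ip_zero_left y
      map_add' := fun a b => ip_add_left a b y }
  have hkeyapp : ∀ w : Fin n → ℤ, key w = ip w y := fun w => rfl
  have hne : ((Finset.univ : Finset (Equiv.Perm (Fin n))) ×ˢ evenSigns n).Nonempty :=
    ⟨(1, 1), Finset.mem_product.mpr ⟨Finset.mem_univ _, one_mem_evenSigns⟩⟩
  obtain ⟨p0, hp0, hmax⟩ := Finset.exists_max_image _
    (fun p : Equiv.Perm (Fin n) × (Fin n → ℤˣ) => ip (wact p.1 p.2 (L + rho2 n)) y) hne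
  obtain ⟨σ0, e0⟩ := p0
  have he0 : e0 ∈ evenSigns n := (Finset.mem_product.mp hp0).2
  have hB : ∀ c ∈ (χ * alt (rho2 n)).coeff.support,
      key c ≤ ip (wact σ0 e0 (L + rho2 n)) y := by
    intro c hc
    rw [hχ'] at hc
    obtain ⟨σ, e, he, hw⟩ := exists_of_mem_support_alt hc
    rw [hkeyapp, ← hw]
    exact hmax (σ, e) (Finset.mem_product.mpr ⟨Finset.mem_univ _, he⟩)
  have hA : ∃ a ∈ (alt (rho2 n)).coeff.support, ip (wact σ0 e0 (rho2 n)) y ≤ key a := by
    refine ⟨wact σ0 e0 (rho2 n), ?_, le_refl _⟩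
    rw [Finsupp.mem_support_iff, alt_coeff_wact rho2_regular _ _ he0]
    exact Units.ne_zero _
  have hγ' : γ ∈ χ.coeff.support := Finsupp.mem_support_iff.mpr hγ
  have h := key_bound key χ (alt (rho2 n)) _ _ hB hA γ hγ'
  refine ⟨σ0, e0, he0, ?_⟩
  rw [hkeyapp, wact_add, ip_add_left] at h
  linarith

/-- The highest weight has multiplicity one. -/
theorem weylChar_coeff_top {L : Fin n → ℤ} {χ : AddMonoidAlgebra ℤ (Fin n → ℤ)}
    (hL : Dominant L) (hχ : IsWeylChar L χ) : χ.coeff L = 1 := by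
  classical
  have hχ' : χ * alt (rho2 n) = alt (L + rho2 n) := hχ
  have hsd : SDom (L + rho2 n) := sdom_add_rho2 hL
  have hd : Dominant (L + rho2 n) := fun i j hij => le_of_lt (hsd i j hij)
  have hR : (alt (L + rho2 n)).coeff (L + rho2 n) = 1 := by
    rw [alt_coeff_dom hd hsd, if_pos rfl]
  have hLHS := coeff_mul_alt χ (rho2 n) (L + rho2 n)
  rw [hχ', hR] at hLHS
  have hρd : Dominant (rho2 n) := fun i j hij => le_of_lt (sdom_rho2 i j hij)
  have hR_anti : ∀ i j : Fin n, i ≤ j → rho2 n j ≤ rho2 n i := by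
    intro i j hij
    rcases hij.lt_or_eq with h | h
    · have := rho2_lt (n := n) h
      omega
    · rw [h]
  have hR_last : ∀ i : Fin n, (∀ j, j ≤ i) → rho2 n i = 0 := by
    intro i hi
    by_cases hn : i.val + 1 < n
    · have := hi ⟨i.val + 1, hn⟩
      have h2 : i.val + 1 ≤ i.val := this
      omega
    · have := i.isLt
      simp only [rho2]
      have : (i.val : ℤ) = (n : ℤ) - 1 := by omega
      rw [this]
      ring
  have hzero : ∀ σ : Equiv.Perm (Fin n), ∀ e ∈ evenSigns n, ¬ (σ = 1 ∧ e = 1) →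
      χ.coeff (L + rho2 n - wact σ e (rho2 n)) = 0 := by
    intro σ e he hne
    by_contra hcon
    have hne' : wact σ e (rho2 n) ≠ rho2 n := fun h => hne (rigid hρd sdom_rho2 he h)
    obtain ⟨σ', e', _, hle⟩ := weylChar_supp_hull hχ hcon (rho2 n)
    have h1 : ip (wact σ' e' L) (rho2 n) ≤ ip L (rho2 n) := by
      rw [ip_comm, ip_comm L]
      exact sum_mul_wact_le (rho2 n) L hR_anti (fun i => rho2_nonneg i) hR_last hL σ' e'
    have h2 : ip (wact σ e (rho2 n)) (rho2 n) < ip (rho2 n) (rho2 n) := by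
      rw [ip_comm]
      exact sum_rho2_wact_lt (rho2 n) hρd σ e he hne'
    rw [ip_sub_left, ip_add_left] at hle
    linarith
  rw [Finset.sum_eq_single (1 : Equiv.Perm (Fin n))] at hLHS
  · rw [Finset.sum_eq_single (1 : Fin n → ℤˣ)] at hLHS
    · rw [wact_one] at hLHS
      simpa using hLHS.symm
    · intro e he hne
      rw [hzero 1 e he (fun h => hne h.2), mul_zero]
    · intro h
      exact absurd one_mem_evenSigns h
  · intro σ _ hne
    refine Finset.sum_eq_zero (fun e he => ?_)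
    rw [hzero σ e he (fun h => hne h.1), mul_zero]
  · intro h
    exact absurd (Finset.mem_univ _) h

end Vale.Agent.Lib.P182
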