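import Vale.Agent.Lib.P182.FrPosH

/-!
# The hull of a Weyl orbit: invariance, root strings and the walk towards the highest weight
-/

namespace Vale.Agent.Lib.P182

open Finset

variable {n : ℕ}

/-- Every element of the Weyl group has an inverse in the Weyl group. -/
theorem exists_wact_inv (σ : Equiv.Perm (Fin n)) (e : Fin n → ℤˣ) (he : e ∈ evenSigns n) :
    ∃ τ : Equiv.Perm (Fin n), ∃ d ∈ evenSigns n,
      ∀ v : Fin n → ℤ, wact σ e (wact τ d v) = v ∧ wact τ d (wact σ e v) = v := by
  refine ⟨σ⁻¹, fun i => e (σ⁻¹ i), ?_, fun v => ⟨?_, ?_⟩⟩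
  · rw [mem_evenSigns, Equiv.prod_comp σ⁻¹ e]
    exact mem_evenSigns.mp he
  · funext i
    have h1 : σ⁻¹ (σ i) = i := by simp
    simp only [wact]
    rw [h1, ← mul_assoc, units_int_mul_self, one_mul]
  · funext i
    have h1 : σ (σ⁻¹ i) = i := by simp
    simp only [wact]
    rw [h1, ← mul_assoc, units_int_mul_self, one_mul]

theorem inHull_self (L : Fin n → ℤ) : InHull L L := by
  intro y
  exact ⟨1, 1, one_mem_evenSigns, by rw [wact_one]⟩

/-- The hull is stable under the Weyl group. -/
theorem inHull_wact {L γ : Fin n → ℤ} (h : InHull L γ) (σ : Equiv.Perm (Fin n))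
    (e : Fin n → ℤˣ) (he : e ∈ evenSigns n) : InHull L (wact σ e γ) := by
  intro y
  obtain ⟨τ, d, -, hinv⟩ := exists_wact_inv σ e he
  obtain ⟨σ1, e1, he1, hle⟩ := h (wact τ d y)
  refine ⟨σ1 * σ, fun i => e i * e1 (σ i), ?_, ?_⟩
  · rw [mem_evenSigns, Finset.prod_mul_distrib, mem_evenSigns.mp he, one_mul,
      Equiv.prod_comp σ e1]
    exact mem_evenSigns.mp he1
  · rw [← wact_wact]
    have h1 : ip (wact σ e γ) y = ip γ (wact τ d y) := by
      have h3 := ip_wact_wact τ d (wact σ e γ) y
      rw [(hinv γ).2] at h3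
      exact h3.symm
    have h2 : ip (wact σ e (wact σ1 e1 L)) y = ip (wact σ1 e1 L) (wact τ d y) := by
      have h3 := ip_wact_wact τ d (wact σ e (wact σ1 e1 L)) y
      rw [(hinv _).2] at h3
      exact h3.symm
    rw [h1, h2]
    exact hle

/-- Root strings: if `X` lies in the hull and pairs at least `2` with the half-root `posH x`
(that is, at least `1` with the coroot), then `X` minus the root lies in the hull. -/
theorem inHull_sub_root {L X : Fin n → ℤ} (h : InHull L X) (x : PosIdx n)
    (hx : 2 ≤ ip X (posH x)) : InHull L (X - (2 : ℤ) • posH x) := by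
  intro y
  by_cases hy : 0 ≤ ip (posH x) y
  · obtain ⟨σ, e, he, hle⟩ := h y
    refine ⟨σ, e, he, le_trans ?_ hle⟩
    rw [ip_sub_left, ip_smul_left]
    linarith
  · push Not at hy
    obtain ⟨σ, e, he, hrefl⟩ := refl_eq_wact x
    obtain ⟨σ1, e1, he1, hle⟩ := inHull_wact h σ e he y
    refine ⟨σ1, e1, he1, le_trans ?_ hle⟩
    rw [hrefl X, ip_sub_left, ip_sub_left, ip_smul_left, ip_smul_left]
    nlinarith [mul_nonneg (sub_nonneg.mpr hx) (neg_nonneg.mpr hy.le)]

/-- The pairing of a half-root with a vector. -/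
theorem frwalk_ip_posH (x : PosIdx n) (v : Fin n → ℤ) :
    ip (posH x) v = v x.1.1.1 + (if x.2 then 1 else -1) * v x.1.1.2 := by
  unfold ip posH
  by_cases hb : x.2 = true
  · simp [hb, add_mul, Finset.sum_add_distrib]
  · simp [hb, add_mul, Finset.sum_add_distrib]

/-- Each simple root pairs positively with `2ρ`. -/
theorem frwalk_ip_sroot_rho2 (hn : 2 ≤ n) (j : Fin n) : 0 < ip (sroot n j) (rho2 n) := by
  obtain ⟨x, hx⟩ := sroot_eq_posH hn j
  rw [hx, ip_smul_left, frwalk_ip_posH]
  have h1 := rho2_lt x.1.2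
  have h2 := rho2_nonneg (n := n) x.1.1.2
  rcases hb : x.2 with _ | _
  · simp only [Bool.false_eq_true, if_false]
    linarith
  · simp only [if_true]
    linarith

theorem frwalk_aux (hn : 2 ≤ n) {L γ : Fin n → ℤ} (hγ : Dominant γ) (m : ℕ) :
    ∀ c : Fin n → ℕ, ∑ j, c j = m →
      InHull L (γ + ∑ j : Fin n, (c j : ℤ) • sroot n j) →
      (∀ j, c j = 0) ∨ ∃ j : Fin n, InHull L (γ + sroot n j) := by
  induction m with
  | zero =>
    intro c hc _
    left
    intro j
    exact (Finset.sum_eq_zero_iff.mp hc) j (Finset.mem_univ j)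
  | succ m ih =>
    intro c hsum hc
    right
    obtain ⟨κ, hκ⟩ : ∃ κ, κ = ∑ j : Fin n, (c j : ℤ) • sroot n j := ⟨_, rfl⟩
    rw [← hκ] at hc
    have hj₀ : ∃ j₀, 0 < c j₀ := by
      by_contra hcon
      push Not at hcon
      have h0 : ∑ j, c j = 0 := Finset.sum_eq_zero fun j _ => Nat.le_zero.mp (hcon j)
      omega
    obtain ⟨j₀, hj₀⟩ := hj₀
    have hexp : ∀ w, ip κ w = ∑ j : Fin n, (c j : ℤ) * ip (sroot n j) w := by
      intro w
      rw [hκ, ip_sum_left]
      exact Finset.sum_congr rfl fun j _ => ip_smul_left _ _ _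
    have hκrho : 0 < ip κ (rho2 n) := by
      rw [hexp]
      refine Finset.sum_pos' (fun j _ => ?_) ⟨j₀, Finset.mem_univ _, ?_⟩
      · exact mul_nonneg (Int.natCast_nonneg _) (frwalk_ip_sroot_rho2 hn j).le
      · exact mul_pos (by exact_mod_cast hj₀) (frwalk_ip_sroot_rho2 hn j₀)
    have hκne : κ ≠ 0 := by
      intro h0
      rw [h0, ip_zero_left] at hκrho
      exact lt_irrefl _ hκrho
    have hκκ : 0 < ip κ κ := by
      obtain ⟨i, hi⟩ := Function.ne_iff.mp hκne
      unfold ip
      exact Finset.sum_pos' (fun k _ => mul_self_nonneg _)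
        ⟨i, Finset.mem_univ _, mul_self_pos.mpr hi⟩
    obtain ⟨j, hj⟩ : ∃ j, 0 < (c j : ℤ) * ip (sroot n j) κ := by
      by_contra hcon
      push Not at hcon
      have h0 : ip κ κ ≤ 0 := by
        rw [hexp κ]
        exact Finset.sum_nonpos fun j _ => hcon j
      linarith
    have hcj : 0 < c j := by
      rcases Nat.eq_zero_or_pos (c j) with h0 | h0
      · rw [h0] at hj
        simp at hj
      · exact h0
    have hipj : 0 < ip (sroot n j) κ := by
      have h0 : (0 : ℤ) < (c j : ℤ) := by exact_mod_cast hcj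
      by_contra hcon
      push Not at hcon
      nlinarith
    obtain ⟨x, hx⟩ := sroot_eq_posH hn j
    have hpos : 0 < ip κ (posH x) := by
      rw [hx, ip_smul_left, ip_comm] at hipj
      linarith
    have hdvd : (2 : ℤ) ∣ ip κ (posH x) := by
      rw [hexp]
      refine Finset.dvd_sum fun i _ => ?_
      obtain ⟨xi, hxi⟩ := sroot_eq_posH hn i
      rw [hxi, ip_smul_left]
      exact Dvd.dvd.mul_left (dvd_mul_right 2 _) _
    have h2 : 2 ≤ ip κ (posH x) := by
      obtain ⟨t, ht⟩ := hdvd
      omega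
    have hγx := ip_posH_nonneg hγ x
    have hX : 2 ≤ ip (γ + κ) (posH x) := by
      rw [ip_add_left]
      linarith
    have hsub := inHull_sub_root hc x hX
    rw [← hx] at hsub
    obtain ⟨c', hc'⟩ : ∃ c' : Fin n → ℕ, ∀ i, c i = c' i + (if i = j then 1 else 0) := by
      refine ⟨fun i => if i = j then c j - 1 else c i, fun i => ?_⟩
      by_cases hij : i = j
      · subst hij
        simp only [if_true]
        omega
      · simp [hij]
    have hsum' : ∑ i, c' i = m := by
      have h0 : ∑ i, c i = ∑ i, c' i + 1 := by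
        rw [Finset.sum_congr rfl fun i _ => hc' i, Finset.sum_add_distrib]
        simp
      omega
    have hκ' : κ = (∑ i : Fin n, (c' i : ℤ) • sroot n i) + sroot n j := by
      rw [hκ, Finset.sum_congr rfl fun i _ => by rw [hc' i]]
      simp [add_smul, Finset.sum_add_distrib]
    have hsub' : InHull L (γ + ∑ i : Fin n, (c' i : ℤ) • sroot n i) := by
      have h0 : γ + κ - sroot n j = γ + ∑ i : Fin n, (c' i : ℤ) • sroot n i := by
        rw [hκ']
        abel
      rw [← h0]
      exact hsub
    rcases ih c' hsum' hsub' with hall | hex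
    · refine ⟨j, ?_⟩
      have h0 : κ = sroot n j := by
        rw [hκ']
        simp [hall]
      rw [← h0]
      exact hc
    · exact hex

/-- The walk: if a dominant `γ` plus a nonnegative combination of simple roots lies in the hull,
then either the combination is empty or `γ` plus some simple root lies in the hull. -/
theorem exists_inHull_add_sroot (hn : 2 ≤ n) {L γ : Fin n → ℤ} (hγ : Dominant γ)
    (c : Fin n → ℕ) (hc : InHull L (γ + ∑ j : Fin n, (c j : ℤ) • sroot n j)) :
    (∀ j, c j = 0) ∨ ∃ j : Fin n, InHull L (γ + sroot n j) :=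
  frwalk_aux hn hγ _ c rfl hc

end Vale.Agent.Lib.P182
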