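import Vale.Agent.Lib.P182.FrMain
import Vale.Agent.Lib.P182.FrSupp
import Vale.Agent.Lib.P182.FrWalk
import Vale.Agent.Lib.P182.FrNorm
import Vale.Agent.Lib.P182.FrDecomp
import Vale.Agent.Lib.P182.FrDomConj

/-!
# The weights of an irreducible representation of type `D_n`

Every vector in the hull of the Weyl orbit of the highest weight `L` that is congruent to `L`
modulo (twice) the root lattice occurs in the Weyl character with a positive coefficient.
The proof is by induction along Freudenthal's recursion.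
-/

namespace Vale.Agent.Lib.P182

open Finset

variable {n : ℕ}

theorem weylChar_pos_aux (hn : 2 ≤ n) {L : Fin n → ℤ} {χ : AddMonoidAlgebra ℤ (Fin n → ℤ)}
    (hL : Dominant L) (hLw : IsWt L) (hχ : IsWeylChar L χ) :
    ∀ D : ℕ, ∀ γ : Fin n → ℤ, Dominant γ → nsq (L + rho2 n) - nsq (γ + rho2 n) ≤ (D : ℤ) →
      0 ≤ χ.coeff γ ∧ (InHull L γ → InTwoQ (L - γ) → 0 < χ.coeff γ) := by
  intro D
  induction D using Nat.strong_induction_on with
  | _ D ih =>
  intro γ hγ hD
  by_cases hin : InHull L γ ∧ InTwoQ (L - γ)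
  · obtain ⟨hH, hQ⟩ := hin
    obtain ⟨c, hc⟩ := exists_sroot_decomp hn hL hH hQ
    by_cases hc0 : ∀ j, c j = 0
    · have hγL : γ = L := by
        have h1 : L - γ = 0 := by
          rw [hc]
          exact Finset.sum_eq_zero (fun j _ => by rw [hc0 j]; simp)
        exact (sub_eq_zero.mp h1).symm
      rw [hγL, weylChar_coeff_top hL hχ]
      exact ⟨zero_le_one, fun _ _ => zero_lt_one⟩
    · push Not at hc0
      have hdpos : nsq (γ + rho2 n) < nsq (L + rho2 n) := nsq_lt_of_decomp hn hL hγ c hc hc0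
      have hLeq : L = γ + ∑ j : Fin n, (c j : ℤ) • sroot n j := by
        rw [← hc]
        abel
      have hwalk := exists_inHull_add_sroot hn hγ c (by rw [← hLeq]; exact inHull_self L)
      rcases hwalk with h0 | ⟨j, hj⟩
      · obtain ⟨j, hj⟩ := hc0
        exact absurd (h0 j) hj
      obtain ⟨K, hK1, hF⟩ := freudenthal hLw hχ γ
      have hD1 : 1 ≤ D := by
        have h1 : (0 : ℤ) < (D : ℤ) := by linarith
        exact_mod_cast h1
      have hterm : ∀ x : PosIdx n, ∀ k ∈ Finset.Icc 1 K,
          0 ≤ χ.coeff (γ + (2 * (k : ℤ)) • posH x) ∧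
          (InHull L (γ + (2 * (k : ℤ)) • posH x) → InTwoQ (L - (γ + (2 * (k : ℤ)) • posH x)) →
            0 < χ.coeff (γ + (2 * (k : ℤ)) • posH x)) := by
        intro x k hk
        have hk1 : 1 ≤ k := (Finset.mem_Icc.mp hk).1
        obtain ⟨σ, e, he, hdom⟩ := exists_dominant_conj (γ + (2 * (k : ℤ)) • posH x)
        have h1 := nsq_lt_add_root hγ x k hk1
        have h2 := nsq_le_dominant_conj (γ + (2 * (k : ℤ)) • posH x) σ e he hdom
        have hD' : nsq (L + rho2 n) - nsq (wact σ e (γ + (2 * (k : ℤ)) • posH x) + rho2 n)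
            ≤ ((D - 1 : ℕ) : ℤ) := by
          rw [Nat.cast_sub hD1]
          push_cast
          linarith
        have hih := ih (D - 1) (by omega) (wact σ e (γ + (2 * (k : ℤ)) • posH x)) hdom hD'
        rw [weylChar_coeff_wact hχ σ e he] at hih
        refine ⟨hih.1, fun hHδ hQδ => hih.2 (inHull_wact hHδ σ e he) ?_⟩
        have h3 := inTwoQ_wact_sub (isWt_of_inTwoQ_sub hLw hQδ) σ e he
        have h4 : L - wact σ e (γ + (2 * (k : ℤ)) • posH x)
            = (L - (γ + (2 * (k : ℤ)) • posH x))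
              - (wact σ e (γ + (2 * (k : ℤ)) • posH x) - (γ + (2 * (k : ℤ)) • posH x)) := by
          abel
        rw [h4]
        exact inTwoQ_sub hQδ h3
      have hnn : ∀ x : PosIdx n, ∀ k ∈ Finset.Icc 1 K,
          0 ≤ ip (γ + (2 * (k : ℤ)) • posH x) (posH x) * χ.coeff (γ + (2 * (k : ℤ)) • posH x) := by
        intro x k hk
        exact mul_nonneg (le_of_lt (ip_add_root_pos hγ x k (Finset.mem_Icc.mp hk).1))
          (hterm x k hk).1
      have hS0 : 0 ≤ ∑ x : PosIdx n, ∑ k ∈ Finset.Icc 1 K,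
          ip (γ + (2 * (k : ℤ)) • posH x) (posH x) * χ.coeff (γ + (2 * (k : ℤ)) • posH x) :=
        Finset.sum_nonneg (fun x _ => Finset.sum_nonneg (fun k hk => hnn x k hk))
      have hdp : 0 < nsq (L + rho2 n) - nsq (γ + rho2 n) := by linarith
      refine ⟨?_, fun _ _ => ?_⟩
      · by_contra hneg
        push Not at hneg
        have h5 := mul_neg_of_pos_of_neg hdp hneg
        rw [hF] at h5
        linarith
      · obtain ⟨x, hx⟩ := sroot_eq_posH hn j
        have h1K : (1 : ℕ) ∈ Finset.Icc 1 K := Finset.mem_Icc.mpr ⟨le_refl 1, hK1⟩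
        have hδ : γ + (2 * ((1 : ℕ) : ℤ)) • posH x = γ + sroot n j := by
          rw [hx]
          norm_num
        have hpos1 : 0 < χ.coeff (γ + (2 * ((1 : ℕ) : ℤ)) • posH x) := by
          refine (hterm x 1 h1K).2 ?_ ?_
          · rw [hδ]
            exact hj
          · rw [hδ]
            have h6 : L - (γ + sroot n j) = (L - γ) - sroot n j := by abel
            rw [h6]
            exact inTwoQ_sub hQ (inTwoQ_sroot hn j)
        have hSpos : 0 < ∑ x : PosIdx n, ∑ k ∈ Finset.Icc 1 K,
            ip (γ + (2 * (k : ℤ)) • posH x) (posH x) * χ.coeff (γ + (2 * (k : ℤ)) • posH x) := by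
          refine Finset.sum_pos' (fun x _ => Finset.sum_nonneg (fun k hk => hnn x k hk))
            ⟨x, Finset.mem_univ x, ?_⟩
          refine Finset.sum_pos' (fun k hk => hnn x k hk) ⟨1, h1K, ?_⟩
          exact mul_pos (ip_add_root_pos hγ x 1 (le_refl 1)) hpos1
        by_contra hle
        push Not at hle
        have h5 := mul_nonpos_of_nonneg_of_nonpos (le_of_lt hdp) hle
        rw [hF] at h5
        linarith
  · have h0 : χ.coeff γ = 0 := by
      by_contra hne
      exact hin ⟨weylChar_supp_hull hχ hne, weylChar_supp_lat hLw hχ hne⟩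
    rw [h0]
    exact ⟨le_refl _, fun h1 h2 => absurd ⟨h1, h2⟩ hin⟩

/-- Every vector in the hull of the Weyl orbit of `L` that is congruent to `L` modulo twice
the root lattice has a positive coefficient in the Weyl character of highest weight `L`. -/
theorem weylChar_pos (hn : 2 ≤ n) {L : Fin n → ℤ} {χ : AddMonoidAlgebra ℤ (Fin n → ℤ)}
    (hL : Dominant L) (hLw : IsWt L) (hχ : IsWeylChar L χ) {γ : Fin n → ℤ}
    (hH : InHull L γ) (hQ : InTwoQ (L - γ)) : 0 < χ.coeff γ := by
  obtain ⟨σ, e, he, hdom⟩ := exists_dominant_conj γ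
  have h := weylChar_pos_aux hn hL hLw hχ
    (nsq (L + rho2 n) - nsq (wact σ e γ + rho2 n)).toNat (wact σ e γ) hdom (Int.self_le_toNat _)
  rw [weylChar_coeff_wact hχ σ e he γ] at h
  refine h.2 (inHull_wact hH σ e he) ?_
  have h1 := inTwoQ_wact_sub (isWt_of_inTwoQ_sub hLw hQ) σ e he
  have h2 : L - wact σ e γ = (L - γ) - (wact σ e γ - γ) := by abel
  rw [h2]
  exact inTwoQ_sub hQ h1

end Vale.Agent.Lib.P182
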