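import Vale.Agent.Lib.P182.FrCalc
import Vale.Agent.Lib.P182.FrDenom

/-!
# The Freudenthal identity in the group ring
-/

namespace Vale.Agent.Lib.P182

open Finset

variable {n : ℕ}

/-- Apply the operator `wt nsq` to Weyl's character formula `χ * A_{2ρ} = A_{L + 2ρ}`, with
`A_{2ρ}` written as a product over the positive roots, and cancel the denominator. -/
theorem freudenthal_ring {L : Fin n → ℤ} {χ : AddMonoidAlgebra ℤ (Fin n → ℤ)}
    (hχ : IsWeylChar L χ) (Ψ : PosIdx n → AddMonoidAlgebra ℤ (Fin n → ℤ))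
    (hΨ : ∀ x, Fh (posH x) * Ψ x = wt (fun γ => ip γ (posH x)) χ) :
    nsq (L + rho2 n) • χ
      = wt nsq χ + (2 : ℤ) • ∑ x : PosIdx n, Ψ x * Gh (posH x) + nsq (rho2 n) • χ := by
  classical
  obtain ⟨u, hu, hA⟩ := alt_rho2_eq_prod n
  obtain ⟨A, hAdef⟩ : ∃ A : AddMonoidAlgebra ℤ (Fin n → ℤ),
      A = ∏ x : PosIdx n, Fh (posH x) := ⟨_, rfl⟩
  rw [← hAdef] at hA
  have huu : u * u = 1 := by
    rcases hu with h | h <;> rw [h] <;> norm_num
  have hA' : A = u • alt (rho2 n) := by
    rw [hA, smul_smul, huu, one_smul]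
  have hA0 : A ≠ 0 := by
    intro h0
    apply alt_rho2_ne_zero (n := n)
    rw [hA, h0, smul_zero]
  -- the right-hand side of the character formula has constant norm square
  have h1 : wt nsq (χ * A) = nsq (L + rho2 n) • (χ * A) := by
    have e : χ * A = u • alt (L + rho2 n) := by
      have hχ' : χ * alt (rho2 n) = alt (L + rho2 n) := hχ
      rw [hA', mul_smul_comm, hχ']
    rw [e, wt_zsmul, wt_nsq_alt, smul_comm]
  -- so has the denominator
  have h3 : wt nsq A = nsq (rho2 n) • A := by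
    rw [hA', wt_zsmul, wt_nsq_alt, smul_comm]
  -- first derivatives of the denominator
  have h4 : ∀ i : Fin n, wt (fun γ => γ i) A
      = ∑ x : PosIdx n, (posH x i • Gh (posH x)) * ∏ y ∈ univ.erase x, Fh (posH y) := by
    intro i
    rw [hAdef, wt_prod (fun γ => γ i) (fun a b => rfl)]
    refine Finset.sum_congr rfl (fun x _ => ?_)
    rw [wt_Fh (fun γ => γ i) (fun a b => rfl)]
  have h5 : ∑ i : Fin n, wt (fun γ => γ i) χ * wt (fun γ => γ i) A
      = (∑ x : PosIdx n, Ψ x * Gh (posH x)) * A := by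
    simp only [h4, Finset.mul_sum]
    rw [Finset.sum_comm, Finset.sum_mul]
    refine Finset.sum_congr rfl (fun x _ => ?_)
    have hAx : A = Fh (posH x) * ∏ y ∈ univ.erase x, Fh (posH y) := by
      rw [hAdef]
      exact (Finset.mul_prod_erase univ (fun y => Fh (posH y)) (Finset.mem_univ x)).symm
    have hs : ∑ i : Fin n, wt (fun γ => γ i) χ
          * ((posH x i • Gh (posH x)) * ∏ y ∈ univ.erase x, Fh (posH y))
        = (∑ i : Fin n, posH x i • wt (fun γ => γ i) χ)
          * (Gh (posH x) * ∏ y ∈ univ.erase x, Fh (posH y)) := by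
      rw [Finset.sum_mul]
      refine Finset.sum_congr rfl (fun i _ => ?_)
      rw [smul_mul_assoc, mul_smul_comm, smul_mul_assoc]
    rw [hs, ← wt_ip, ← hΨ x, hAx]
    ring
  have h2 := wt_nsq_mul χ A
  rw [h1, h3, h5] at h2
  apply mul_right_cancel₀ hA0
  rw [smul_mul_assoc, h2, add_mul, add_mul, smul_mul_assoc, smul_mul_assoc, mul_smul_comm]

end Vale.Agent.Lib.P182
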