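import Vale.Agent.Lib.P182.FrSupp
import Vale.Agent.Lib.P182.FrWalk

/-!
# Deep pairs of weights: tensor multiplicities are weight multiplicities
-/

namespace Vale.Agent.Lib.P182

open Finset

variable {n : ℕ}

/-- `Y` is deep relative to `X`: `|X k| + |X l| ≤ Y i - |Y j|` for all `i < j` and `k ≠ l`.
For dominant `X`, `Y` and `n ≥ 3` this says that every Dynkin label of `Y` is at least the
pairing `X 0 + X 1` of `X` with the highest coroot. -/
def Deep (X Y : Fin n → ℤ) : Prop :=
  ∀ i j : Fin n, i < j → ∀ k l : Fin n, k ≠ l → |X k| + |X l| ≤ Y i - |Y j|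

theorem deep_smul {X Y : Fin n → ℤ} (h : Deep X Y) (N : ℕ) : Deep (N • X) (N • Y) := by
  intro i j hij k l hkl
  have h1 := h i j hij k l hkl
  simp only [Pi.smul_apply, nsmul_eq_mul, abs_mul, Nat.abs_cast]
  have hN : (0 : ℤ) ≤ (N : ℤ) := Int.natCast_nonneg N
  linarith [mul_le_mul_of_nonneg_left h1 hN]

theorem deep_dual_left {X Y : Fin n → ℤ} (h : Deep X Y) : Deep (dual X) Y := by
  intro i j hij k l hkl
  rw [abs_dual, abs_dual]
  exact h i j hij k l hkl

theorem deep_dual_right {X Y : Fin n → ℤ} (h : Deep X Y) : Deep X (dual Y) := by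
  intro i j hij k l hkl
  rw [abs_dual]
  have h1 : dual Y i = Y i := by
    unfold dual
    rw [dsgn_of_lt hij]
    simp
  rw [h1]
  exact h i j hij k l hkl

theorem inHull_of_smul {L γ : Fin n → ℤ} (N : ℕ) (hN : 1 ≤ N) (h : InHull (N • L) (N • γ)) :
    InHull L γ := by
  intro y
  obtain ⟨σ, e, he, hle⟩ := h y
  refine ⟨σ, e, he, ?_⟩
  have h1 : wact σ e (N • L) = N • wact σ e L := by
    funext i
    simp only [wact, Pi.smul_apply, nsmul_eq_mul]
    ring
  rw [h1, ip_nsmul_left, ip_nsmul_left] at hle
  have hN' : (0 : ℤ) < (N : ℤ) := by exact_mod_cast hN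
  exact le_of_mul_le_mul_left hle hN'

/-- The pairing with the test vector that has `s` at `j`, `-1` at `i` and `0` elsewhere. -/
theorem gendeep_ip_test (v : Fin n → ℤ) (i j : Fin n) (hij : i ≠ j) (s : ℤ) :
    ip v (fun k => if k = j then s else if k = i then -1 else 0) = s * v j - v i := by
  unfold ip
  have h1 : ∀ k, v k * (if k = j then s else if k = i then -1 else 0) =
      (if k = j then s * v j else 0) + (if k = i then - v i else 0) := by
    intro k
    by_cases hkj : k = j
    · have hki : ¬ k = i := fun hki => hij (hki.symm.trans hkj)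
      rw [if_pos hkj, if_pos hkj, if_neg hki, hkj]
      ring
    · by_cases hki : k = i
      · rw [if_neg hkj, if_pos hki, if_neg hkj, if_pos hki, hki]
        ring
      · rw [if_neg hkj, if_neg hki, if_neg hkj, if_neg hki]
        ring
  simp only [h1, Finset.sum_add_distrib, Finset.sum_ite_eq', Finset.mem_univ, if_true]
  ring

/-- If `M` is deep relative to `L`, then `M + γ` is dominant for every `γ` in the hull of the
Weyl orbit of `L`. -/
theorem deep_dominant {L M γ : Fin n → ℤ} (hd : Deep L M) (hH : InHull L γ) :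
    Dominant (M + γ) := by
  intro i j hij
  have hne : i ≠ j := ne_of_lt hij
  have key : ∀ s : ℤ, (s = 1 ∨ s = -1) → s * γ j - γ i ≤ M i - s * M j := by
    intro s hs
    obtain ⟨σ, e, he, hle⟩ := hH (fun k => if k = j then s else if k = i then -1 else 0)
    rw [gendeep_ip_test γ i j hne s, gendeep_ip_test (wact σ e L) i j hne s] at hle
    have h1 : s * wact σ e L j ≤ |L (σ j)| := by
      rw [← abs_wact σ e L j]
      rcases hs with rfl | rfl
      · rw [one_mul]
        exact le_abs_self _
      · rw [neg_one_mul]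
        exact neg_le_abs _
    have h2 : - wact σ e L i ≤ |L (σ i)| := by
      rw [← abs_wact σ e L i]
      exact neg_le_abs _
    have h3 : σ j ≠ σ i := fun h => hne (σ.injective h).symm
    have h4 := hd i j hij (σ j) (σ i) h3
    have h5 : s * M j ≤ |M j| := by
      rcases hs with rfl | rfl
      · rw [one_mul]
        exact le_abs_self _
      · rw [neg_one_mul]
        exact neg_le_abs _
    linarith
  have k1 := key 1 (Or.inl rfl)
  have k2 := key (-1) (Or.inr rfl)
  rw [Pi.add_apply, Pi.add_apply, abs_le]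
  constructor <;> linarith

/-- In the alternating sum for the coefficient at `K + 2ρ` only the identity contributes. -/
theorem gendeep_rigid {L M K : Fin n → ℤ} {χ : AddMonoidAlgebra ℤ (Fin n → ℤ)}
    (hχ : IsWeylChar L χ) (hd : Deep L M) (hK : Dominant K)
    {σ : Equiv.Perm (Fin n)} {e : Fin n → ℤˣ} (he : e ∈ evenSigns n)
    (hne : χ.coeff (K + rho2 n - wact σ e (M + rho2 n)) ≠ 0) : σ = 1 ∧ e = 1 := by
  have hg := weylChar_supp_hull hχ hne
  obtain ⟨τ, d, hd', hinv⟩ := exists_wact_inv σ e he
  have hg' := inHull_wact hg τ d hd'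
  have hdom := deep_dominant hd hg'
  have hS : SDom (M + wact τ d (K + rho2 n - wact σ e (M + rho2 n)) + rho2 n) :=
    sdom_add_rho2 hdom
  have hX : Dominant (M + wact τ d (K + rho2 n - wact σ e (M + rho2 n)) + rho2 n) :=
    fun i j hij => le_of_lt (hS i j hij)
  have hY : SDom (K + rho2 n) := sdom_add_rho2 hK
  refine rigid hX hY he ?_
  have h1 : M + wact τ d (K + rho2 n - wact σ e (M + rho2 n)) + rho2 n =
      (M + rho2 n) + wact τ d (K + rho2 n - wact σ e (M + rho2 n)) := by
    abel
  rw [h1, wact_add, (hinv _).1]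
  abel

/-- If `M` is deep relative to `L`, the multiplicity of `V(K)` in `V(L) ⊗ V(M)` is the
multiplicity of the weight `K - M` in `V(L)`. -/
theorem deep_mult {L M K : Fin n → ℤ} {χ : AddMonoidAlgebra ℤ (Fin n → ℤ)}
    {c : (Fin n → ℤ) →₀ ℤ} (hχ : IsWeylChar L χ) (hc : IsTensorMult L M c) (hd : Deep L M)
    (hK : Dominant K) : c K = χ.coeff (K - M) := by
  classical
  have h := tensorDecomp_of_tensorMult hχ hc
  have h1 : (χ * alt (M + rho2 n)).coeff (K + rho2 n) =
      (∑ K' ∈ c.support, c K' • alt (K' + rho2 n)).coeff (K + rho2 n) :=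
    congrArg (fun f => f.coeff (K + rho2 n)) h.2
  rw [coeff_sum_alt c h.1 K hK, coeff_mul_alt] at h1
  rw [← h1]
  rw [Finset.sum_eq_single (1 : Equiv.Perm (Fin n))]
  · rw [Finset.sum_eq_single (1 : Fin n → ℤˣ)]
    · rw [wact_one, add_sub_add_right_eq_sub]
      simp
    · intro e he hne
      by_contra hcon
      have hcoef : χ.coeff (K + rho2 n - wact 1 e (M + rho2 n)) ≠ 0 :=
        fun h0 => hcon (by rw [h0, mul_zero])
      exact hne (gendeep_rigid hχ hd hK he hcoef).2
    · intro hcon
      exact absurd one_mem_evenSigns hcon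
  · intro σ _ hne
    refine Finset.sum_eq_zero (fun e he => ?_)
    by_contra hcon
    have hcoef : χ.coeff (K + rho2 n - wact σ e (M + rho2 n)) ≠ 0 :=
      fun h0 => hcon (by rw [h0, mul_zero])
    exact hne (gendeep_rigid hχ hd hK he hcoef).1
  · intro hcon
    exact absurd (Finset.mem_univ _) hcon

end Vale.Agent.Lib.P182
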