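import Vale.Agent.Lib.P182.Generic

/-!
# Relatively deep triples

A refinement of the deep case: the multiplicity of `V(K)` in `V(L) ⊗ V(M)` is the multiplicity
of the weight `K - M` in `V(L)` as soon as `M + γ` is dominant for the points `γ` of the hull
of the Weyl orbit of `L` that lie below `K - M` in the dominance order.
-/

namespace Vale.Agent.Lib.P182

open Finset

variable {n : ℕ}

/-- `γ` lies below `δ` in the dominance order: `δ - γ` pairs nonnegatively with every dominant
vector (equivalently, `δ - γ` is a nonnegative real combination of simple roots). -/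
def Below (γ δ : Fin n → ℤ) : Prop := ∀ y : Fin n → ℤ, Dominant y → ip γ y ≤ ip δ y

/-- `(L, M, K)` is relatively deep: for every `N ≥ 1`, every integer point `γ` of the hull of
the Weyl orbit of `N L` that lies below `N (K - M)` in the dominance order has `N M + γ`
dominant.  (Equivalently: `M + γ` is dominant for every real point `γ` of the convex hull of
the Weyl orbit of `L` lying below `K - M`.) -/
def RelDeep (L M K : Fin n → ℤ) : Prop :=
  ∀ N : ℕ, 1 ≤ N → ∀ γ : Fin n → ℤ, InHull (N • L) γ → Below γ (N • (K - M)) →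
    Dominant (N • M + γ)

/-- Weyl conjugation does not increase the pairing of a dominant weight vector with a dominant
vector. -/
theorem ip_wact_le_of_dominant (hn : 2 ≤ n) {B y : Fin n → ℤ} (hB : Dominant B) (hBw : IsWt B)
    (hy : Dominant y) (σ : Equiv.Perm (Fin n)) (e : Fin n → ℤˣ) (he : e ∈ evenSigns n) :
    ip (wact σ e B) y ≤ ip B y := by
  have hH : InHull B (wact σ e B) := inHull_wact (inHull_self B) σ e he
  have hQ : InTwoQ (B - wact σ e B) := by
    have h1 := inTwoQ_neg (inTwoQ_wact_sub hBw σ e he)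
    rw [neg_sub] at h1
    exact h1
  obtain ⟨c, hc⟩ := exists_sroot_decomp hn hB hH hQ
  have h2 : ip (B - wact σ e B) y = ∑ j : Fin n, (c j : ℤ) * ip (sroot n j) y := by
    rw [hc, ip_sum_left]
    exact Finset.sum_congr rfl (fun j _ => ip_smul_left _ _ _)
  have h3 : 0 ≤ ip (B - wact σ e B) y := by
    rw [h2]
    exact Finset.sum_nonneg
      (fun j _ => mul_nonneg (Int.natCast_nonneg _) (ip_sroot_nonneg hn hy j))
  rw [ip_sub_left] at h3
  linarith

/-- A deep pair is relatively deep for every `K`. -/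
theorem relDeep_of_deep {L M : Fin n → ℤ} (hd : Deep L M) (K : Fin n → ℤ) : RelDeep L M K :=
  fun N _ _ hH _ => deep_dominant (deep_smul hd N) hH

/-- In the alternating sum for the coefficient at `K + 2ρ` only the identity contributes. -/
theorem rel_rigid (hn : 2 ≤ n) {L M K : Fin n → ℤ} {χ : AddMonoidAlgebra ℤ (Fin n → ℤ)}
    (hχ : IsWeylChar L χ)
    (hrel : ∀ γ : Fin n → ℤ, InHull L γ → Below γ (K - M) → Dominant (M + γ))
    (hK : Dominant K) (hKw : IsWt K)
    {σ : Equiv.Perm (Fin n)} {e : Fin n → ℤˣ} (he : e ∈ evenSigns n)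
    (hne : χ.coeff (K + rho2 n - wact σ e (M + rho2 n)) ≠ 0) : σ = 1 ∧ e = 1 := by
  have hg := weylChar_supp_hull hχ hne
  obtain ⟨τ, d, hd', hinv⟩ := exists_wact_inv σ e he
  have hg' := inHull_wact hg τ d hd'
  have hY : SDom (K + rho2 n) := sdom_add_rho2 hK
  have hYd : Dominant (K + rho2 n) := fun i j hij => le_of_lt (hY i j hij)
  have hform : wact τ d (K + rho2 n - wact σ e (M + rho2 n))
      = wact τ d (K + rho2 n) - (M + rho2 n) := by
    have h1 := wact_add τ d (K + rho2 n - wact σ e (M + rho2 n)) (wact σ e (M + rho2 n))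
    rw [sub_add_cancel, (hinv _).2] at h1
    rw [h1]
    abel
  have hbelow : Below (wact τ d (K + rho2 n - wact σ e (M + rho2 n))) (K - M) := by
    intro y hy
    rw [hform, ip_sub_left, ip_sub_left]
    have h2 := ip_wact_le_of_dominant hn hYd (isWt_add_rho2 hKw) hy τ d hd'
    have h3 : ip (K + rho2 n) y - ip (M + rho2 n) y = ip K y - ip M y := by
      rw [ip_add_left, ip_add_left]
      ring
    linarith
  have hdom := hrel _ hg' hbelow
  have hS : SDom (M + wact τ d (K + rho2 n - wact σ e (M + rho2 n)) + rho2 n) :=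
    sdom_add_rho2 hdom
  have hX : Dominant (M + wact τ d (K + rho2 n - wact σ e (M + rho2 n)) + rho2 n) :=
    fun i j hij => le_of_lt (hS i j hij)
  refine rigid hX hY he ?_
  have h1 : M + wact τ d (K + rho2 n - wact σ e (M + rho2 n)) + rho2 n =
      (M + rho2 n) + wact τ d (K + rho2 n - wact σ e (M + rho2 n)) := by
    abel
  rw [h1, wact_add, (hinv _).1]
  abel

/-- Under the relative depth condition, the multiplicity of `V(K)` in `V(L) ⊗ V(M)` is the
multiplicity of the weight `K - M` in `V(L)`. -/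
theorem rel_mult (hn : 2 ≤ n) {L M K : Fin n → ℤ} {χ : AddMonoidAlgebra ℤ (Fin n → ℤ)}
    {c : (Fin n → ℤ) →₀ ℤ} (hχ : IsWeylChar L χ) (hc : IsTensorMult L M c)
    (hrel : ∀ γ : Fin n → ℤ, InHull L γ → Below γ (K - M) → Dominant (M + γ))
    (hK : Dominant K) (hKw : IsWt K) : c K = χ.coeff (K - M) := by
  classical
  have h := tensorDecomp_of_tensorMult hχ hc
  have h1 : (χ * alt (M + rho2 n)).coeff (K + rho2 n) =
      (∑ K' ∈ c.support, c K' • alt (K' + rho2 n)).coeff (K + rho2 n) :=
    congrArg (fun f => f.coeff (K + rho2 n)) h.2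
  rw [coeff_sum_alt c h.1 K hK, coeff_mul_alt] at h1
  rw [← h1]
  rw [Finset.sum_eq_single (1 : Equiv.Perm (Fin n))]
  · rw [Finset.sum_eq_single (1 : Fin n → ℤˣ)]
    · rw [wact_one, add_sub_add_right_eq_sub]
      simp
    · intro e he hne
      by_contra hcon
      have hcoef : χ.coeff (K + rho2 n - wact 1 e (M + rho2 n)) ≠ 0 :=
        fun h0 => hcon (by rw [h0, mul_zero])
      exact hne (rel_rigid hn hχ hrel hK hKw he hcoef).2
    · intro hcon
      exact absurd one_mem_evenSigns hcon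
  · intro σ _ hne
    refine Finset.sum_eq_zero (fun e he => ?_)
    by_contra hcon
    have hcoef : χ.coeff (K + rho2 n - wact σ e (M + rho2 n)) ≠ 0 :=
      fun h0 => hcon (by rw [h0, mul_zero])
    exact hne (rel_rigid hn hχ hrel hK hKw he hcoef).1
  · intro hcon
    exact absurd (Finset.mem_univ _) hcon

/-- Saturation for relatively deep triples. -/
theorem rel_first (hn : 2 ≤ n) (L M K : Fin n → ℤ) (hL : Dominant L) (hLw : IsWt L)
    (hMw : IsWt M) (hK : Dominant K) (hQ : InTwoQ (L + M - K)) (hd : RelDeep L M K)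
    (N : ℕ) (hN : 1 ≤ N) (c cN : (Fin n → ℤ) →₀ ℤ) (hc : IsTensorMult L M c)
    (hcN : IsTensorMult (N • L) (N • M) cN) (h : cN (N • K) ≠ 0) : c K ≠ 0 := by
  have hKw : IsWt K := isWt_of_inTwoQ_sub (isWt_add hLw hMw) hQ
  obtain ⟨χ, hχ, -⟩ := exists_weylChar L hL hLw
  obtain ⟨χN, hχN, -⟩ := exists_weylChar (N • L) (dominant_smul hL N) (isWt_smul hLw N)
  have hrel1 : ∀ γ : Fin n → ℤ, InHull L γ → Below γ (K - M) → Dominant (M + γ) := by
    intro γ hH hB
    have h1 := hd 1 (le_refl 1) γ (by rw [one_smul]; exact hH) (by rw [one_smul]; exact hB)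
    rw [one_smul] at h1
    exact h1
  have hrelN : ∀ γ : Fin n → ℤ, InHull (N • L) γ → Below γ (N • K - N • M) →
      Dominant (N • M + γ) := by
    intro γ hH hB
    exact hd N hN γ hH (by rw [smul_sub]; exact hB)
  have e1 : c K = χ.coeff (K - M) := rel_mult hn hχ hc hrel1 hK hKw
  have e2 : cN (N • K) = χN.coeff (N • K - N • M) :=
    rel_mult hn hχN hcN hrelN (dominant_smul hK N) (isWt_smul hKw N)
  rw [e2] at h
  have h3 : InHull (N • L) (N • (K - M)) := by
    rw [smul_sub]
    exact weylChar_supp_hull hχN h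
  have h4 : InHull L (K - M) := inHull_of_smul N hN h3
  have h5 : InTwoQ (L - (K - M)) := by
    have h6 : L - (K - M) = L + M - K := by abel
    rw [h6]
    exact hQ
  rw [e1]
  exact ne_of_gt (weylChar_pos hn hL hLw hχ h4 h5)

/-- Saturation when `(L, M, K)` or `(M, L, K)` is relatively deep. -/
theorem rel_pair (hn : 2 ≤ n) (L M K : Fin n → ℤ) (hL : Dominant L) (hLw : IsWt L)
    (hM : Dominant M) (hMw : IsWt M) (hK : Dominant K) (hQ : InTwoQ (L + M - K))
    (hd : RelDeep L M K ∨ RelDeep M L K) (N : ℕ) (hN : 1 ≤ N)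
    (c cN : (Fin n → ℤ) →₀ ℤ) (hc : IsTensorMult L M c)
    (hcN : IsTensorMult (N • L) (N • M) cN) (h : cN (N • K) ≠ 0) : c K ≠ 0 := by
  rcases hd with hd | hd
  · exact rel_first hn L M K hL hLw hMw hK hQ hd N hN c cN hc hcN h
  · have hQ' : InTwoQ (M + L - K) := by
      rw [add_comm]
      exact hQ
    exact rel_first hn M L K hM hMw hLw hK hQ' hd N hN c cN (isTensorMult_comm hc)
      (isTensorMult_comm hcN) h

/-- Saturation when `(K^*, L, M^*)` or `(L, K^*, M^*)` is relatively deep. -/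
theorem rel_third (hn : 2 ≤ n) (L M K : Fin n → ℤ) (hL : Dominant L) (hLw : IsWt L)
    (hM : Dominant M) (hMw : IsWt M) (hK : Dominant K) (hKw : IsWt K)
    (hQ : InTwoQ (L + M - K))
    (hd : RelDeep (dual K) L (dual M) ∨ RelDeep L (dual K) (dual M)) (N : ℕ) (hN : 1 ≤ N)
    (c cN : (Fin n → ℤ) →₀ ℤ) (hc : IsTensorMult L M c)
    (hcN : IsTensorMult (N • L) (N • M) cN) (h : cN (N • K) ≠ 0) : c K ≠ 0 := by
  have hdK : Dominant (dual K) := dominant_dual hK
  have hdKw : IsWt (dual K) := isWt_dual hKw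
  obtain ⟨c1, hc1⟩ := exists_tensorMult (dual K) L hdK hdKw hLw
  obtain ⟨c1N, hc1N⟩ := exists_tensorMult (N • dual K) (N • L) (dominant_smul hdK N)
    (isWt_smul hdKw N) (isWt_smul hLw N)
  have e1 : c K = c1 (dual M) := tensorMult_dual hL hLw hM hK hc (isTensorMult_comm hc1)
  have e2 : cN (N • K) = c1N (N • dual M) := by
    have h3 : IsTensorMult (N • L) (dual (N • K)) c1N := by
      rw [dual_nsmul]
      exact isTensorMult_comm hc1N
    have h4 := tensorMult_dual (dominant_smul hL N) (isWt_smul hLw N) (dominant_smul hM N)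
      (dominant_smul hK N) hcN h3
    rw [h4, dual_nsmul]
  rw [e1]
  rw [e2] at h
  exact rel_pair hn (dual K) L (dual M) hdK hdKw hL hLw (dominant_dual hM)
    (inTwoQ_dual_swap hMw hKw hQ) hd N hN c1 c1N hc1 hc1N h

/-- Saturation for triples `(L, M, Nu)` with `L + M + Nu` in the root lattice such that, for
some ordering `(X, Y, Z)` of the three weights, `(X, Y, Z^*)` is relatively deep. -/
theorem rel_sat (hn : 2 ≤ n) (L M Nu : Fin n → ℤ)
    (hL : Dominant L) (hLw : IsWt L) (hM : Dominant M) (hMw : IsWt M) (hNu : Dominant Nu)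
    (hQ : InTwoQ (L + M + Nu))
    (hdeep : RelDeep L M (dual Nu) ∨ RelDeep M L (dual Nu) ∨ RelDeep L Nu (dual M) ∨
      RelDeep Nu L (dual M) ∨ RelDeep M Nu (dual L) ∨ RelDeep Nu M (dual L))
    (N : ℕ) (hN : 1 ≤ N) (c cN : (Fin n → ℤ) →₀ ℤ)
    (hc : IsTensorMult L M c) (hcN : IsTensorMult (N • L) (N • M) cN)
    (h : cN (dual (N • Nu)) ≠ 0) : c (dual Nu) ≠ 0 := by
  have hNuw : IsWt Nu := isWt_third hLw hMw hQ
  rw [dual_nsmul] at h
  have hK : Dominant (dual Nu) := dominant_dual hNu
  have hKw : IsWt (dual Nu) := isWt_dual hNuw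
  have hQ1 : InTwoQ (L + M - dual Nu) := inTwoQ_sub_dual hNuw hQ
  have hQ2 : InTwoQ (M + L - dual Nu) := by
    rw [add_comm M L]
    exact hQ1
  rcases hdeep with hd | hd | hd | hd | hd | hd
  · exact rel_pair hn L M (dual Nu) hL hLw hM hMw hK hQ1 (Or.inl hd) N hN c cN hc hcN h
  · exact rel_pair hn L M (dual Nu) hL hLw hM hMw hK hQ1 (Or.inr hd) N hN c cN hc hcN h
  · refine rel_third hn L M (dual Nu) hL hLw hM hMw hK hKw hQ1 ?_ N hN c cN hc hcN h
    rw [dual_dual]
    exact Or.inr hd
  · refine rel_third hn L M (dual Nu) hL hLw hM hMw hK hKw hQ1 ?_ N hN c cN hc hcN h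
    rw [dual_dual]
    exact Or.inl hd
  · refine rel_third hn M L (dual Nu) hM hMw hL hLw hK hKw hQ2 ?_ N hN c cN
      (isTensorMult_comm hc) (isTensorMult_comm hcN) h
    rw [dual_dual]
    exact Or.inr hd
  · refine rel_third hn M L (dual Nu) hM hMw hL hLw hK hKw hQ2 ?_ N hN c cN
      (isTensorMult_comm hc) (isTensorMult_comm hcN) h
    rw [dual_dual]
    exact Or.inl hd

end Vale.Agent.Lib.P182
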