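import Vale.Agent.Lib.P182.Vector

namespace Vale.Agent.Lib.P182

open Finset

variable {n : ℕ}

/-- Saturation for tensor products with the vector representation, in terms of characters. -/
theorem vec_sat_chi (hn : 2 ≤ n)
    (M K : Fin n → ℤ) (hM : Dominant M) (hK : Dominant K) (hQ : InTwoQ (vec n + M - K))
    (N : ℕ) (hN : 1 ≤ N)
    (χ χN : AddMonoidAlgebra ℤ (Fin n → ℤ)) (c cN : (Fin n → ℤ) →₀ ℤ)
    (hχ : χ * alt (rho2 n) = alt (vec n + rho2 n))
    (hcd : ∀ K' ∈ c.support, Dominant K')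
    (hc : χ * alt (M + rho2 n) = ∑ K' ∈ c.support, c K' • alt (K' + rho2 n))
    (hχN : χN * alt (rho2 n) = alt (N • vec n + rho2 n))
    (hcNd : ∀ K' ∈ cN.support, Dominant K')
    (hcN : χN * alt (N • M + rho2 n) = ∑ K' ∈ cN.support, cN K' • alt (K' + rho2 n))
    (h : cN (N • K) ≠ 0) : c K ≠ 0 := by
  classical
  have h0 : 0 < n := by omega
  have h1 : (χN * alt (N • M + rho2 n)).coeff (N • K + rho2 n) ≠ 0 := by
    rw [hcN, coeff_sum_alt cN hcNd (N • K) (dominant_smul hK N)]
    exact h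
  have h2 := AddMonoidAlgebra.support_coeff_mul_subset χN (alt (N • M + rho2 n))
    (Finsupp.mem_support_iff.mpr h1)
  obtain ⟨β, hβ, q, hq, hsum⟩ := Finset.mem_add.mp h2
  obtain ⟨σ, e, he, hw⟩ := exists_of_mem_support_alt hq
  have hb := supp_bound_vec hn N χN hχN β hβ
  have hsort := l1_sort (sdom_add_rho2 (dominant_smul hK N))
    (sdom_add_rho2 (dominant_smul hM N)) σ e he
  have hβeq : ∀ i, (N • K + rho2 n) i - wact σ e (N • M + rho2 n) i = β i := by
    intro i
    have h3 := congrFun hsum i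
    rw [hw, ← h3]; simp
  have hsort2 : ∑ i, |(N • K + rho2 n) i - (N • M + rho2 n) i| ≤ ∑ i, |β i| :=
    le_trans hsort (le_of_eq (Finset.sum_congr rfl (fun i _ => by rw [hβeq i])))
  have hNpos : (0 : ℤ) < N := by exact_mod_cast hN
  have hterm : ∀ i, |(N • K + rho2 n) i - (N • M + rho2 n) i| = (N : ℤ) * |K i - M i| := by
    intro i
    have h4 : (N • K + rho2 n) i - (N • M + rho2 n) i = (N : ℤ) * (K i - M i) := by
      simp; ring
    rw [h4, abs_mul, abs_of_pos hNpos]
  rw [Finset.sum_congr rfl (fun i _ => hterm i), ← Finset.mul_sum] at hsort2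
  have hl1 : ∑ i, |K i - M i| ≤ 2 := by
    have h5 := le_trans hsort2 hb
    by_contra hcon
    push Not at hcon
    nlinarith
  -- parity
  have heven : ∀ i, (2 : ℤ) ∣ K i - M i := by
    intro i
    have h3 := hQ.1 i
    simp only [Pi.add_apply, Pi.sub_apply, vec] at h3
    split_ifs at h3 <;> omega
  have hsumx : (4 : ℤ) ∣ 2 - ∑ i, (K i - M i) := by
    have h3 := hQ.2
    have h4 : ∑ i, (vec n + M - K) i = 2 - ∑ i, (K i - M i) := by
      have e1 : ∀ i, (vec n + M - K) i = vec n i - (K i - M i) := fun i => by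
        simp only [Pi.add_apply, Pi.sub_apply]; ring
      rw [Finset.sum_congr rfl (fun i _ => e1 i), Finset.sum_sub_distrib, sum_vec h0]
    rw [h4] at h3
    exact h3
  obtain ⟨k, hk⟩ : ∃ k, K k - M k ≠ 0 := by
    by_contra hcon
    push Not at hcon
    have : ∑ i, (K i - M i) = 0 := Finset.sum_eq_zero (fun i _ => hcon i)
    rw [this] at hsumx
    omega
  have hk2 : 2 ≤ |K k - M k| := by
    have h3 := heven k
    have h4 : 0 < |K k - M k| := abs_pos.mpr hk
    rcases abs_cases (K k - M k) with ⟨h5, _⟩ | ⟨h5, _⟩ <;> omega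
  have hsplit : |K k - M k| + ∑ i ∈ Finset.univ.erase k, |K i - M i| = ∑ i, |K i - M i| :=
    Finset.add_sum_erase Finset.univ (fun i => |K i - M i|) (Finset.mem_univ k)
  have hrest_nonneg : ∀ i ∈ Finset.univ.erase k, 0 ≤ |K i - M i| := fun i _ => abs_nonneg _
  have hrest : ∑ i ∈ Finset.univ.erase k, |K i - M i| = 0 := by
    have := Finset.sum_nonneg hrest_nonneg
    omega
  have hothers : ∀ i, i ≠ k → K i - M i = 0 := by
    intro i hik
    have h3 := (Finset.sum_eq_zero_iff_of_nonneg hrest_nonneg).mp hrest i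
      (Finset.mem_erase.mpr ⟨hik, Finset.mem_univ i⟩)
    exact abs_eq_zero.mp h3
  have hkabs : |K k - M k| = 2 := by
    omega
  obtain ⟨s, hs⟩ : ∃ s : ℤˣ, K k - M k = 2 * ((s : ℤˣ) : ℤ) := by
    rcases abs_eq (by norm_num : (0 : ℤ) ≤ 2) |>.mp hkabs with h3 | h3
    · exact ⟨1, by rw [h3]; simp⟩
    · exact ⟨-1, by rw [h3]; simp⟩
  have hKM : K = M + spike k s := by
    funext i
    simp only [Pi.add_apply, spike]
    by_cases hik : i = k
    · rw [if_pos hik, hik, ← hs]; ring
    · rw [if_neg hik]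
      have := hothers i hik
      omega
  rw [vec_mult_one hn M K hM hK χ c hχ hcd hc k s hKM]
  exact one_ne_zero

/-- Saturation for tensor products with the vector representation. -/
theorem vec_sat (hn : 2 ≤ n) (M K : Fin n → ℤ) (hM : Dominant M) (hK : Dominant K)
    (hQ : InTwoQ (vec n + M - K)) (N : ℕ) (hN : 1 ≤ N) (c cN : (Fin n → ℤ) →₀ ℤ)
    (hc : IsTensorMult (vec n) M c) (hcN : IsTensorMult (N • vec n) (N • M) cN)
    (h : cN (N • K) ≠ 0) : c K ≠ 0 := by
  obtain ⟨χ, hχ, _⟩ := exists_weylChar (vec n) dominant_vec isWt_vec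
  obtain ⟨χN, hχN, _⟩ := exists_weylChar (N • vec n) (dominant_smul dominant_vec N)
    (isWt_smul isWt_vec N)
  have hd := tensorDecomp_of_tensorMult hχ hc
  have hdN := tensorDecomp_of_tensorMult hχN hcN
  exact vec_sat_chi hn M K hM hK hQ N hN χ χN c cN hχ hd.1 hd.2 hχN hdN.1 hdN.2 h

/-- Saturation for tensor products with a minuscule representation of `Spin(2n)`: the vector
representation (`L = (2, 0, …, 0)`) or a half-spin representation (`L = (1, …, 1, ±1)`). -/
theorem minuscule_sat (hn : 2 ≤ n) (L M K : Fin n → ℤ)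
    (hLmin : (∀ i, |L i| = 1) ∨ (∀ i : Fin n, L i = if i.val = 0 then 2 else 0))
    (hL : Dominant L) (hM : Dominant M) (hK : Dominant K)
    (hQ : InTwoQ (L + M - K)) (N : ℕ) (hN : 1 ≤ N) (c cN : (Fin n → ℤ) →₀ ℤ)
    (hc : IsTensorMult L M c) (hcN : IsTensorMult (N • L) (N • M) cN)
    (h : cN (N • K) ≠ 0) : c K ≠ 0 := by
  rcases hLmin with h1 | h1
  · exact halfspin_sat hn L M K h1 hL hM hK hQ N hN c cN hc hcN h
  · have hLv : L = vec n := funext h1
    subst hLv
    exact vec_sat hn M K hM hK hQ N hN c cN hc hcN h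

end Vale.Agent.Lib.P182
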