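import Vale.Agent.Lib.P182.PieriChar

/-!
# Non-vanishing of the Pieri multiplicities and saturation
-/

namespace Vale.Agent.Lib.P182

open Finset Polynomial

/-- Coefficients of a product of geometric sums in `X²`. -/
theorem coeff_prod_geom {ι : Type*} (s : Finset ι) (g : ι → ℕ) :
    ∀ t : ℕ, 0 ≤ (∏ i ∈ s, ∑ j ∈ Finset.range (g i), (X ^ 2 : Polynomial ℤ) ^ j).coeff t ∧
      ((∏ i ∈ s, ∑ j ∈ Finset.range (g i), (X ^ 2 : Polynomial ℤ) ^ j).coeff t ≠ 0 ↔
        (∀ i ∈ s, 1 ≤ g i) ∧ 2 ∣ t ∧ t / 2 ≤ ∑ i ∈ s, (g i - 1)) := by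
  classical
  induction s using Finset.induction_on with
  | empty =>
    intro t
    rw [Finset.prod_empty, Polynomial.coeff_one]
    by_cases ht : t = 0
    · subst ht; simp
    · rw [if_neg ht]
      simp
      omega
  | insert a s ha ih =>
    intro t
    rw [Finset.prod_insert ha, Finset.sum_insert ha]
    set Q := ∏ i ∈ s, ∑ j ∈ Finset.range (g i), (X ^ 2 : Polynomial ℤ) ^ j with hQ
    have hcoef : ((∑ j ∈ Finset.range (g a), (X ^ 2 : Polynomial ℤ) ^ j) * Q).coeff t
        = ∑ j ∈ Finset.range (g a), (if 2 * j ≤ t then Q.coeff (t - 2 * j) else 0) := by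
      rw [Finset.sum_mul, Polynomial.finset_sum_coeff]
      refine Finset.sum_congr rfl (fun j _ => ?_)
      rw [← pow_mul, Polynomial.coeff_X_pow_mul']
    rw [hcoef]
    have hnn : ∀ j ∈ Finset.range (g a), 0 ≤ (if 2 * j ≤ t then Q.coeff (t - 2 * j) else 0) := by
      intro j _
      split_ifs
      · exact (ih _).1
      · exact le_refl 0
    refine ⟨Finset.sum_nonneg hnn, ?_⟩
    rw [Ne, Finset.sum_eq_zero_iff_of_nonneg hnn]
    push Not
    constructor
    · rintro ⟨j, hj, hne⟩
      rw [Finset.mem_range] at hj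
      by_cases h2 : 2 * j ≤ t
      · rw [if_pos h2] at hne
        obtain ⟨h3, h4, h5⟩ := ((ih _).2).mp hne
        refine ⟨?_, ?_, ?_⟩
        · intro i hi
          rcases Finset.mem_insert.mp hi with rfl | hi
          · omega
          · exact h3 i hi
        · omega
        · omega
      · rw [if_neg h2] at hne
        exact absurd rfl hne
    · rintro ⟨h3, h4, h5⟩
      have h6 := h3 a (Finset.mem_insert_self a s)
      refine ⟨min (g a - 1) (t / 2), ?_, ?_⟩
      · rw [Finset.mem_range]; omega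
      · have h7 : 2 * min (g a - 1) (t / 2) ≤ t := by omega
        rw [if_pos h7]
        apply ((ih _).2).mpr
        refine ⟨fun i hi => h3 i (Finset.mem_insert_of_mem hi), ?_, ?_⟩
        · omega
        · omega


theorem abs_add_rho2_succ {m : ℕ} {M : Fin (m + 1) → ℤ} (hM : Dominant M) (i : Fin m) :
    |(M + rho2 (m + 1)) i.succ| = |M i.succ| + rho2 (m + 1) i.succ := by
  have h1 := rho2_nonneg (n := m + 1) i.succ
  simp only [Pi.add_apply]
  rcases rho2_or_nonneg hM i with h2 | h2
  · rw [h2, add_zero, add_zero]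
  · rw [abs_of_nonneg h2, abs_of_nonneg (by omega)]

/-- The gap quantity is even. -/
theorem gap_even {m : ℕ} (M K : Fin (m + 1) → ℤ) (hpar : ∀ i j, 2 ∣ K i - M j) (i : Fin m) :
    2 ∣ min (M i.castSucc) (K i.castSucc) - max |M i.succ| |K i.succ| := by
  have h1 := hpar i.castSucc i.castSucc
  have h2 := hpar i.succ i.castSucc
  have h3 := hpar i.succ i.succ
  rcases abs_cases (M i.succ) with ⟨h4, _⟩ | ⟨h4, _⟩ <;>
    rcases abs_cases (K i.succ) with ⟨h5, _⟩ | ⟨h5, _⟩ <;>
    rcases le_total (M i.castSucc) (K i.castSucc) with h6 | h6 <;>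
    rcases le_total |M i.succ| |K i.succ| with h7 | h7 <;>
    simp only [min_eq_left, min_eq_right, max_eq_left, max_eq_right, h6, h7] <;> omega

/-- Non-vanishing criterion for the Pieri multiplicities. -/
theorem bpoly_coeff_ne_zero_iff (m k : ℕ) (M K : Fin (m + 1) → ℤ) (hM : Dominant M)
    (hK : Dominant K) (hpar : ∀ i j, 2 ∣ K i - M j) :
    (bpoly (K + rho2 (m + 1)) (M + rho2 (m + 1))).coeff k ≠ 0 ↔
      (∀ i : Fin m, 0 ≤ min (M i.castSucc) (K i.castSucc) - max |M i.succ| |K i.succ|) ∧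
      ∑ i, |K i - M i| ≤ 2 * (k : ℤ) ∧ 4 ∣ 2 * (k : ℤ) - ∑ i, |K i - M i| ∧
      2 * (k : ℤ) - ∑ i, |K i - M i|
        ≤ 2 * ∑ i : Fin m, (min (M i.castSucc) (K i.castSucc) - max |M i.succ| |K i.succ|) := by
  have hlt : ∀ i : Fin m, i.castSucc < i.succ := fun i => by
    rw [Fin.lt_def]; simp
  have hsum : ∑ i, |(K + rho2 (m + 1)) i - (M + rho2 (m + 1)) i| = ∑ i, |K i - M i| := by
    refine Finset.sum_congr rfl (fun i _ => ?_)
    simp
  have hgap : ∀ i : Fin m,
      min ((M + rho2 (m + 1)) i.castSucc) ((K + rho2 (m + 1)) i.castSucc)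
        - max |(M + rho2 (m + 1)) i.succ| |(K + rho2 (m + 1)) i.succ|
      = min (M i.castSucc) (K i.castSucc) - max |M i.succ| |K i.succ| + 2 := by
    intro i
    rw [abs_add_rho2_succ hM i, abs_add_rho2_succ hK i]
    have h1 := rho2_castSucc i
    simp only [Pi.add_apply]
    rcases le_total (M i.castSucc) (K i.castSucc) with h6 | h6 <;>
      rcases le_total |M i.succ| |K i.succ| with h7 | h7 <;>
      simp only [min_eq_left, min_eq_right, max_eq_left, max_eq_right, h6, h7,
        add_le_add_iff_right] <;> omega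
  have hcond : (∀ i : Fin m, |(M + rho2 (m + 1)) i.succ| ≤ (K + rho2 (m + 1)) i.castSucc
      ∧ |(K + rho2 (m + 1)) i.succ| ≤ (M + rho2 (m + 1)) i.castSucc)
      ↔ (∀ i : Fin m, |M i.succ| ≤ K i.castSucc + 2 ∧ |K i.succ| ≤ M i.castSucc + 2) := by
    constructor
    · intro h i
      have h1 := h i
      rw [abs_add_rho2_succ hM i, abs_add_rho2_succ hK i] at h1
      have h2 := rho2_castSucc i
      simp only [Pi.add_apply] at h1
      constructor <;> omega
    · intro h i
      have h1 := h i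
      rw [abs_add_rho2_succ hM i, abs_add_rho2_succ hK i]
      have h2 := rho2_castSucc i
      simp only [Pi.add_apply]
      constructor <;> omega
  have haev : 2 ∣ ∑ i, |K i - M i| :=
    Finset.dvd_sum (fun i _ => (dvd_abs 2 _).mpr (hpar i i))
  have hann : 0 ≤ ∑ i, |K i - M i| := Finset.sum_nonneg (fun i _ => abs_nonneg _)
  unfold bpoly
  by_cases hc : ∀ i : Fin m, |(M + rho2 (m + 1)) i.succ| ≤ (K + rho2 (m + 1)) i.castSucc
      ∧ |(K + rho2 (m + 1)) i.succ| ≤ (M + rho2 (m + 1)) i.castSucc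
  · rw [if_pos hc, hsum, Polynomial.coeff_X_pow_mul']
    simp only [hgap]
    have hP := coeff_prod_geom (Finset.univ : Finset (Fin m))
      (fun i => (min (M i.castSucc) (K i.castSucc) - max |M i.succ| |K i.succ| + 2).toNat / 2)
    obtain ⟨a', ha'⟩ := haev
    have hone : ∀ i : Fin m,
        (1 ≤ (min (M i.castSucc) (K i.castSucc) - max |M i.succ| |K i.succ| + 2).toNat / 2)
        ↔ 0 ≤ min (M i.castSucc) (K i.castSucc) - max |M i.succ| |K i.succ| := by
      intro i
      obtain ⟨c, hc'⟩ := gap_even M K hpar i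
      omega
    constructor
    · intro hne
      by_cases hle : (∑ i, |K i - M i|).toNat / 2 ≤ k
      · rw [if_pos hle] at hne
        obtain ⟨h3, h4, h5⟩ := ((hP _).2).mp hne
        have hH : ∀ i : Fin m, 0 ≤ min (M i.castSucc) (K i.castSucc) - max |M i.succ| |K i.succ| :=
          fun i => (hone i).mp (h3 i (Finset.mem_univ i))
        have hS : ((∑ i : Fin m, ((min (M i.castSucc) (K i.castSucc)
            - max |M i.succ| |K i.succ| + 2).toNat / 2 - 1) : ℕ) : ℤ) * 2
            = ∑ i : Fin m, (min (M i.castSucc) (K i.castSucc) - max |M i.succ| |K i.succ|) := by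
          rw [Nat.cast_sum, Finset.sum_mul]
          refine Finset.sum_congr rfl (fun i _ => ?_)
          obtain ⟨c, hc'⟩ := gap_even M K hpar i
          have := hH i
          omega
        refine ⟨hH, ?_, ?_, ?_⟩
        · omega
        · obtain ⟨d, hd⟩ := h4
          exact ⟨d, by omega⟩
        · obtain ⟨d, hd⟩ := h4
          omega
      · rw [if_neg hle] at hne
        exact absurd rfl hne
    · rintro ⟨hH, h1, h2, h3⟩
      have hle : (∑ i, |K i - M i|).toNat / 2 ≤ k := by omega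
      rw [if_pos hle]
      apply ((hP _).2).mpr
      have hS : ((∑ i : Fin m, ((min (M i.castSucc) (K i.castSucc)
          - max |M i.succ| |K i.succ| + 2).toNat / 2 - 1) : ℕ) : ℤ) * 2
          = ∑ i : Fin m, (min (M i.castSucc) (K i.castSucc) - max |M i.succ| |K i.succ|) := by
        rw [Nat.cast_sum, Finset.sum_mul]
        refine Finset.sum_congr rfl (fun i _ => ?_)
        obtain ⟨c, hc'⟩ := gap_even M K hpar i
        have := hH i
        omega
      refine ⟨fun i _ => (hone i).mpr (hH i), ?_, ?_⟩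
      · obtain ⟨d, hd⟩ := h2
        exact ⟨d.toNat, by omega⟩
      · obtain ⟨d, hd⟩ := h2
        omega
  · rw [if_neg hc, Polynomial.coeff_zero]
    constructor
    · intro h; exact absurd rfl h
    · rintro ⟨hH, -, -, -⟩
      exfalso
      apply hc
      rw [hcond]
      intro i
      have h1 := hH i
      have h2 := hM _ _ (hlt i)
      have h3 := hK _ _ (hlt i)
      rcases le_total (M i.castSucc) (K i.castSucc) with h6 | h6 <;>
        rcases le_total |M i.succ| |K i.succ| with h7 | h7 <;>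
        simp only [min_eq_left, min_eq_right, max_eq_left, max_eq_right, h6, h7] at h1 <;>
        constructor <;> omega


theorem four_dvd_abs_sub (x : ℤ) (h : 2 ∣ x) : 4 ∣ |x| - x := by
  obtain ⟨c, hc⟩ := h
  rcases abs_cases x with ⟨h1, _⟩ | ⟨h1, _⟩
  · exact ⟨0, by omega⟩
  · exact ⟨-c, by omega⟩

/-- Saturation for tensor products with the multiples of the vector weight. -/
theorem pieri_sat (m : ℕ) (hm : 1 ≤ m) (k : ℕ) (M K : Fin (m + 1) → ℤ) (hM : Dominant M)
    (hMw : IsWt M) (hK : Dominant K) (hQ : InTwoQ (k • vec (m + 1) + M - K))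
    (N : ℕ) (hN : 1 ≤ N) (c cN : (Fin (m + 1) → ℤ) →₀ ℤ)
    (hc : IsTensorMult (k • vec (m + 1)) M c)
    (hcN : IsTensorMult (N • (k • vec (m + 1))) (N • M) cN)
    (h : cN (N • K) ≠ 0) : c K ≠ 0 := by
  have hNpos : (0 : ℤ) < N := by exact_mod_cast hN
  have hNnn : (0 : ℤ) ≤ N := le_of_lt hNpos
  have hpar : ∀ i j, 2 ∣ K i - M j := by
    intro i j
    have h1 := hQ.1 i
    have h2 := smul_vec_even (m := m) k i
    have h3 := hMw i j
    simp only [Pi.add_apply, Pi.sub_apply] at h1
    omega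
  have hparN : ∀ i j, 2 ∣ (N • K) i - (N • M) j := by
    intro i j
    have h1 := hpar i j
    simp only [Pi.smul_apply, nsmul_eq_mul]
    rw [← mul_sub]
    exact Dvd.dvd.mul_left h1 _
  have hsm : N • (k • vec (m + 1)) = (N * k) • vec (m + 1) := (mul_smul N k _).symm
  rw [hsm] at hcN
  rw [pieri_mult m k hm M K hM hMw hK c hc, if_pos hpar]
  rw [pieri_mult m (N * k) hm (N • M) (N • K) (dominant_smul hM N) (isWt_smul hMw N)
    (dominant_smul hK N) cN hcN, if_pos hparN] at h
  rw [bpoly_coeff_ne_zero_iff m k M K hM hK hpar]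
  rw [bpoly_coeff_ne_zero_iff m (N * k) (N • M) (N • K) (dominant_smul hM N) (dominant_smul hK N)
    hparN] at h
  obtain ⟨h1, h2, -, h4⟩ := h
  have hgapN : ∀ i : Fin m,
      min ((N • M) i.castSucc) ((N • K) i.castSucc) - max |(N • M) i.succ| |(N • K) i.succ|
        = (N : ℤ) * (min (M i.castSucc) (K i.castSucc) - max |M i.succ| |K i.succ|) := by
    intro i
    simp only [Pi.smul_apply, nsmul_eq_mul, abs_mul, abs_of_nonneg hNnn]
    rw [← mul_min_of_nonneg _ _ hNnn, ← mul_max_of_nonneg _ _ hNnn, mul_sub]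
  have hsumN : ∑ i, |(N • K) i - (N • M) i| = (N : ℤ) * ∑ i, |K i - M i| := by
    rw [Finset.mul_sum]
    refine Finset.sum_congr rfl (fun i _ => ?_)
    simp only [Pi.smul_apply, nsmul_eq_mul]
    rw [← mul_sub, abs_mul, abs_of_nonneg hNnn]
  simp only [hgapN] at h1 h4
  rw [hsumN] at h2 h4
  rw [← Finset.mul_sum] at h4
  push_cast at h2 h4
  refine ⟨fun i => (mul_nonneg_iff_of_pos_left hNpos).mp (h1 i), ?_, ?_, ?_⟩
  · have : (N : ℤ) * ∑ i, |K i - M i| ≤ (N : ℤ) * (2 * (k : ℤ)) := by linarith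
    exact le_of_mul_le_mul_left this hNpos
  · have h5 := hQ.2
    have h6 : ∑ i, (k • vec (m + 1) + M - K) i = 2 * (k : ℤ) - ∑ i, (K i - M i) := by
      have e1 : ∀ i, (k • vec (m + 1) + M - K) i = (k : ℤ) * vec (m + 1) i - (K i - M i) := by
        intro i
        simp only [Pi.add_apply, Pi.sub_apply, Pi.smul_apply]
        rw [nsmul_eq_mul]
        ring
      rw [Finset.sum_congr rfl (fun i _ => e1 i), Finset.sum_sub_distrib, ← Finset.mul_sum,
        sum_vec (Nat.succ_pos m)]
      ring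
    rw [h6] at h5
    have h7 : (4 : ℤ) ∣ ∑ i, (|K i - M i| - (K i - M i)) :=
      Finset.dvd_sum (fun i _ => four_dvd_abs_sub _ (hpar i i))
    rw [Finset.sum_sub_distrib] at h7
    obtain ⟨a, ha⟩ := h5
    obtain ⟨b, hb⟩ := h7
    exact ⟨a - b, by linarith⟩
  · have : (N : ℤ) * (2 * (k : ℤ) - ∑ i, |K i - M i|)
        ≤ (N : ℤ) * (2 * ∑ i : Fin m,
          (min (M i.castSucc) (K i.castSucc) - max |M i.succ| |K i.succ|)) := by
      linarith
    exact le_of_mul_le_mul_left this hNpos

end Vale.Agent.Lib.P182
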