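import Vale.Agent.Lib.P182.Dual
import Vale.Agent.Lib.P182.PieriSat
import Vale.Agent.Lib.P182.Minuscule

/-!
# Saturation when any one of the three weights is a multiple of the vector weight or a
half-spin weight
-/

namespace Vale.Agent.Lib.P182

open Finset

variable {n : ℕ}

/-- Saturation when the first weight is a multiple of the vector weight or a half-spin weight. -/
theorem first_sat (hn : 2 ≤ n) (L M K : Fin n → ℤ)
    (hLtype : (∀ i, |L i| = 1) ∨
      (∃ k : ℕ, ∀ i : Fin n, L i = if i.val = 0 then 2 * (k : ℤ) else 0))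
    (hL : Dominant L) (hM : Dominant M) (hMw : IsWt M) (hK : Dominant K)
    (hQ : InTwoQ (L + M - K)) (N : ℕ) (hN : 1 ≤ N) (c cN : (Fin n → ℤ) →₀ ℤ)
    (hc : IsTensorMult L M c) (hcN : IsTensorMult (N • L) (N • M) cN)
    (h : cN (N • K) ≠ 0) : c K ≠ 0 := by
  rcases hLtype with h1 | ⟨k, h1⟩
  · exact halfspin_sat hn L M K h1 hL hM hK hQ N hN c cN hc hcN h
  · obtain ⟨m, rfl⟩ : ∃ m, n = m + 1 := ⟨n - 1, by omega⟩
    have hLv : L = k • vec (m + 1) := by
      funext i
      rw [h1 i]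
      simp only [Pi.smul_apply, vec]
      rw [nsmul_eq_mul]
      split_ifs <;> ring
    subst hLv
    exact pieri_sat m (by omega) k M K hM hMw hK hQ N hN c cN hc hcN h

theorem isTensorMult_comm {L M : Fin n → ℤ} {c : (Fin n → ℤ) →₀ ℤ} (h : IsTensorMult L M c) :
    IsTensorMult M L c :=
  ⟨h.1, by rw [mul_comm]; exact h.2⟩

theorem isWt_of_type {X : Fin n → ℤ}
    (h : (∀ i, |X i| = 1) ∨
      (∃ k : ℕ, ∀ i : Fin n, X i = if i.val = 0 then 2 * (k : ℤ) else 0)) : IsWt X := by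
  rcases h with h1 | ⟨k, h1⟩
  · exact isWt_of_abs_one h1
  · intro i j
    rw [h1 i, h1 j]
    split_ifs <;> simp

theorem type_dual (hn : 2 ≤ n) {X : Fin n → ℤ}
    (h : (∀ i, |X i| = 1) ∨
      (∃ k : ℕ, ∀ i : Fin n, X i = if i.val = 0 then 2 * (k : ℤ) else 0)) :
    (∀ i, |dual X i| = 1) ∨
      (∃ k : ℕ, ∀ i : Fin n, dual X i = if i.val = 0 then 2 * (k : ℤ) else 0) := by
  rcases h with h1 | ⟨k, h1⟩
  · left
    intro i
    rw [abs_dual]
    exact h1 i
  · right
    refine ⟨k, fun i => ?_⟩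
    unfold dual
    rw [h1 i]
    by_cases hi : i.val = 0
    · have h2 : dsgn n i = 1 := by
        unfold dsgn
        rw [if_neg]
        intro hcon
        omega
      rw [h2, if_pos hi]
      simp
    · rw [if_neg hi]
      simp

theorem two_dvd_sum_of_same_parity {m : ℕ} (hm : Even m) (z : Fin m → ℤ)
    (hz : ∀ i j, (2 : ℤ) ∣ z i - z j) : (2 : ℤ) ∣ ∑ i, z i := by
  rcases Nat.eq_zero_or_pos m with h0 | hpos
  · subst h0
    simp
  · have hsplit : ∑ i, z i = ∑ i, (z i - z ⟨0, hpos⟩) + (m : ℤ) * z ⟨0, hpos⟩ := by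
      rw [Finset.sum_sub_distrib, Finset.sum_const, Finset.card_univ, Fintype.card_fin,
        nsmul_eq_mul]
      ring
    rw [hsplit]
    refine dvd_add (Finset.dvd_sum (fun i _ => hz i _)) ?_
    obtain ⟨r, hr⟩ := hm
    refine Dvd.dvd.mul_right ?_ _
    exact ⟨r, by rw [hr]; push_cast; ring⟩

theorem four_dvd_sum_dsgn (y : Fin n → ℤ) (hy : ∀ i j, (2 : ℤ) ∣ y i - y j) :
    (4 : ℤ) ∣ ∑ i, (((dsgn n i : ℤˣ) : ℤ) + 1) * y i := by
  by_cases hodd : Odd n
  · obtain ⟨m, rfl⟩ : ∃ m, n = m + 1 := ⟨n - 1, by have := hodd.pos; omega⟩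
    rw [Fin.sum_univ_castSucc]
    have h1 : ∀ i : Fin m, (((dsgn (m + 1) (Fin.castSucc i) : ℤˣ) : ℤ) + 1) * y (Fin.castSucc i)
        = 2 * y (Fin.castSucc i) := by
      intro i
      have h2 : dsgn (m + 1) (Fin.castSucc i) = 1 := by
        unfold dsgn
        rw [if_neg]
        intro hcon
        have := i.isLt
        simp at hcon
        omega
      rw [h2]
      simp
    have h3 : (((dsgn (m + 1) (Fin.last m) : ℤˣ) : ℤ) + 1) * y (Fin.last m) = 0 := by
      have h2 : dsgn (m + 1) (Fin.last m) = -1 := by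
        unfold dsgn
        rw [if_pos ⟨by simp, hodd⟩]
      rw [h2]
      simp
    rw [Finset.sum_congr rfl (fun i _ => h1 i), h3, add_zero, ← Finset.mul_sum]
    have hm : Even m := by
      rcases Nat.even_or_odd m with h | h
      · exact h
      · exact absurd hodd (by rw [Nat.not_odd_iff_even]; exact Odd.add_one h)
    obtain ⟨r, hr⟩ := two_dvd_sum_of_same_parity hm (fun i => y (Fin.castSucc i))
      (fun i j => hy _ _)
    exact ⟨r, by rw [hr]; ring⟩
  · have h1 : ∀ i : Fin n, (((dsgn n i : ℤˣ) : ℤ) + 1) * y i = 2 * y i := by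
      intro i
      have h2 : dsgn n i = 1 := by
        unfold dsgn
        rw [if_neg (fun hcon => hodd hcon.2)]
      rw [h2]
      simp
    rw [Finset.sum_congr rfl (fun i _ => h1 i), ← Finset.mul_sum]
    obtain ⟨r, hr⟩ := two_dvd_sum_of_same_parity (Nat.not_odd_iff_even.mp hodd) y hy
    exact ⟨r, by rw [hr]; ring⟩

theorem inTwoQ_dual_swap {L M K : Fin n → ℤ} (hMw : IsWt M) (hKw : IsWt K)
    (hQ : InTwoQ (L + M - K)) : InTwoQ (dual K + L - dual M) := by
  refine ⟨fun i => ?_, ?_⟩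
  · have h1 := hQ.1 i
    simp only [Pi.add_apply, Pi.sub_apply, dual] at h1 ⊢
    rcases Int.units_eq_one_or (dsgn n i) with h2 | h2 <;> rw [h2] <;> simp <;> omega
  · have h1 := hQ.2
    have hsplit : ∑ i, (dual K + L - dual M) i
        = ∑ i, (L + M - K) i + ∑ i, (((dsgn n i : ℤˣ) : ℤ) + 1) * (K i - M i) := by
      rw [← Finset.sum_add_distrib]
      refine Finset.sum_congr rfl (fun i _ => ?_)
      simp only [Pi.add_apply, Pi.sub_apply, dual]
      ring
    rw [hsplit]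
    refine dvd_add h1 (four_dvd_sum_dsgn (fun i => K i - M i) (fun i j => ?_))
    have h2 := hKw i j
    have h3 := hMw i j
    omega

/-- Saturation when the third weight is a multiple of the vector weight or a half-spin
weight. -/
theorem third_sat (hn : 2 ≤ n) (L M K : Fin n → ℤ)
    (hKtype : (∀ i, |K i| = 1) ∨
      (∃ k : ℕ, ∀ i : Fin n, K i = if i.val = 0 then 2 * (k : ℤ) else 0))
    (hL : Dominant L) (hLw : IsWt L) (hM : Dominant M) (hMw : IsWt M) (hK : Dominant K)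
    (hQ : InTwoQ (L + M - K)) (N : ℕ) (hN : 1 ≤ N) (c cN : (Fin n → ℤ) →₀ ℤ)
    (hc : IsTensorMult L M c) (hcN : IsTensorMult (N • L) (N • M) cN)
    (h : cN (N • K) ≠ 0) : c K ≠ 0 := by
  have hKw : IsWt K := isWt_of_type hKtype
  have hdK : Dominant (dual K) := dominant_dual hK
  have hdKw : IsWt (dual K) := isWt_dual hKw
  obtain ⟨c1, hc1⟩ := exists_tensorMult (dual K) L hdK hdKw hLw
  obtain ⟨c1N, hc1N⟩ := exists_tensorMult (N • dual K) (N • L) (dominant_smul hdK N)
    (isWt_smul hdKw N) (isWt_smul hLw N)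
  have e1 : c K = c1 (dual M) := tensorMult_dual hL hLw hM hK hc (isTensorMult_comm hc1)
  have e2 : cN (N • K) = c1N (N • dual M) := by
    have h3 : IsTensorMult (N • L) (dual (N • K)) c1N := by
      rw [dual_nsmul]
      exact isTensorMult_comm hc1N
    have h4 := tensorMult_dual (dominant_smul hL N) (isWt_smul hLw N) (dominant_smul hM N)
      (dominant_smul hK N) hcN h3
    rw [h4, dual_nsmul]
  rw [e1]
  rw [e2] at h
  exact first_sat hn (dual K) L (dual M) (type_dual hn hKtype) hdK hL hLw (dominant_dual hM)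
    (inTwoQ_dual_swap hMw hKw hQ) N hN c1 c1N hc1 hc1N h

/-- Saturation when one of the three weights is a multiple of the vector weight or a half-spin
weight. -/
theorem any_sat (hn : 2 ≤ n) (L M K : Fin n → ℤ)
    (hL : Dominant L) (hLw : IsWt L) (hM : Dominant M) (hMw : IsWt M) (hK : Dominant K)
    (hQ : InTwoQ (L + M - K))
    (hsp : ∃ X : Fin n → ℤ, (X = L ∨ X = M ∨ X = K) ∧ ((∀ i, |X i| = 1) ∨
      (∃ k : ℕ, ∀ i : Fin n, X i = if i.val = 0 then 2 * (k : ℤ) else 0)))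
    (N : ℕ) (hN : 1 ≤ N) (c cN : (Fin n → ℤ) →₀ ℤ)
    (hc : IsTensorMult L M c) (hcN : IsTensorMult (N • L) (N • M) cN)
    (h : cN (N • K) ≠ 0) : c K ≠ 0 := by
  obtain ⟨X, hX, htype⟩ := hsp
  rcases hX with rfl | rfl | rfl
  · exact first_sat hn X M K htype hL hM hMw hK hQ N hN c cN hc hcN h
  · have hQ' : InTwoQ (X + L - K) := by rw [add_comm]; exact hQ
    exact first_sat hn X L K htype hM hL hLw hK hQ' N hN c cN (isTensorMult_comm hc)
      (isTensorMult_comm hcN) h
  · exact third_sat hn L M X htype hL hLw hM hMw hK hQ N hN c cN hc hcN h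

theorem isWt_third {L M Nu : Fin n → ℤ} (hLw : IsWt L) (hMw : IsWt M)
    (hQ : InTwoQ (L + M + Nu)) : IsWt Nu := by
  intro i j
  have h1 := hQ.1 i
  have h2 := hQ.1 j
  have h3 := hLw i j
  have h4 := hMw i j
  simp only [Pi.add_apply] at h1 h2
  omega

theorem inTwoQ_sub_dual {L M Nu : Fin n → ℤ} (hNuw : IsWt Nu) (hQ : InTwoQ (L + M + Nu)) :
    InTwoQ (L + M - dual Nu) := by
  refine ⟨fun i => ?_, ?_⟩
  · have h1 := hQ.1 i
    simp only [Pi.add_apply, Pi.sub_apply, dual] at h1 ⊢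
    rcases Int.units_eq_one_or (dsgn n i) with h2 | h2 <;> rw [h2] <;> simp <;> omega
  · have h1 := hQ.2
    have hsplit : ∑ i, (L + M - dual Nu) i
        = ∑ i, (L + M + Nu) i - ∑ i, (((dsgn n i : ℤˣ) : ℤ) + 1) * Nu i := by
      rw [← Finset.sum_sub_distrib]
      refine Finset.sum_congr rfl (fun i _ => ?_)
      simp only [Pi.add_apply, Pi.sub_apply, dual]
      ring
    rw [hsplit]
    exact dvd_sub h1 (four_dvd_sum_dsgn Nu hNuw)

/-- Saturation for triples `(L, M, Nu)` with `L + M + Nu` in the root lattice in which one of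
the three weights is a multiple of the vector weight or a half-spin weight; the third weight
enters through its dual. -/
theorem sym_sat (hn : 2 ≤ n) (L M Nu : Fin n → ℤ)
    (hL : Dominant L) (hLw : IsWt L) (hM : Dominant M) (hMw : IsWt M) (hNu : Dominant Nu)
    (hQ : InTwoQ (L + M + Nu))
    (hsp : ∃ X : Fin n → ℤ, (X = L ∨ X = M ∨ X = Nu) ∧ ((∀ i, |X i| = 1) ∨
      (∃ k : ℕ, ∀ i : Fin n, X i = if i.val = 0 then 2 * (k : ℤ) else 0)))
    (N : ℕ) (hN : 1 ≤ N) (c cN : (Fin n → ℤ) →₀ ℤ)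
    (hc : IsTensorMult L M c) (hcN : IsTensorMult (N • L) (N • M) cN)
    (h : cN (dual (N • Nu)) ≠ 0) : c (dual Nu) ≠ 0 := by
  have hNuw : IsWt Nu := isWt_third hLw hMw hQ
  rw [dual_nsmul] at h
  refine any_sat hn L M (dual Nu) hL hLw hM hMw (dominant_dual hNu) (inTwoQ_sub_dual hNuw hQ)
    ?_ N hN c cN hc hcN h
  obtain ⟨X, hX, htype⟩ := hsp
  rcases hX with rfl | rfl | rfl
  · exact ⟨X, Or.inl rfl, htype⟩
  · exact ⟨X, Or.inr (Or.inl rfl), htype⟩
  · exact ⟨dual X, Or.inr (Or.inr rfl), type_dual hn htype⟩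

end Vale.Agent.Lib.P182
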