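import Vale.Agent.Lib.P182.FrPos
import Vale.Agent.Lib.P182.GenDeep
import Vale.Agent.Lib.P182.Sym

/-!
# Saturation for deep pairs of weights

If one of the three weights is deep relative to another one, the tensor product multiplicity is
a weight multiplicity, and saturation follows from the description of the weights of an
irreducible representation.
-/

namespace Vale.Agent.Lib.P182

open Finset

variable {n : ℕ}

/-- Saturation when `M` is deep relative to `L`. -/
theorem generic_first (hn : 2 ≤ n) (L M K : Fin n → ℤ) (hL : Dominant L) (hLw : IsWt L)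
    (hK : Dominant K) (hQ : InTwoQ (L + M - K)) (hd : Deep L M) (N : ℕ) (hN : 1 ≤ N)
    (c cN : (Fin n → ℤ) →₀ ℤ) (hc : IsTensorMult L M c)
    (hcN : IsTensorMult (N • L) (N • M) cN) (h : cN (N • K) ≠ 0) : c K ≠ 0 := by
  obtain ⟨χ, hχ, -⟩ := exists_weylChar L hL hLw
  obtain ⟨χN, hχN, -⟩ := exists_weylChar (N • L) (dominant_smul hL N) (isWt_smul hLw N)
  have e1 : c K = χ.coeff (K - M) := deep_mult hχ hc hd hK
  have e2 : cN (N • K) = χN.coeff (N • K - N • M) :=
    deep_mult hχN hcN (deep_smul hd N) (dominant_smul hK N)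
  rw [e2] at h
  have h3 : InHull (N • L) (N • (K - M)) := by
    rw [smul_sub]
    exact weylChar_supp_hull hχN h
  have h4 : InHull L (K - M) := inHull_of_smul N hN h3
  have h5 : InTwoQ (L - (K - M)) := by
    have h6 : L - (K - M) = L + M - K := by abel
    rw [h6]
    exact hQ
  rw [e1]
  exact ne_of_gt (weylChar_pos hn hL hLw hχ h4 h5)

/-- Saturation when one of the first two weights is deep relative to the other. -/
theorem generic_pair (hn : 2 ≤ n) (L M K : Fin n → ℤ) (hL : Dominant L) (hLw : IsWt L)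
    (hM : Dominant M) (hMw : IsWt M) (hK : Dominant K) (hQ : InTwoQ (L + M - K))
    (hd : Deep L M ∨ Deep M L) (N : ℕ) (hN : 1 ≤ N)
    (c cN : (Fin n → ℤ) →₀ ℤ) (hc : IsTensorMult L M c)
    (hcN : IsTensorMult (N • L) (N • M) cN) (h : cN (N • K) ≠ 0) : c K ≠ 0 := by
  rcases hd with hd | hd
  · exact generic_first hn L M K hL hLw hK hQ hd N hN c cN hc hcN h
  · have hQ' : InTwoQ (M + L - K) := by
      rw [add_comm]
      exact hQ
    exact generic_first hn M L K hM hMw hK hQ' hd N hN c cN (isTensorMult_comm hc)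
      (isTensorMult_comm hcN) h

/-- Saturation when the dual of the third weight and the first weight form a deep pair. -/
theorem generic_third (hn : 2 ≤ n) (L M K : Fin n → ℤ) (hL : Dominant L) (hLw : IsWt L)
    (hM : Dominant M) (hMw : IsWt M) (hK : Dominant K) (hKw : IsWt K)
    (hQ : InTwoQ (L + M - K)) (hd : Deep (dual K) L ∨ Deep L (dual K)) (N : ℕ) (hN : 1 ≤ N)
    (c cN : (Fin n → ℤ) →₀ ℤ) (hc : IsTensorMult L M c)
    (hcN : IsTensorMult (N • L) (N • M) cN) (h : cN (N • K) ≠ 0) : c K ≠ 0 := by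
  have hdK : Dominant (dual K) := dominant_dual hK
  have hdKw : IsWt (dual K) := isWt_dual hKw
  obtain ⟨c1, hc1⟩ := exists_tensorMult (dual K) L hdK hdKw hLw
  obtain ⟨c1N, hc1N⟩ := exists_tensorMult (N • dual K) (N • L) (dominant_smul hdK N)
    (isWt_smul hdKw N) (isWt_smul hLw N)
  have e1 : c K = c1 (dual M) := tensorMult_dual hL hLw hM hK hc (isTensorMult_comm hc1)
  have e2 : cN (N • K) = c1N (N • dual M) := by
    have h3 : IsTensorMult (N • L) (dual (N • K)) c1N := by
      rw [dual_nsmul]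
      exact isTensorMult_comm hc1N
    have h4 := tensorMult_dual (dominant_smul hL N) (isWt_smul hLw N) (dominant_smul hM N)
      (dominant_smul hK N) hcN h3
    rw [h4, dual_nsmul]
  rw [e1]
  rw [e2] at h
  exact generic_pair hn (dual K) L (dual M) hdK hdKw hL hLw (dominant_dual hM)
    (inTwoQ_dual_swap hMw hKw hQ) hd N hN c1 c1N hc1 hc1N h

/-- Saturation for triples `(L, M, Nu)` with `L + M + Nu` in the root lattice in which one of
the three weights is deep relative to another one; the third weight enters through its dual. -/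
theorem generic_sat (hn : 2 ≤ n) (L M Nu : Fin n → ℤ)
    (hL : Dominant L) (hLw : IsWt L) (hM : Dominant M) (hMw : IsWt M) (hNu : Dominant Nu)
    (hQ : InTwoQ (L + M + Nu))
    (hdeep : Deep L M ∨ Deep M L ∨ Deep L Nu ∨ Deep Nu L ∨ Deep M Nu ∨ Deep Nu M)
    (N : ℕ) (hN : 1 ≤ N) (c cN : (Fin n → ℤ) →₀ ℤ)
    (hc : IsTensorMult L M c) (hcN : IsTensorMult (N • L) (N • M) cN)
    (h : cN (dual (N • Nu)) ≠ 0) : c (dual Nu) ≠ 0 := by
  have hNuw : IsWt Nu := isWt_third hLw hMw hQ
  rw [dual_nsmul] at h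
  have hK : Dominant (dual Nu) := dominant_dual hNu
  have hKw : IsWt (dual Nu) := isWt_dual hNuw
  have hQ1 : InTwoQ (L + M - dual Nu) := inTwoQ_sub_dual hNuw hQ
  rcases hdeep with hd | hd | hd | hd | hd | hd
  · exact generic_pair hn L M (dual Nu) hL hLw hM hMw hK hQ1 (Or.inl hd) N hN c cN hc hcN h
  · exact generic_pair hn L M (dual Nu) hL hLw hM hMw hK hQ1 (Or.inr hd) N hN c cN hc hcN h
  · refine generic_third hn L M (dual Nu) hL hLw hM hMw hK hKw hQ1 ?_ N hN c cN hc hcN h
    rw [dual_dual]
    exact Or.inr hd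
  · refine generic_third hn L M (dual Nu) hL hLw hM hMw hK hKw hQ1 ?_ N hN c cN hc hcN h
    rw [dual_dual]
    exact Or.inl hd
  · have hQ2 : InTwoQ (M + L - dual Nu) := by
      rw [add_comm M L]
      exact hQ1
    refine generic_third hn M L (dual Nu) hM hMw hL hLw hK hKw hQ2 ?_ N hN c cN
      (isTensorMult_comm hc) (isTensorMult_comm hcN) h
    rw [dual_dual]
    exact Or.inr hd
  · have hQ2 : InTwoQ (M + L - dual Nu) := by
      rw [add_comm M L]
      exact hQ1
    refine generic_third hn M L (dual Nu) hM hMw hL hLw hK hKw hQ2 ?_ N hN c cN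
      (isTensorMult_comm hc) (isTensorMult_comm hcN) h
    rw [dual_dual]
    exact Or.inl hd

end Vale.Agent.Lib.P182
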