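import Vale.Agent.Lib.P182.Coeff

namespace Vale.Agent.Lib.P182

open Finset

variable {n : ℕ}

theorem exists_le_le_perm (σ : Equiv.Perm (Fin n)) (i : Fin n) : ∃ j, j ≤ i ∧ i ≤ σ j := by
  by_contra hcon
  push Not at hcon
  have hmaps : ∀ j ∈ Finset.Iic i, σ j ∈ Finset.Iio i := by
    intro j hj
    exact Finset.mem_Iio.mpr (hcon j (Finset.mem_Iic.mp hj))
  have hcard := Finset.card_le_card_of_injOn σ hmaps (σ.injective.injOn)
  simp at hcard

theorem exists_ge_ge_perm (σ : Equiv.Perm (Fin n)) (i : Fin n) : ∃ j, i ≤ j ∧ σ j ≤ i := by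
  by_contra hcon
  push Not at hcon
  have hmaps : ∀ j ∈ Finset.Ici i, σ j ∈ Finset.Ioi i := by
    intro j hj
    exact Finset.mem_Ioi.mpr (hcon j (Finset.mem_Ici.mp hj))
  have hcard := Finset.card_le_card_of_injOn σ hmaps (σ.injective.injOn)
  simp at hcard
  omega

theorem abs_sub_of_mul_nonpos {a b : ℤ} (h : a * b ≤ 0) : |a - b| = |a| + |b| := by
  rcases le_total 0 a with ha | ha <;> rcases le_total 0 b with hb | hb
  · have : a = 0 ∨ b = 0 := by
      by_contra hcon
      push Not at hcon
      have : 0 < a * b := mul_pos (lt_of_le_of_ne ha (Ne.symm hcon.1)) (lt_of_le_of_ne hb (Ne.symm hcon.2))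
      omega
    rcases this with h0 | h0 <;> simp [h0]
  · rw [abs_of_nonneg ha, abs_of_nonpos hb, abs_of_nonneg (by omega)]; ring
  · rw [abs_of_nonpos ha, abs_of_nonneg hb, abs_of_nonpos (by omega)]; ring
  · have : a = 0 ∨ b = 0 := by
      by_contra hcon
      push Not at hcon
      have : 0 < a * b := mul_pos_of_neg_of_neg (lt_of_le_of_ne ha hcon.1) (lt_of_le_of_ne hb hcon.2)
      omega
    rcases this with h0 | h0 <;> simp [h0]

theorem abs_sub_of_mul_nonneg {a b : ℤ} (h : 0 ≤ a * b) : |a - b| = |(|a| - |b|)| := by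
  rcases le_total 0 a with ha | ha <;> rcases le_total 0 b with hb | hb
  · rw [abs_of_nonneg ha, abs_of_nonneg hb]
  · have : a = 0 ∨ b = 0 := by
      by_contra hcon
      push Not at hcon
      have : a * b < 0 := mul_neg_of_pos_of_neg (lt_of_le_of_ne ha (Ne.symm hcon.1)) (lt_of_le_of_ne hb hcon.2)
      omega
    rcases this with h0 | h0 <;> simp [h0]
  · have : a = 0 ∨ b = 0 := by
      by_contra hcon
      push Not at hcon
      have : a * b < 0 := mul_neg_of_neg_of_pos (lt_of_le_of_ne ha hcon.1) (lt_of_le_of_ne hb (Ne.symm hcon.2))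
      omega
    rcases this with h0 | h0 <;> simp [h0]
  · rw [abs_of_nonpos ha, abs_of_nonpos hb]
    rw [show -a - -b = -(a - b) by ring, abs_neg]

/-- Sorting lemma for the sup-norm: for strictly dominant `X`, `Y` and an element `(σ, e)` of the
Weyl group, `‖X - Y‖_∞ ≤ ‖X - (σ, e) Y‖_∞`. -/
theorem sort_bound {X Y : Fin n → ℤ} (hX : SDom X) (hY : SDom Y)
    (σ : Equiv.Perm (Fin n)) (e : Fin n → ℤˣ) (he : e ∈ evenSigns n) (B : ℤ)
    (h : ∀ i, |X i - wact σ e Y i| ≤ B) : ∀ i, |X i - Y i| ≤ B := by
  have hXanti : ∀ i j, i ≤ j → |X j| ≤ |X i| := by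
    intro i j hij
    rcases hij.lt_or_eq with h1 | h1
    · exact le_trans (le_of_lt (hX i j h1)) (le_abs_self _)
    · rw [h1]
  have hYanti : ∀ i j, i ≤ j → |Y j| ≤ |Y i| := by
    intro i j hij
    rcases hij.lt_or_eq with h1 | h1
    · exact le_trans (le_of_lt (hY i j h1)) (le_abs_self _)
    · rw [h1]
  have habs : ∀ j, |(|X j| - |Y (σ j)|)| ≤ B := by
    intro j
    have h1 := abs_abs_sub_abs_le (X j) (wact σ e Y j)
    rw [abs_wact] at h1
    exact le_trans h1 (h j)
  have hunsigned : ∀ i, |(|X i| - |Y i|)| ≤ B := by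
    intro i
    rw [abs_le]
    constructor
    · obtain ⟨j, hj1, hj2⟩ := exists_ge_ge_perm σ i
      have h1 := (abs_le.mp (habs j)).1
      have h2 := hXanti i j hj1
      have h3 := hYanti (σ j) i hj2
      linarith
    · obtain ⟨j, hj1, hj2⟩ := exists_le_le_perm σ i
      have h1 := (abs_le.mp (habs j)).2
      have h2 := hXanti j i hj1
      have h3 := hYanti i (σ j) hj2
      linarith
  intro i
  by_cases hlast : ∃ j, i < j
  · obtain ⟨j, hij⟩ := hlast
    have h1 : 0 < X i := lt_of_le_of_lt (abs_nonneg _) (hX i j hij)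
    have h2 : 0 < Y i := lt_of_le_of_lt (abs_nonneg _) (hY i j hij)
    rw [abs_sub_of_mul_nonneg (le_of_lt (mul_pos h1 h2))]
    exact hunsigned i
  · push Not at hlast
    by_cases hsign : 0 ≤ X i * Y i
    · rw [abs_sub_of_mul_nonneg hsign]
      exact hunsigned i
    · push Not at hsign
      have hposX : ∀ j, j ≠ i → 0 < X j := by
        intro j hj
        exact lt_of_le_of_lt (abs_nonneg _) (hX j i (lt_of_le_of_ne (hlast j) hj))
      have hposY : ∀ j, j ≠ i → 0 < Y j := by
        intro j hj
        exact lt_of_le_of_lt (abs_nonneg _) (hY j i (lt_of_le_of_ne (hlast j) hj))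
      have hex : ∃ j, X j * wact σ e Y j ≤ 0 := by
        by_contra hcon
        push Not at hcon
        have hpos : 0 < ∏ j, X j * wact σ e Y j := Finset.prod_pos (fun j _ => hcon j)
        have hprodw : ∏ j, wact σ e Y j = ∏ j, Y j := by
          simp only [wact]
          rw [Finset.prod_mul_distrib, Equiv.prod_comp σ Y]
          have : ∏ j, ((e j : ℤˣ) : ℤ) = 1 := by
            rw [← Units.coe_prod, mem_evenSigns.mp he]
            simp
          rw [this, one_mul]
        rw [Finset.prod_mul_distrib, hprodw, ← Finset.prod_mul_distrib] at hpos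
        rw [← Finset.mul_prod_erase Finset.univ _ (Finset.mem_univ i)] at hpos
        have hrest : 0 < ∏ j ∈ Finset.univ.erase i, X j * Y j := by
          apply Finset.prod_pos
          intro j hj
          have hji : j ≠ i := (Finset.mem_erase.mp hj).1
          exact mul_pos (hposX j hji) (hposY j hji)
        nlinarith
      obtain ⟨j, hj⟩ := hex
      have h1 := abs_sub_of_mul_nonpos hj
      have h2 := h j
      rw [h1, abs_wact] at h2
      have h3 := hXanti j i (hlast j)
      have h4 := hYanti (σ j) i (hlast (σ j))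
      have h5 := abs_sub (X i) (Y i)
      linarith

end Vale.Agent.Lib.P182
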