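import Vale.Agent.Lib.P182.Lead
import Vale.Agent.Lib.P182.Sort

namespace Vale.Agent.Lib.P182

open Finset

variable {n : ℕ}

/-- A sign vector as an integer vector. -/
def sv (s : Fin n → ℤˣ) : Fin n → ℤ := fun i => ((s i : ℤˣ) : ℤ)

/-- Sign vectors with prescribed product. -/
def signsProd (n : ℕ) (p : ℤˣ) : Finset (Fin n → ℤˣ) :=
  Finset.univ.filter fun s => ∏ i, s i = p

theorem mem_signsProd {p : ℤˣ} {s : Fin n → ℤˣ} : s ∈ signsProd n p ↔ ∏ i, s i = p := by
  simp [signsProd]

theorem sv_injective : Function.Injective (sv : (Fin n → ℤˣ) → (Fin n → ℤ)) := by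
  intro s t h
  funext i
  exact Units.ext (congrFun h i)

theorem rho2_nonneg (i : Fin n) : 0 ≤ rho2 n i := by
  have := i.isLt
  simp only [rho2]
  omega

theorem rho2_le (i : Fin n) : rho2 n i ≤ 2 * ((n : ℤ) - 1) := by
  simp only [rho2]
  omega

theorem rho2_lt {i j : Fin n} (hij : i < j) : rho2 n j + 2 ≤ rho2 n i := by
  have : (i : ℕ) < (j : ℕ) := hij
  simp only [rho2]
  omega

theorem sdom_add_rho2 {K : Fin n → ℤ} (hK : Dominant K) : SDom (K + rho2 n) := by
  intro i j hij
  have h1 := hK i j hij
  have h2 := rho2_lt hij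
  have h3 := rho2_nonneg j
  have h4 := abs_add_le (K j) (rho2 n j)
  rw [abs_of_nonneg h3] at h4
  simp only [Pi.add_apply]
  omega

theorem dominant_smul {K : Fin n → ℤ} (hK : Dominant K) (N : ℕ) : Dominant (N • K) := by
  intro i j hij
  have h1 := hK i j hij
  simp only [Pi.smul_apply, nsmul_eq_mul]
  rw [abs_mul, abs_of_nonneg (by positivity : (0 : ℤ) ≤ (N : ℤ))]
  exact mul_le_mul_of_nonneg_left h1 (by positivity)

theorem sv_ge (s : Fin n → ℤˣ) (i : Fin n) : -1 ≤ sv s i ∧ sv s i ≤ 1 := by
  have := units_abs (s i)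
  simp only [sv]
  constructor
  · have := neg_abs_le ((s i : ℤˣ) : ℤ); omega
  · have := le_abs_self ((s i : ℤˣ) : ℤ); omega

theorem dominant_add_rho2_add_sv {M : Fin n → ℤ} (hM : Dominant M) (s : Fin n → ℤˣ) :
    Dominant (M + rho2 n + sv s) := by
  intro i j hij
  have h1 := hM i j hij
  have h2 := rho2_lt hij
  have h3 := rho2_nonneg j
  have h4 := abs_add_three (M j) (rho2 n j) (sv s j)
  rw [abs_of_nonneg h3] at h4
  have h5 : |sv s j| = 1 := units_abs (s j)
  have h6 := (sv_ge s i).1
  simp only [Pi.add_apply]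
  omega

/-- Multiplying an alternant by a Weyl-invariant sum of exponentials. -/
theorem sum_single_mul_alt {ι : Type*} (S : Finset ι) (b : ι → Fin n → ℤ)
    (hst : ∀ σ : Equiv.Perm (Fin n), ∀ e ∈ evenSigns n,
      ∑ s ∈ S, AddMonoidAlgebra.single (wact σ e (b s)) (1 : ℤ)
        = ∑ s ∈ S, AddMonoidAlgebra.single (b s) (1 : ℤ))
    (v : Fin n → ℤ) :
    (∑ s ∈ S, AddMonoidAlgebra.single (b s) (1 : ℤ)) * alt v = ∑ s ∈ S, alt (v + b s) := by
  have h1 : ∀ s, alt (v + b s) = ∑ σ : Equiv.Perm (Fin n), ∑ e ∈ evenSigns n,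
      AddMonoidAlgebra.single (wact σ e v) ((Equiv.Perm.sign σ : ℤˣ) : ℤ)
        * AddMonoidAlgebra.single (wact σ e (b s)) (1 : ℤ) := by
    intro s
    unfold alt
    refine Finset.sum_congr rfl (fun σ _ => Finset.sum_congr rfl (fun e _ => ?_))
    rw [AddMonoidAlgebra.single_mul_single, wact_add, mul_one]
  simp_rw [h1]
  rw [Finset.sum_comm]
  have h2 : ∀ σ : Equiv.Perm (Fin n), ∑ s ∈ S, ∑ e ∈ evenSigns n,
      AddMonoidAlgebra.single (wact σ e v) ((Equiv.Perm.sign σ : ℤˣ) : ℤ)
        * AddMonoidAlgebra.single (wact σ e (b s)) (1 : ℤ)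
      = (∑ e ∈ evenSigns n, AddMonoidAlgebra.single (wact σ e v) ((Equiv.Perm.sign σ : ℤˣ) : ℤ))
        * ∑ s ∈ S, AddMonoidAlgebra.single (b s) (1 : ℤ) := by
    intro σ
    rw [Finset.sum_comm, Finset.sum_mul]
    refine Finset.sum_congr rfl (fun e he => ?_)
    rw [← Finset.mul_sum, hst σ e he]
  simp_rw [h2]
  rw [← Finset.sum_mul, mul_comm]
  rfl

theorem wact_sv (σ : Equiv.Perm (Fin n)) (e s : Fin n → ℤˣ) :
    wact σ e (sv s) = sv (fun i => e i * s (σ i)) := by
  funext i
  simp [wact, sv]

theorem signsProd_stable (p : ℤˣ) (σ : Equiv.Perm (Fin n)) (e : Fin n → ℤˣ)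
    (he : e ∈ evenSigns n) :
    ∑ s ∈ signsProd n p, AddMonoidAlgebra.single (wact σ e (sv s)) (1 : ℤ)
      = ∑ s ∈ signsProd n p, AddMonoidAlgebra.single (sv s) (1 : ℤ) := by
  refine Finset.sum_bij' (fun s _ => fun i => e i * s (σ i))
    (fun s _ => fun i => e (σ.symm i) * s (σ.symm i)) ?_ ?_ ?_ ?_ ?_
  · intro s hs
    rw [mem_signsProd] at hs ⊢
    rw [Finset.prod_mul_distrib, mem_evenSigns.mp he, one_mul, Equiv.prod_comp σ s, hs]
  · intro s hs
    rw [mem_signsProd] at hs ⊢
    rw [Equiv.prod_comp σ.symm (fun i => e i * s i), Finset.prod_mul_distrib,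
      mem_evenSigns.mp he, one_mul, hs]
  · intro s _
    funext i
    simp only [Equiv.apply_symm_apply]
    rw [← mul_assoc, Int.units_mul_self, one_mul]
  · intro s _
    funext i
    simp only [Equiv.symm_apply_apply]
    rw [← mul_assoc, Int.units_mul_self, one_mul]
  · intro s _
    rw [wact_sv]

/-- The orbit sum of a half-spin weight. -/
noncomputable def orb (n : ℕ) (p : ℤˣ) : AddMonoidAlgebra ℤ (Fin n → ℤ) :=
  ∑ s ∈ signsProd n p, AddMonoidAlgebra.single (sv s) (1 : ℤ)

theorem orb_mul_alt (p : ℤˣ) (v : Fin n → ℤ) :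
    orb n p * alt v = ∑ s ∈ signsProd n p, alt (v + sv s) :=
  sum_single_mul_alt (signsProd n p) sv (signsProd_stable p) v

theorem exists_adjacent (s : Fin n → ℤˣ) : ∀ (d : ℕ) (i j : Fin n), j.val = i.val + d + 1 →
    s i = -1 → s j = 1 →
    ∃ k : Fin n, ∃ hk : k.val + 1 < n, s k = -1 ∧ s ⟨k.val + 1, hk⟩ = 1 := by
  intro d
  induction d with
  | zero =>
    intro i j hd hi hj
    have hlt : i.val + 1 < n := by have := j.isLt; omega
    refine ⟨i, hlt, hi, ?_⟩
    have : (⟨i.val + 1, hlt⟩ : Fin n) = j := Fin.ext (by simp [hd])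
    rw [this]; exact hj
  | succ d ih =>
    intro i j hd hi hj
    have hm : i.val + 1 < n := by have := j.isLt; omega
    rcases Int.units_eq_one_or (s ⟨i.val + 1, hm⟩) with h1 | h1
    · exact ⟨i, hm, hi, h1⟩
    · exact ih ⟨i.val + 1, hm⟩ j (by simp; omega) h1 hj

/-- Weyl's character formula for the half-spin representations: the orbit sum times the
denominator is the alternant of the shifted highest weight. -/
theorem orb_mul_alt_rho2 (hn : 2 ≤ n) (u : Fin n → ℤˣ) (hu : Dominant (sv u)) :
    orb n (∏ i, u i) * alt (rho2 n) = alt (sv u + rho2 n) := by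
  rw [orb_mul_alt, add_comm (sv u)]
  apply Finset.sum_eq_single u
  · intro s hs hsu
    rw [mem_signsProd] at hs
    by_cases hpat : ∃ k : Fin n, ∃ hk : k.val + 1 < n, s k = -1 ∧ s ⟨k.val + 1, hk⟩ = 1
    · obtain ⟨k, hk, h1, h2⟩ := hpat
      apply alt_eq_zero_of_eq (i := k) (j := ⟨k.val + 1, hk⟩)
      · intro hcon
        have := congrArg Fin.val hcon
        simp at this
      · simp only [Pi.add_apply, sv, rho2, h1, h2]
        push_cast
        ring
    · push Not at hpat
      have ha : n - 2 < n := by omega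
      have hz : n - 1 < n := by omega
      set a : Fin n := ⟨n - 2, ha⟩ with hadef
      set z : Fin n := ⟨n - 1, hz⟩ with hzdef
      have haz : a < z := by
        show n - 2 < n - 1
        omega
      have hz' : (⟨a.val + 1, by show n - 2 + 1 < n; omega⟩ : Fin n) = z :=
        Fin.ext (by show n - 2 + 1 = n - 1; omega)
      rcases Int.units_eq_one_or (s a) with hsa | hsa
      · exfalso
        apply hsu
        have hs1 : ∀ i, i ≠ z → s i = 1 := by
          intro i hiz
          rcases Int.units_eq_one_or (s i) with h1 | h1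
          · exact h1
          · exfalso
            have hia : i ≠ a := by
              intro hcon
              rw [hcon, hsa] at h1
              exact absurd h1 (by decide)
            have hival : i.val < n - 2 := by
              have h1 : i.val ≠ n - 1 := fun hc => hiz (Fin.ext hc)
              have h2 : i.val ≠ n - 2 := fun hc => hia (Fin.ext hc)
              have := i.isLt
              omega
            obtain ⟨k, hk, hk1, hk2⟩ := exists_adjacent s (n - 2 - i.val - 1) i a
              (by show n - 2 = i.val + (n - 2 - i.val - 1) + 1; omega) h1 hsa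
            exact hpat k hk hk1 hk2
        have hu1 : ∀ i, i ≠ z → u i = 1 := by
          intro i hiz
          have hlt : i < z := by
            have h1 : i.val ≠ n - 1 := fun hc => hiz (Fin.ext hc)
            have := i.isLt
            show i.val < n - 1
            omega
          have h2 := hu i z hlt
          have h3 : |sv u z| = 1 := units_abs (u z)
          rcases Int.units_eq_one_or (u i) with h1 | h1
          · exact h1
          · exfalso
            simp only [sv, h1] at h2 h3
            rw [h3] at h2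
            simp at h2
        have hps : ∏ i, s i = s z := by
          apply Finset.prod_eq_single z
          · intro k _ hkz
            exact hs1 k hkz
          · intro hcon
            exact absurd (Finset.mem_univ z) hcon
        have hpu : ∏ i, u i = u z := by
          apply Finset.prod_eq_single z
          · intro k _ hkz
            exact hu1 k hkz
          · intro hcon
            exact absurd (Finset.mem_univ z) hcon
        funext i
        by_cases hiz : i = z
        · rw [hiz, ← hps, ← hpu, hs]
        · rw [hs1 i hiz, hu1 i hiz]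
      · have hsz : s z = -1 := by
          rcases Int.units_eq_one_or (s z) with h1 | h1
          · exfalso
            apply hpat a (by show n - 2 + 1 < n; omega) hsa
            rw [hz']
            exact h1
          · exact h1
        apply alt_eq_zero_of_eq_neg (i := a) (j := z) (ne_of_lt haz)
        have e1 : sv s a = -1 := by simp [sv, hsa]
        have e2 : sv s z = -1 := by simp [sv, hsz]
        have e3 : rho2 n a = 2 := by
          have : ((n - 2 : ℕ) : ℤ) = (n : ℤ) - 2 := by omega
          simp only [rho2, hadef, this]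
          ring
        have e4 : rho2 n z = 0 := by
          have : ((n - 1 : ℕ) : ℤ) = (n : ℤ) - 1 := by omega
          simp only [rho2, hzdef, this]
          ring
        simp only [Pi.add_apply, e1, e2, e3, e4]
        norm_num
  · intro hcon
    exfalso
    exact hcon (mem_signsProd.mpr rfl)

end Vale.Agent.Lib.P182
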