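import Vale.Agent.Lib.P182.HalfSpinSat
import Vale.Agent.Lib.P182.Exist3

namespace Vale.Agent.Lib.P182

open Finset

variable {n : ℕ}

theorem isWt_smul {v : Fin n → ℤ} (h : IsWt v) (N : ℕ) : IsWt (N • v) := by
  intro i j
  have h0 := h i j
  simp only [Pi.smul_apply, nsmul_eq_mul]
  rw [← mul_sub]
  exact Dvd.dvd.mul_left h0 _

theorem isWt_of_abs_one {L : Fin n → ℤ} (hL1 : ∀ i, |L i| = 1) : IsWt L := by
  intro i j
  have h1 := hL1 i
  have h2 := hL1 j
  rcases abs_eq (by norm_num : (0 : ℤ) ≤ 1) |>.mp h1 with h3 | h3 <;>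
    rcases abs_eq (by norm_num : (0 : ℤ) ≤ 1) |>.mp h2 with h4 | h4 <;>
    rw [h3, h4] <;> norm_num

/-- Saturation for tensor products with a half-spin representation. -/
theorem halfspin_sat (hn : 2 ≤ n) (L M K : Fin n → ℤ)
    (hL1 : ∀ i, |L i| = 1) (hL : Dominant L) (hM : Dominant M) (hK : Dominant K)
    (hQ : InTwoQ (L + M - K)) (N : ℕ) (hN : 1 ≤ N) (c cN : (Fin n → ℤ) →₀ ℤ)
    (hc : IsTensorMult L M c) (hcN : IsTensorMult (N • L) (N • M) cN)
    (h : cN (N • K) ≠ 0) : c K ≠ 0 := by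
  have hW : IsWt L := isWt_of_abs_one hL1
  obtain ⟨χ, hχ, _⟩ := exists_weylChar L hL hW
  obtain ⟨χN, hχN, _⟩ := exists_weylChar (N • L) (dominant_smul hL N) (isWt_smul hW N)
  have hd := tensorDecomp_of_tensorMult hχ hc
  have hdN := tensorDecomp_of_tensorMult hχN hcN
  set u : Fin n → ℤˣ := fun i => if L i = 1 then 1 else -1 with hu
  have hsv : sv u = L := by
    funext i
    have h1 := hL1 i
    rcases abs_eq (by norm_num : (0 : ℤ) ≤ 1) |>.mp h1 with h2 | h2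
    · simp [sv, hu, h2]
    · simp [sv, hu, h2]
  rw [← hsv] at hL hQ hχ hχN
  exact halfspin_sat_chi hn u hL M K hM hK hQ N hN χ χN c cN hχ hd.1 hd.2 hχN hdN.1 hdN.2 h

end Vale.Agent.Lib.P182
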