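import Vale.Agent.Lib.P182.HalfSpinMain

namespace Vale.Agent.Lib.P182

open Finset

variable {n : ℕ}

/-- Multiplicity one in the tensor product with a half-spin representation. -/
theorem halfspin_mult_one (hn : 2 ≤ n) (u : Fin n → ℤˣ) (hu : Dominant (sv u))
    (M K : Fin n → ℤ) (hM : Dominant M) (hK : Dominant K)
    (χ : AddMonoidAlgebra ℤ (Fin n → ℤ)) (c : (Fin n → ℤ) →₀ ℤ)
    (hχ : χ * alt (rho2 n) = alt (sv u + rho2 n))
    (hcd : ∀ K' ∈ c.support, Dominant K')
    (hc : χ * alt (M + rho2 n) = ∑ K' ∈ c.support, c K' • alt (K' + rho2 n))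
    (s : Fin n → ℤˣ) (hs : ∏ i, s i = ∏ i, u i) (hKM : K = M + sv s) : c K = 1 := by
  classical
  have hχeq : χ = orb n (∏ i, u i) :=
    mul_right_cancel₀ alt_rho2_ne_zero (hχ.trans (orb_mul_alt_rho2 hn u hu).symm)
  have h1 : (∑ s' ∈ signsProd n (∏ i, u i), alt (M + rho2 n + sv s')).coeff (K + rho2 n) = c K := by
    rw [← orb_mul_alt, ← hχeq, hc, coeff_sum_alt c hcd K hK]
  rw [← h1, AddMonoidAlgebra.coeff_sum, Finsupp.finsetSum_apply]
  have h2 : ∀ s' ∈ signsProd n (∏ i, u i), (alt (M + rho2 n + sv s')).coeff (K + rho2 n)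
      = if s' = s then 1 else 0 := by
    intro s' _
    rw [alt_coeff_dom (dominant_add_rho2_add_sv hM s') (sdom_add_rho2 hK)]
    by_cases h : s' = s
    · rw [if_pos h, if_pos]
      rw [h, hKM]
      abel
    · rw [if_neg h, if_neg]
      intro hcon
      apply h
      apply sv_injective
      rw [hKM] at hcon
      have h3 : M + rho2 n + sv s' = M + rho2 n + sv s := by rw [hcon]; abel
      exact add_left_cancel h3
  rw [Finset.sum_congr rfl h2, Finset.sum_ite_eq']
  rw [if_pos (mem_signsProd.mpr hs)]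

/-- Saturation for tensor products with a half-spin representation, in terms of characters. -/
theorem halfspin_sat_chi (hn : 2 ≤ n) (u : Fin n → ℤˣ) (hu : Dominant (sv u))
    (M K : Fin n → ℤ) (hM : Dominant M) (hK : Dominant K) (hQ : InTwoQ (sv u + M - K))
    (N : ℕ) (hN : 1 ≤ N)
    (χ χN : AddMonoidAlgebra ℤ (Fin n → ℤ)) (c cN : (Fin n → ℤ) →₀ ℤ)
    (hχ : χ * alt (rho2 n) = alt (sv u + rho2 n))
    (hcd : ∀ K' ∈ c.support, Dominant K')
    (hc : χ * alt (M + rho2 n) = ∑ K' ∈ c.support, c K' • alt (K' + rho2 n))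
    (hχN : χN * alt (rho2 n) = alt (N • sv u + rho2 n))
    (hcNd : ∀ K' ∈ cN.support, Dominant K')
    (hcN : χN * alt (N • M + rho2 n) = ∑ K' ∈ cN.support, cN K' • alt (K' + rho2 n))
    (h : cN (N • K) ≠ 0) : c K ≠ 0 := by
  classical
  have h1 : (χN * alt (N • M + rho2 n)).coeff (N • K + rho2 n) ≠ 0 := by
    rw [hcN, coeff_sum_alt cN hcNd (N • K) (dominant_smul hK N)]
    exact h
  have h2 := AddMonoidAlgebra.support_coeff_mul_subset χN (alt (N • M + rho2 n))
    (Finsupp.mem_support_iff.mpr h1)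
  obtain ⟨β, hβ, q, hq, hsum⟩ := Finset.mem_add.mp h2
  obtain ⟨σ, e, he, hw⟩ := exists_of_mem_support_alt hq
  have hb := supp_bound hn u N χN hχN β hβ
  have hsort := sort_bound (sdom_add_rho2 (dominant_smul hK N))
    (sdom_add_rho2 (dominant_smul hM N)) σ e he N (by
      intro i
      have h3 := congrFun hsum i
      rw [hw]
      have h4 : (N • K + rho2 n) i - q i = β i := by
        rw [← h3]; simp
      rw [h4]
      exact hb i)
  have hNpos : (0 : ℤ) < N := by exact_mod_cast hN
  have hdiff : ∀ i, |K i - M i| ≤ 1 := by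
    intro i
    have h3 := hsort i
    have h4 : (N • K + rho2 n) i - (N • M + rho2 n) i = (N : ℤ) * (K i - M i) := by
      simp; ring
    rw [h4, abs_mul, abs_of_pos hNpos] at h3
    by_contra hcon
    push Not at hcon
    nlinarith
  have hodd : ∀ i, K i - M i = 1 ∨ K i - M i = -1 := by
    intro i
    have h3 := hQ.1 i
    have h4 := abs_le.mp (hdiff i)
    have h5 : sv u i = 1 ∨ sv u i = -1 := by
      rcases Int.units_eq_one_or (u i) with h | h <;> simp [sv, h]
    simp only [Pi.add_apply, Pi.sub_apply] at h3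
    rcases h5 with h5 | h5 <;> rw [h5] at h3 <;> omega
  set s : Fin n → ℤˣ := fun i => if K i - M i = 1 then 1 else -1 with hsdef
  have hsv : ∀ i, sv s i = K i - M i := by
    intro i
    rcases hodd i with h3 | h3
    · simp [sv, hsdef, h3]
    · simp [sv, hsdef, h3]
  have hprod : ∏ i, u i = ∏ i, s i := by
    apply prod_eq_of_four_dvd
    have h3 := hQ.2
    have h4 : ∑ i, (sv u + M - K) i = ∑ i, (((u i : ℤˣ) : ℤ) - ((s i : ℤˣ) : ℤ)) := by
      refine Finset.sum_congr rfl (fun i _ => ?_)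
      have h5 := hsv i
      simp only [sv] at h5
      simp only [Pi.add_apply, Pi.sub_apply, sv]
      rw [h5]; ring
    rw [h4] at h3
    exact h3
  have hKM : K = M + sv s := by
    funext i
    simp only [Pi.add_apply]
    rw [hsv i]; ring
  rw [halfspin_mult_one hn u hu M K hM hK χ c hχ hcd hc s hprod.symm hKM]
  exact one_ne_zero

end Vale.Agent.Lib.P182
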