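import Vale.Agent.Lib.P182.Coeff

namespace Vale.Agent.Lib.P182

open Finset

variable {n : ℕ}

/-- Leading-term estimate: if `f * g = h`, every exponent of `h` has `key ≤ kB`, and some
exponent of `g` has `key ≥ kA`, then every exponent of `f` has `key ≤ kB - kA`. -/
theorem key_bound (key : (Fin n → ℤ) →+ ℤ) (f g : AddMonoidAlgebra ℤ (Fin n → ℤ)) (kA kB : ℤ)
    (hB : ∀ c ∈ (f * g).coeff.support, key c ≤ kB)
    (hA : ∃ a ∈ g.coeff.support, kA ≤ key a) :
    ∀ b ∈ f.coeff.support, key b ≤ kB - kA := by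
  classical
  intro b hb
  obtain ⟨a, ha, hka⟩ := hA
  let D : (Fin n → ℤ) → ℤ ×ₗ Lex (Fin n → ℤ) := fun v => toLex (key v, toLex v)
  have hDinj : Function.Injective D := by
    intro x y hxy
    have := congrArg (fun p => (ofLex p).2) hxy
    simpa [D] using this
  have hDadd : ∀ x y, D (x + y) = D x + D y := by
    intro x y
    simp [D]
    rfl
  obtain ⟨b0, hb0, hb0max⟩ := Finset.exists_max_image f.coeff.support D ⟨b, hb⟩
  obtain ⟨a0, ha0, ha0max⟩ := Finset.exists_max_image g.coeff.support D ⟨a, ha⟩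
  have huniq : UniqueAdd f.coeff.support g.coeff.support b0 a0 := by
    intro b' a' hb' ha' hsum
    have h1 := hb0max b' hb'
    have h2 := ha0max a' ha'
    have h3 : D b' + D a' = D b0 + D a0 := by rw [← hDadd, ← hDadd, hsum]
    have h4 : D b' = D b0 := by
      rcases h1.lt_or_eq with h | h
      · exfalso
        have : D b' + D a' < D b0 + D a0 := add_lt_add_of_lt_of_le h h2
        exact absurd h3 (ne_of_lt this)
      · exact h
    have h5 : D a' = D a0 := by
      rw [h4] at h3
      exact add_left_cancel h3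
    exact ⟨hDinj h4, hDinj h5⟩
  have hmul := AddMonoidAlgebra.coeff_mul_add_of_uniqueAdd huniq
  have hne : (f * g).coeff (b0 + a0) ≠ 0 := by
    rw [hmul]
    exact mul_ne_zero (Finsupp.mem_support_iff.mp hb0) (Finsupp.mem_support_iff.mp ha0)
  have hsum := hB (b0 + a0) (Finsupp.mem_support_iff.mpr hne)
  have hkey : ∀ x y, D x ≤ D y → key x ≤ key y := by
    intro x y hxy
    rcases Prod.Lex.le_iff.mp hxy with h | h
    · exact le_of_lt h
    · exact le_of_eq h.1
  have e1 := hkey b b0 (hb0max b hb)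
  have e2 := hkey a a0 (ha0max a ha)
  rw [map_add] at hsum
  linarith

end Vale.Agent.Lib.P182
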