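import Vale.Agent.Lib.P182.PieriRing

/-!
# The character of the multiples of the vector weight and the Pieri rule
-/

namespace Vale.Agent.Lib.P182

open Finset Polynomial

theorem rho2_castSucc {m : ℕ} (i : Fin m) :
    rho2 (m + 1) i.castSucc = rho2 (m + 1) i.succ + 2 := by
  simp only [rho2, Fin.val_castSucc, Fin.val_succ]
  push_cast
  ring

theorem smul_vec_zero {m : ℕ} (k : ℕ) : (k • vec (m + 1)) 0 = 2 * (k : ℤ) := by
  simp [vec]
  ring

theorem smul_vec_succ {m : ℕ} (k : ℕ) (i : Fin m) : (k • vec (m + 1)) i.succ = 0 := by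
  simp [vec]

theorem rho2_or_nonneg {m : ℕ} {K : Fin (m + 1) → ℤ} (hK : Dominant K) (i : Fin m) :
    rho2 (m + 1) i.succ = 0 ∨ 0 ≤ K i.succ := by
  rcases eq_or_lt_of_le (Fin.le_last i.succ) with h | h
  · left
    apply rho2_last
    intro j
    rw [h]
    exact Fin.le_last j
  · right
    have := hK _ _ h
    have := abs_nonneg (K (Fin.last m))
    omega

/-- The polynomial `bpoly` when the second argument is `2ρ`. -/
theorem bpoly_rho (m k : ℕ) (K : Fin (m + 1) → ℤ) (hK : Dominant K) (hpar : ∀ i, 2 ∣ K i)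
    (h0 : 0 ≤ K 0) :
    (bpoly (K + rho2 (m + 1)) (rho2 (m + 1))).coeff k = if K = k • vec (m + 1) then 1 else 0 := by
  have hlt : ∀ i : Fin m, i.castSucc < i.succ := fun i => by
    rw [Fin.lt_def]; simp
  by_cases hA : ∃ i : Fin m, K i.succ ≠ 0
  · obtain ⟨i, hi⟩ := hA
    have hne : K ≠ k • vec (m + 1) := by
      intro h
      apply hi
      rw [h, smul_vec_succ]
    rw [if_neg hne]
    unfold bpoly
    by_cases hc : ∀ i : Fin m, |rho2 (m + 1) i.succ| ≤ (K + rho2 (m + 1)) i.castSucc
        ∧ |(K + rho2 (m + 1)) i.succ| ≤ rho2 (m + 1) i.castSucc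
    · rw [if_pos hc]
      have hz : ∏ i : Fin m, ∑ j ∈ Finset.range
          ((min (rho2 (m + 1) i.castSucc) ((K + rho2 (m + 1)) i.castSucc)
            - max |rho2 (m + 1) i.succ| |(K + rho2 (m + 1)) i.succ|).toNat / 2),
          (X ^ 2 : Polynomial ℤ) ^ j = 0 := by
        apply Finset.prod_eq_zero (Finset.mem_univ i)
        have h1 := rho2_castSucc i
        have h2 := rho2_nonneg (n := m + 1) i.succ
        have h3 := rho2_or_nonneg hK i
        have h4 := hpar i.succ
        have h5 : rho2 (m + 1) i.succ + 2 ≤ |(K + rho2 (m + 1)) i.succ| := by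
          simp only [Pi.add_apply]
          rcases abs_cases (K i.succ + rho2 (m + 1) i.succ) with ⟨h6, _⟩ | ⟨h6, _⟩ <;> omega
        have h7 : (min (rho2 (m + 1) i.castSucc) ((K + rho2 (m + 1)) i.castSucc)
            - max |rho2 (m + 1) i.succ| |(K + rho2 (m + 1)) i.succ|).toNat / 2 = 0 := by
          have h8 := min_le_left (rho2 (m + 1) i.castSucc) ((K + rho2 (m + 1)) i.castSucc)
          have h9 := le_max_right |rho2 (m + 1) i.succ| |(K + rho2 (m + 1)) i.succ|
          omega
        rw [h7]
        simp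
      rw [hz, mul_zero, Polynomial.coeff_zero]
    · rw [if_neg hc, Polynomial.coeff_zero]
  · push Not at hA
    have hKc : ∀ i : Fin m, 0 ≤ K i.castSucc := by
      intro i
      have := hK _ _ (hlt i)
      have := abs_nonneg (K i.succ)
      omega
    have hc : ∀ i : Fin m, |rho2 (m + 1) i.succ| ≤ (K + rho2 (m + 1)) i.castSucc
        ∧ |(K + rho2 (m + 1)) i.succ| ≤ rho2 (m + 1) i.castSucc := by
      intro i
      have h1 := rho2_castSucc i
      have h2 := rho2_nonneg (n := m + 1) i.succ
      have h3 := hKc i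
      simp only [Pi.add_apply, hA i, zero_add, abs_of_nonneg h2]
      omega
    unfold bpoly
    rw [if_pos hc]
    have hone : ∏ i : Fin m, ∑ j ∈ Finset.range
        ((min (rho2 (m + 1) i.castSucc) ((K + rho2 (m + 1)) i.castSucc)
          - max |rho2 (m + 1) i.succ| |(K + rho2 (m + 1)) i.succ|).toNat / 2),
        (X ^ 2 : Polynomial ℤ) ^ j = 1 := by
      apply Finset.prod_eq_one
      intro i _
      have h1 := rho2_castSucc i
      have h2 := rho2_nonneg (n := m + 1) i.succ
      have h3 := hKc i
      have h7 : (min (rho2 (m + 1) i.castSucc) ((K + rho2 (m + 1)) i.castSucc)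
          - max |rho2 (m + 1) i.succ| |(K + rho2 (m + 1)) i.succ|).toNat / 2 = 1 := by
        simp only [Pi.add_apply, hA i, zero_add, abs_of_nonneg h2, max_self]
        rw [min_eq_left (by omega)]
        omega
      rw [h7]
      simp
    have hsum : ∑ i, |(K + rho2 (m + 1)) i - rho2 (m + 1) i| = K 0 := by
      have : ∀ i, |(K + rho2 (m + 1)) i - rho2 (m + 1) i| = |K i| := by
        intro i
        simp
      rw [Finset.sum_congr rfl (fun i _ => this i), Fin.sum_univ_succ]
      rw [Finset.sum_eq_zero (fun i _ => by rw [hA i, abs_zero]), add_zero, abs_of_nonneg h0]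
    rw [hone, mul_one, hsum, Polynomial.coeff_X_pow]
    have hiff : K = k • vec (m + 1) ↔ K 0 = 2 * (k : ℤ) := by
      constructor
      · intro h
        rw [h, smul_vec_zero]
      · intro h
        funext i
        refine Fin.cases ?_ (fun i' => ?_) i
        · rw [h, smul_vec_zero]
        · rw [hA i', smul_vec_succ]
    have h4 := hpar 0
    by_cases hk : K 0 = 2 * (k : ℤ)
    · rw [if_pos (hiff.mpr hk), if_pos (by omega)]
    · rw [if_neg (fun h => hk (hiff.mp h)), if_neg (by omega)]


theorem smul_vec_even {m : ℕ} (k : ℕ) (i : Fin (m + 1)) : 2 ∣ (k • vec (m + 1)) i := by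
  simp only [Pi.smul_apply, vec, nsmul_eq_mul]
  split_ifs
  · exact Dvd.intro_left _ rfl
  · simp

/-- `Pk` is the Weyl character of the `k`-th multiple of the vector weight. -/
theorem Pk_mul_alt_rho2 (m k : ℕ) (hm : 1 ≤ m) :
    Pk m k * alt (rho2 (m + 1)) = alt (k • vec (m + 1) + rho2 (m + 1)) := by
  classical
  obtain ⟨b, hbd, hb⟩ := isAltComb_Pk_mul_alt m k (rho2 (m + 1)) isWt_rho2
  have h01 : (0 : Fin (m + 1)) < ⟨1, by omega⟩ := by
    rw [Fin.lt_def]
    simp
  have hbK : ∀ K, b K = if k • vec (m + 1) = K then 1 else 0 := by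
    intro K
    by_cases hKd : Dominant K
    · have h1 := coeff_sum_alt b hbd K hKd
      rw [← hb, coeff_Pk_mul_alt m k (K + rho2 (m + 1)) (rho2 (m + 1)) (sdom_add_rho2 hKd)
        sdom_rho2 isWt_rho2] at h1
      have h0 : 0 ≤ K 0 := by
        have := hKd _ _ h01
        have := abs_nonneg (K ⟨1, by omega⟩)
        omega
      by_cases hpar : ∀ i j, 2 ∣ (K + rho2 (m + 1)) i - rho2 (m + 1) j
      · rw [if_pos hpar] at h1
        have hpar' : ∀ i, 2 ∣ K i := by
          intro i
          have h2 := hpar i i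
          simpa using h2
        rw [← h1, bpoly_rho m k K hKd hpar' h0]
        by_cases hK : K = k • vec (m + 1)
        · rw [if_pos hK, if_pos hK.symm]
        · rw [if_neg hK, if_neg (fun h => hK h.symm)]
      · rw [if_neg hpar] at h1
        rw [← h1, if_neg]
        intro hK
        apply hpar
        intro i j
        rw [← hK]
        have h2 := smul_vec_even (m := m) k i
        have h3 := rho2_even (n := m + 1) i
        have h4 := rho2_even (n := m + 1) j
        simp only [Pi.add_apply]
        omega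
    · have h1 : b K = 0 := by
        by_contra hne
        exact hKd (hbd K (Finsupp.mem_support_iff.mpr hne))
      rw [h1, if_neg]
      intro hK
      apply hKd
      rw [← hK]
      exact dominant_smul dominant_vec k
  have hbeq : b = Finsupp.single (k • vec (m + 1)) 1 := by
    ext K
    rw [hbK K, Finsupp.single_apply]
  rw [hb, hbeq, altComb_eq_sum, Finsupp.sum_single_index (by simp)]
  simp

/-- The Pieri rule for type `D`: the multiplicities in the tensor product with the `k`-th multiple
of the vector weight are coefficients of the polynomial `bpoly`. -/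
theorem pieri_mult (m k : ℕ) (hm : 1 ≤ m) (M K : Fin (m + 1) → ℤ) (hM : Dominant M)
    (hMw : IsWt M) (hK : Dominant K) (c : (Fin (m + 1) → ℤ) →₀ ℤ)
    (hc : IsTensorMult (k • vec (m + 1)) M c) :
    c K = if (∀ i j, 2 ∣ K i - M j)
      then (bpoly (K + rho2 (m + 1)) (M + rho2 (m + 1))).coeff k else 0 := by
  obtain ⟨b, hbd, hb⟩ := isAltComb_Pk_mul_alt m k (M + rho2 (m + 1)) (isWt_add_rho2 hMw)
  have hten : IsTensorMult (k • vec (m + 1)) M b := by
    refine ⟨hbd, ?_⟩
    rw [← hb, ← Pk_mul_alt_rho2 m k hm]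
    ring
  rw [tensorMult_unique hc hten]
  have h1 := coeff_sum_alt b hbd K hK
  rw [← hb, coeff_Pk_mul_alt m k (K + rho2 (m + 1)) (M + rho2 (m + 1)) (sdom_add_rho2 hK)
    (sdom_add_rho2 hM) (isWt_add_rho2 hMw)] at h1
  rw [← h1]
  have hiff : (∀ i j, 2 ∣ (K + rho2 (m + 1)) i - (M + rho2 (m + 1)) j)
      ↔ (∀ i j, 2 ∣ K i - M j) := by
    constructor
    · intro h i j
      have h2 := h i j
      have h3 := rho2_even (n := m + 1) i
      have h4 := rho2_even (n := m + 1) j
      simp only [Pi.add_apply] at h2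
      omega
    · intro h i j
      have h2 := h i j
      have h3 := rho2_even (n := m + 1) i
      have h4 := rho2_even (n := m + 1) j
      simp only [Pi.add_apply]
      omega
  by_cases hpar : ∀ i j, 2 ∣ K i - M j
  · rw [if_pos hpar, if_pos (hiff.mpr hpar)]
  · rw [if_neg hpar, if_neg (fun h => hpar (hiff.mp h))]

end Vale.Agent.Lib.P182
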