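import Mathlib

/-!
# A determinant evaluation

For strictly decreasing integer sequences `z`, `y` the determinant of the matrix
`T^{|z_i - y_j|}` (Laurent polynomials) is evaluated in closed form.
-/

namespace Vale.Agent.Lib.P182

open Finset LaurentPolynomial Matrix

/-- The matrix `T^{|z_i - y_j|}`. -/
noncomputable def pm {n : ℕ} (z y : Fin n → ℤ) : Matrix (Fin n) (Fin n) (LaurentPolynomial ℤ) :=
  Matrix.of fun i j => T |z i - y j|

theorem pm_apply {n : ℕ} (z y : Fin n → ℤ) (i j : Fin n) : pm z y i j = T |z i - y j| := rfl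

theorem det_eq_zero_of_col_smul {m : ℕ} (B : Matrix (Fin m) (Fin m) (LaurentPolynomial ℤ))
    (a b : Fin m) (hab : a ≠ b) (c : LaurentPolynomial ℤ) (h : ∀ k, B k a = c * B k b) :
    det B = 0 := by
  have h1 : B = B.updateCol a (c • fun k => B k b) := by
    ext i k
    by_cases hk : k = a
    · subst hk; simp [h]
    · simp [Matrix.updateCol_apply, hk]
  rw [h1, det_updateCol_smul]
  rw [det_zero_of_column_eq hab (i := a) (j := b)]
  · simp
  · intro k
    simp [Matrix.updateCol_apply, hab.symm]

/-- The head factor identity. -/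
theorem head_factor (z0 z1 y0 y1 : ℤ) (hz : z1 < z0) (hy : y1 < y0) :
    (T |z0 - y0| - T (z0 - z1) * T |z1 - y0| : LaurentPolynomial ℤ)
      - (T |z0 - y1| - T (z0 - z1) * T |z1 - y1|) * T (y0 - y1)
      = if y1 ≤ z0 ∧ z1 ≤ y0 then
          T |z0 - y0| * (1 - T (2 * (min y0 z0 - max y1 z1))) else 0 := by
  rcases lt_or_ge y0 z1 with h1 | h1
  · -- R1
    have e1 : |z0 - y0| = z0 - y0 := abs_of_nonneg (by omega)
    have e2 : |z1 - y0| = z1 - y0 := abs_of_nonneg (by omega)
    have e3 : |z0 - y1| = z0 - y1 := abs_of_nonneg (by omega)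
    have e4 : |z1 - y1| = z1 - y1 := abs_of_nonneg (by omega)
    rw [if_neg (by omega), e1, e2, e3, e4]
    simp only [← T_add]
    ring_nf
  · rcases le_or_gt y0 z0 with h2 | h2
    · rcases le_or_gt y1 z1 with h3 | h3
      · -- R2
        have e1 : |z0 - y0| = z0 - y0 := abs_of_nonneg (by omega)
        have e2 : |z1 - y0| = y0 - z1 := by rw [abs_sub_comm]; exact abs_of_nonneg (by omega)
        have e3 : |z0 - y1| = z0 - y1 := abs_of_nonneg (by omega)
        have e4 : |z1 - y1| = z1 - y1 := abs_of_nonneg (by omega)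
        rw [if_pos (by omega), e1, e2, e3, e4, min_eq_left h2, max_eq_right h3]
        simp only [← T_add, mul_sub, sub_mul, mul_one]
        ring_nf
      · -- R3
        have e1 : |z0 - y0| = z0 - y0 := abs_of_nonneg (by omega)
        have e2 : |z1 - y0| = y0 - z1 := by rw [abs_sub_comm]; exact abs_of_nonneg (by omega)
        have e3 : |z0 - y1| = z0 - y1 := abs_of_nonneg (by omega)
        have e4 : |z1 - y1| = y1 - z1 := by rw [abs_sub_comm]; exact abs_of_nonneg (by omega)
        rw [if_pos (by omega), e1, e2, e3, e4, min_eq_left h2, max_eq_left (le_of_lt h3)]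
        simp only [← T_add, mul_sub, sub_mul, mul_one]
        ring_nf
    · rcases le_or_gt y1 z1 with h3 | h3
      · -- R4
        have e1 : |z0 - y0| = y0 - z0 := by rw [abs_sub_comm]; exact abs_of_nonneg (by omega)
        have e2 : |z1 - y0| = y0 - z1 := by rw [abs_sub_comm]; exact abs_of_nonneg (by omega)
        have e3 : |z0 - y1| = z0 - y1 := abs_of_nonneg (by omega)
        have e4 : |z1 - y1| = z1 - y1 := abs_of_nonneg (by omega)
        rw [if_pos (by omega), e1, e2, e3, e4, min_eq_right (le_of_lt h2), max_eq_right h3]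
        simp only [← T_add, mul_sub, sub_mul, mul_one]
        ring_nf
      · rcases le_or_gt y1 z0 with h4 | h4
        · -- R5
          have e1 : |z0 - y0| = y0 - z0 := by rw [abs_sub_comm]; exact abs_of_nonneg (by omega)
          have e2 : |z1 - y0| = y0 - z1 := by rw [abs_sub_comm]; exact abs_of_nonneg (by omega)
          have e3 : |z0 - y1| = z0 - y1 := abs_of_nonneg (by omega)
          have e4 : |z1 - y1| = y1 - z1 := by rw [abs_sub_comm]; exact abs_of_nonneg (by omega)
          rw [if_pos (by omega), e1, e2, e3, e4, min_eq_right (le_of_lt h2),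
            max_eq_left (le_of_lt h3)]
          simp only [← T_add, mul_sub, sub_mul, mul_one]
          ring_nf
        · -- R6
          have e1 : |z0 - y0| = y0 - z0 := by rw [abs_sub_comm]; exact abs_of_nonneg (by omega)
          have e2 : |z1 - y0| = y0 - z1 := by rw [abs_sub_comm]; exact abs_of_nonneg (by omega)
          have e3 : |z0 - y1| = y1 - z0 := by rw [abs_sub_comm]; exact abs_of_nonneg (by omega)
          have e4 : |z1 - y1| = y1 - z1 := by rw [abs_sub_comm]; exact abs_of_nonneg (by omega)
          rw [if_neg (by omega), e1, e2, e3, e4]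
          simp only [← T_add, mul_sub, sub_mul, mul_one]
          ring_nf


theorem T_abs_of_lt {a b c : ℤ} (h1 : a ≤ b) (h2 : b < c) :
    (T |a - c| : LaurentPolynomial ℤ) = T (c - b) * T |a - b| := by
  have e1 : |a - c| = c - a := by rw [abs_sub_comm]; exact abs_of_nonneg (by omega)
  have e2 : |a - b| = b - a := by rw [abs_sub_comm]; exact abs_of_nonneg (by omega)
  rw [e1, e2, ← T_add]
  congr 1; ring

/-- One step of the evaluation: elimination of the first row. -/
theorem det_pm_succ {n : ℕ} (z y : Fin (n + 2) → ℤ) (hz : StrictAnti z) (hy : StrictAnti y) :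
    det (pm z y) =
      ((T |z 0 - y 0| - T (z 0 - z 1) * T |z 1 - y 0|)
        - (T |z 0 - y 1| - T (z 0 - z 1) * T |z 1 - y 1|) * T (y 0 - y 1))
      * det (pm (fun i : Fin (n + 1) => z i.succ) (fun j : Fin (n + 1) => y j.succ)) := by
  set A := pm z y with hA
  have h01 : (0 : Fin (n + 2)) ≠ 1 := by
    intro h
    have := congrArg Fin.val h
    simp at this
  have hA' : det (A.updateRow 0 (A 0 + (-(T (z 0 - z 1) : LaurentPolynomial ℤ)) • A 1)) = det A :=
    det_updateRow_add_smul_self A h01 _
  rw [← hA', det_succ_row_zero]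
  have hsub : ∀ j, (A.updateRow 0 (A 0 + (-(T (z 0 - z 1) : LaurentPolynomial ℤ)) • A 1)).submatrix Fin.succ
      (Fin.succAbove j) = A.submatrix Fin.succ (Fin.succAbove j) := by
    intro j
    ext i k
    simp [Matrix.updateRow_apply, Fin.succ_ne_zero]
  have hE : ∀ j, (A.updateRow 0 (A 0 + (-(T (z 0 - z 1) : LaurentPolynomial ℤ)) • A 1)) 0 j
      = T |z 0 - y j| - T (z 0 - z 1) * T |z 1 - y j| := by
    intro j
    rw [Matrix.updateRow_self]
    simp only [Pi.add_apply, Pi.smul_apply, smul_eq_mul, hA, pm_apply]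
    ring
  have hterm : ∀ j : Fin (n + 2),
      (-1 : LaurentPolynomial ℤ) ^ (j : ℕ)
          * (A.updateRow 0 (A 0 + (-(T (z 0 - z 1) : LaurentPolynomial ℤ)) • A 1)) 0 j
          * det ((A.updateRow 0 (A 0 + (-(T (z 0 - z 1) : LaurentPolynomial ℤ)) • A 1)).submatrix
              Fin.succ (Fin.succAbove j))
        = (-1 : LaurentPolynomial ℤ) ^ (j : ℕ)
          * (T |z 0 - y j| - T (z 0 - z 1) * T |z 1 - y j|)
          * det (A.submatrix Fin.succ (Fin.succAbove j)) := by
    intro j
    rw [hsub j, hE j]
  rw [Finset.sum_congr rfl (fun j _ => hterm j)]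
  have hz10 : z 1 < z 0 := hz (by
    rw [Fin.lt_def]; simp)
  have hy10 : y 1 < y 0 := hy (by
    rw [Fin.lt_def]; simp)
  have hzle : ∀ i : Fin (n + 1), z i.succ ≤ z 1 := by
    intro i
    apply hz.antitone
    rw [Fin.le_def]; simp
  -- the minor with column 0 removed
  have hminor0 : A.submatrix Fin.succ (Fin.succAbove 0)
      = pm (fun i : Fin (n + 1) => z i.succ) (fun j : Fin (n + 1) => y j.succ) := by
    ext i k
    simp [hA, pm_apply]
  -- vanishing of the far terms
  have hrest : ∀ j' : Fin n,
      (-1 : LaurentPolynomial ℤ) ^ ((j'.succ.succ : Fin (n + 2)) : ℕ)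
        * (T |z 0 - y j'.succ.succ| - T (z 0 - z 1) * T |z 1 - y j'.succ.succ|)
        * det (A.submatrix Fin.succ (Fin.succAbove j'.succ.succ)) = 0 := by
    intro j'
    rcases le_or_gt (y j'.succ.succ) (z 1) with hle | hgt
    · have e1 : |z 0 - y j'.succ.succ| = z 0 - y j'.succ.succ := abs_of_nonneg (by omega)
      have e2 : |z 1 - y j'.succ.succ| = z 1 - y j'.succ.succ := abs_of_nonneg (by omega)
      rw [e1, e2, ← T_add]
      have : z 0 - z 1 + (z 1 - y j'.succ.succ) = z 0 - y j'.succ.succ := by ring
      rw [this]; simp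
    · have hy1j : y j'.succ.succ < y 1 := hy (by
        rw [Fin.lt_def]; simp)
      have hnpos : 0 < n := Fin.pos j'
      have hdet : det (A.submatrix Fin.succ (Fin.succAbove j'.succ.succ)) = 0 := by
        apply det_eq_zero_of_col_smul _ (0 : Fin (n + 1)) ⟨1, by omega⟩ (by
          intro h
          have := congrArg Fin.val h
          simp at this) (T (y 0 - y 1))
        intro k
        have c0 : (Fin.succAbove j'.succ.succ (0 : Fin (n + 1)) : Fin (n + 2)) = 0 := by
          rw [Fin.succAbove_of_castSucc_lt]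
          · rfl
          · rw [Fin.lt_def]; simp
        have c1 : (Fin.succAbove j'.succ.succ (⟨1, by omega⟩ : Fin (n + 1)) : Fin (n + 2))
            = 1 := by
          rw [Fin.succAbove_of_castSucc_lt]
          · apply Fin.ext; simp
          · rw [Fin.lt_def]; simp
        simp only [Matrix.submatrix_apply, hA, pm_apply, c0, c1]
        exact T_abs_of_lt (a := z k.succ) (b := y 1) (c := y 0) (by have := hzle k; omega) hy10
      rw [hdet, mul_zero]
  -- the term with column 1 removed
  have hone : (T |z 0 - y 1| - T (z 0 - z 1) * T |z 1 - y 1|)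
        * det (A.submatrix Fin.succ (Fin.succAbove 1))
      = (T |z 0 - y 1| - T (z 0 - z 1) * T |z 1 - y 1|) * T (y 0 - y 1)
        * det (A.submatrix Fin.succ (Fin.succAbove 0)) := by
    rcases le_or_gt (y 1) (z 1) with hle | hgt
    · have e1 : |z 0 - y 1| = z 0 - y 1 := abs_of_nonneg (by omega)
      have e2 : |z 1 - y 1| = z 1 - y 1 := abs_of_nonneg (by omega)
      rw [e1, e2, ← T_add]
      have : z 0 - z 1 + (z 1 - y 1) = z 0 - y 1 := by ring
      rw [this]; simp
    · have hm : A.submatrix Fin.succ (Fin.succAbove 1)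
          = (A.submatrix Fin.succ (Fin.succAbove 0)).updateCol 0
            ((T (y 0 - y 1) : LaurentPolynomial ℤ)
              • fun k => (A.submatrix Fin.succ (Fin.succAbove 0)) k 0) := by
        refine Matrix.ext (fun i k => ?_)
        by_cases hk : k = 0
        · subst hk
          simp only [Matrix.updateCol_self, Pi.smul_apply, smul_eq_mul, Matrix.submatrix_apply,
            hA, pm_apply]
          have c0 : (Fin.succAbove 1 (0 : Fin (n + 1)) : Fin (n + 2)) = 0 := by
            rw [Fin.succAbove_of_castSucc_lt]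
            · rfl
            · rw [Fin.lt_def]; simp
          have c1 : (Fin.succAbove 0 (0 : Fin (n + 1)) : Fin (n + 2)) = 1 := by
            simp
          rw [c0, c1]
          exact T_abs_of_lt (a := z i.succ) (b := y 1) (c := y 0) (by have := hzle i; omega) hy10
        · rw [Matrix.updateCol_ne hk]
          simp only [Matrix.submatrix_apply]
          have : (Fin.succAbove 1 k : Fin (n + 2)) = Fin.succAbove 0 k := by
            rw [Fin.succAbove_of_le_castSucc]
            · simp
            · rw [Fin.le_def]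
              have : k.val ≠ 0 := fun h => hk (Fin.ext h)
              simp
              omega
          rw [this]
      rw [hm, det_updateCol_smul, Matrix.updateCol_eq_self]
      ring
  rw [Fin.sum_univ_succ, Fin.sum_univ_succ]
  rw [Finset.sum_eq_zero (fun j' _ => hrest j')]
  have hv1 : ((Fin.succ (0 : Fin (n + 1)) : Fin (n + 2)) : ℕ) = 1 := by simp
  have hs1 : (Fin.succ (0 : Fin (n + 1)) : Fin (n + 2)) = 1 := by
    apply Fin.ext; simp
  rw [hs1]
  have hv1' : ((1 : Fin (n + 2)) : ℕ) = 1 := by simp
  rw [hv1', Fin.val_zero, pow_zero, pow_one, one_mul, add_zero, neg_one_mul, neg_mul, hone,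
    hminor0]
  ring


/-- Closed form of the determinant of `T^{|z_i - y_j|}` for strictly decreasing sequences. -/
theorem det_pm_eq : ∀ (n : ℕ) (z y : Fin (n + 1) → ℤ), StrictAnti z → StrictAnti y →
    det (pm z y) =
      if (∀ i : Fin n, y i.succ ≤ z i.castSucc ∧ z i.succ ≤ y i.castSucc) then
        T (∑ i, |z i - y i|) * ∏ i : Fin n,
          (1 - T (2 * (min (y i.castSucc) (z i.castSucc) - max (y i.succ) (z i.succ))))
      else 0 := by
  intro n
  induction n with
  | zero =>
    intro z y _ _
    rw [if_pos (fun i => Fin.elim0 i)]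
    simp [Matrix.det_unique, pm_apply]
  | succ n ih =>
    intro z y hz hy
    have hz10 : z 1 < z 0 := hz (by
      rw [Fin.lt_def]; simp)
    have hy10 : y 1 < y 0 := hy (by
      rw [Fin.lt_def]; simp)
    have hzt : StrictAnti (fun i : Fin (n + 1) => z i.succ) := fun a b hab =>
      hz (Fin.succ_lt_succ_iff.mpr hab)
    have hyt : StrictAnti (fun i : Fin (n + 1) => y i.succ) := fun a b hab =>
      hy (Fin.succ_lt_succ_iff.mpr hab)
    rw [det_pm_succ z y hz hy, head_factor _ _ _ _ hz10 hy10, ih _ _ hzt hyt]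
    have hall : (∀ i : Fin (n + 1), y i.succ ≤ z i.castSucc ∧ z i.succ ≤ y i.castSucc)
        ↔ (y 1 ≤ z 0 ∧ z 1 ≤ y 0) ∧
          (∀ i : Fin n, y i.succ.succ ≤ z i.castSucc.succ ∧ z i.succ.succ ≤ y i.castSucc.succ) := by
      rw [Fin.forall_fin_succ]
      simp only [Fin.castSucc_zero, Fin.succ_zero_eq_one, Fin.succ_castSucc]
    by_cases h0 : y 1 ≤ z 0 ∧ z 1 ≤ y 0
    · by_cases ht : ∀ i : Fin n, y i.succ.succ ≤ z i.castSucc.succ ∧ z i.succ.succ ≤ y i.castSucc.succ
      · rw [if_pos h0, if_pos ht, if_pos (hall.mpr ⟨h0, ht⟩)]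
        have hsum : ∑ i : Fin (n + 1 + 1), |z i - y i|
            = |z 0 - y 0| + ∑ i : Fin (n + 1), |z i.succ - y i.succ| := Fin.sum_univ_succ _
        have hprod : ∏ i : Fin (n + 1),
            (1 - T (2 * (min (y i.castSucc) (z i.castSucc) - max (y i.succ) (z i.succ)))
              : LaurentPolynomial ℤ)
            = (1 - T (2 * (min (y 0) (z 0) - max (y 1) (z 1)))) * ∏ i : Fin n,
              (1 - T (2 * (min (y i.castSucc.succ) (z i.castSucc.succ)
                - max (y i.succ.succ) (z i.succ.succ)))) := by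
          rw [Fin.prod_univ_succ]
          simp only [Fin.castSucc_zero, Fin.succ_zero_eq_one, Fin.succ_castSucc]
        rw [hsum, hprod, T_add]
        ring
      · rw [if_neg ht, if_neg (fun h => ht (hall.mp h).2), mul_zero]
    · rw [if_neg h0, if_neg (fun h => h0 (hall.mp h).1), zero_mul]

end Vale.Agent.Lib.P182
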