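import Vale.Agent.Lib.P182.PieriSum

/-!
# The signed sum as a polynomial with halved exponents
-/

namespace Vale.Agent.Lib.P182

open Finset LaurentPolynomial Polynomial

variable {n : ℕ}

/-- The substitution `X ↦ T²` from polynomials to Laurent polynomials. -/
noncomputable def psiHom : Polynomial ℤ →+* LaurentPolynomial ℤ :=
  (Polynomial.toLaurent).comp ((Polynomial.expand ℤ 2 : Polynomial ℤ →ₐ[ℤ] Polynomial ℤ) :
    Polynomial ℤ →+* Polynomial ℤ)

theorem psiHom_injective : Function.Injective psiHom := fun p q h =>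
  Polynomial.expand_injective (by norm_num) (Polynomial.toLaurent_injective h)

theorem psiHom_X_pow (k : ℕ) : psiHom (X ^ k) = T (2 * (k : ℤ)) := by
  unfold psiHom
  simp only [RingHom.coe_comp, RingHom.coe_coe, Function.comp_apply, map_pow, expand_X]
  rw [← pow_mul, Polynomial.toLaurent_X, T_pow]
  congr 1
  push_cast
  ring

/-- The signed sum with halved exponents, as a polynomial. -/
noncomputable def fpoly (Z Y : Fin n → ℤ) : Polynomial ℤ :=
  ∑ σ : Equiv.Perm (Fin n), ∑ e ∈ evenSigns n,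
    ((Equiv.Perm.sign σ : ℤˣ) : ℤ) •
      (X ^ ((∑ i, |Z i - ((e i : ℤˣ) : ℤ) * Y (σ i)|).toNat / 2) : Polynomial ℤ)

theorem two_dvd_abs_sub_unit_mul (u : ℤˣ) (a b : ℤ) (h : 2 ∣ a - b) :
    2 ∣ |a - ((u : ℤˣ) : ℤ) * b| := by
  rcases Int.units_eq_one_or u with h1 | h1
  · subst h1
    simpa using (dvd_abs 2 (a - b)).mpr h
  · subst h1
    have : a - (((-1 : ℤˣ) : ℤˣ) : ℤ) * b = (a - b) + 2 * b := by
      simp; ring
    rw [this]
    exact (dvd_abs 2 _).mpr (dvd_add h (dvd_mul_right 2 b))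

theorem two_dvd_sum_abs (Z Y : Fin n → ℤ) (hpar : ∀ i j, 2 ∣ Z i - Y j)
    (σ : Equiv.Perm (Fin n)) (e : Fin n → ℤˣ) :
    2 ∣ ∑ i, |Z i - ((e i : ℤˣ) : ℤ) * Y (σ i)| :=
  Finset.dvd_sum (fun i _ => two_dvd_abs_sub_unit_mul (e i) _ _ (hpar i (σ i)))

theorem psiHom_fpoly (Z Y : Fin n → ℤ) (hpar : ∀ i j, 2 ∣ Z i - Y j) :
    psiHom (fpoly Z Y) = dsum Z Y := by
  unfold fpoly dsum
  rw [map_sum]
  refine Finset.sum_congr rfl (fun σ _ => ?_)
  rw [map_sum]
  refine Finset.sum_congr rfl (fun e _ => ?_)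
  rw [map_zsmul, psiHom_X_pow]
  congr 2
  obtain ⟨c, hc⟩ := two_dvd_sum_abs Z Y hpar σ e
  have hnn : 0 ≤ ∑ i, |Z i - ((e i : ℤˣ) : ℤ) * Y (σ i)| :=
    Finset.sum_nonneg (fun i _ => abs_nonneg _)
  omega

/-- The closed form as a polynomial. -/
noncomputable def cpoly {m : ℕ} (Z Y : Fin (m + 1) → ℤ) : Polynomial ℤ :=
  if (∀ i : Fin m, |Y i.succ| ≤ Z i.castSucc ∧ |Z i.succ| ≤ Y i.castSucc) then
    X ^ ((∑ i, |Z i - Y i|).toNat / 2) * ∏ i : Fin m,
      (1 - X ^ ((min (Y i.castSucc) (Z i.castSucc) - max |Y i.succ| |Z i.succ|).toNat))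
  else 0

theorem psiHom_cpoly {m : ℕ} (Z Y : Fin (m + 1) → ℤ) (hZ : SDom Z) (hY : SDom Y)
    (hpar : ∀ i j, 2 ∣ Z i - Y j) : psiHom (cpoly Z Y) = cfD Z Y := by
  unfold cpoly cfD
  by_cases hc : ∀ i : Fin m, |Y i.succ| ≤ Z i.castSucc ∧ |Z i.succ| ≤ Y i.castSucc
  · rw [if_pos hc, if_pos hc, map_mul, psiHom_X_pow, map_prod]
    have hlt : ∀ i : Fin m, i.castSucc < i.succ := fun i => by
      rw [Fin.lt_def]; simp
    congr 1
    · congr 1
      have hev : 2 ∣ ∑ i, |Z i - Y i| :=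
        Finset.dvd_sum (fun i _ => (dvd_abs 2 _).mpr (hpar i i))
      obtain ⟨c, hc'⟩ := hev
      have hnn : 0 ≤ ∑ i, |Z i - Y i| := Finset.sum_nonneg (fun i _ => abs_nonneg _)
      omega
    · refine Finset.prod_congr rfl (fun i _ => ?_)
      rw [map_sub, map_one, psiHom_X_pow]
      congr 2
      have h1 := (hc i).1
      have h2 := (hc i).2
      have h3 := hZ _ _ (hlt i)
      have h4 := hY _ _ (hlt i)
      have h5 : 0 ≤ min (Y i.castSucc) (Z i.castSucc) - max |Y i.succ| |Z i.succ| := by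
        rcases le_total (Y i.castSucc) (Z i.castSucc) with h6 | h6 <;>
          rcases le_total |Y i.succ| |Z i.succ| with h7 | h7 <;>
          simp only [min_eq_left, min_eq_right, max_eq_left, max_eq_right, h6, h7] <;> omega
      omega
  · rw [if_neg hc, if_neg hc, map_zero]

theorem fpoly_eq_cpoly {m : ℕ} (Z Y : Fin (m + 1) → ℤ) (hZ : SDom Z) (hY : SDom Y)
    (hpar : ∀ i j, 2 ∣ Z i - Y j) : fpoly Z Y = cpoly Z Y := by
  apply psiHom_injective
  rw [psiHom_fpoly Z Y hpar, psiHom_cpoly Z Y hZ hY hpar, dsum_eq_cfD Z Y hZ hY]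

/-- The quotient of the closed form by `(1 - X²)^m`. -/
noncomputable def bpoly {m : ℕ} (Z Y : Fin (m + 1) → ℤ) : Polynomial ℤ :=
  if (∀ i : Fin m, |Y i.succ| ≤ Z i.castSucc ∧ |Z i.succ| ≤ Y i.castSucc) then
    X ^ ((∑ i, |Z i - Y i|).toNat / 2) * ∏ i : Fin m,
      ∑ j ∈ Finset.range
        ((min (Y i.castSucc) (Z i.castSucc) - max |Y i.succ| |Z i.succ|).toNat / 2),
        (X ^ 2 : Polynomial ℤ) ^ j
  else 0

theorem fpoly_eq_mul_bpoly {m : ℕ} (Z Y : Fin (m + 1) → ℤ) (hZ : SDom Z) (hY : SDom Y)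
    (hpar : ∀ i j, 2 ∣ Z i - Y j) :
    fpoly Z Y = (1 - X ^ 2) ^ m * bpoly Z Y := by
  rw [fpoly_eq_cpoly Z Y hZ hY hpar]
  unfold cpoly bpoly
  by_cases hc : ∀ i : Fin m, |Y i.succ| ≤ Z i.castSucc ∧ |Z i.succ| ≤ Y i.castSucc
  · rw [if_pos hc, if_pos hc]
    have hfac : ∀ i : Fin m,
        (1 - X ^ ((min (Y i.castSucc) (Z i.castSucc) - max |Y i.succ| |Z i.succ|).toNat)
          : Polynomial ℤ)
        = (1 - X ^ 2) * ∑ j ∈ Finset.range
          ((min (Y i.castSucc) (Z i.castSucc) - max |Y i.succ| |Z i.succ|).toNat / 2),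
          (X ^ 2 : Polynomial ℤ) ^ j := by
      intro i
      rw [mul_comm, geom_sum_mul_neg, ← pow_mul]
      congr 2
      have h1 := hpar i.castSucc i.castSucc
      have h2 := hpar i.succ i.castSucc
      have h3 := hpar i.succ i.succ
      rcases abs_cases (Y i.succ) with ⟨h4, _⟩ | ⟨h4, _⟩ <;>
        rcases abs_cases (Z i.succ) with ⟨h5, _⟩ | ⟨h5, _⟩ <;>
        rcases le_total (Y i.castSucc) (Z i.castSucc) with h6 | h6 <;>
        rcases le_total |Y i.succ| |Z i.succ| with h7 | h7 <;>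
        simp only [min_eq_left, min_eq_right, max_eq_left, max_eq_right, h6, h7] <;> omega
    rw [Finset.prod_congr rfl (fun i _ => hfac i), Finset.prod_mul_distrib, Finset.prod_const,
      Finset.card_univ, Fintype.card_fin]
    ring
  · rw [if_neg hc, if_neg hc, mul_zero]

end Vale.Agent.Lib.P182
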