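import Vale.Agent.Lib.P182.SortL1
import Vale.Agent.Lib.P182.HalfSpinFree

namespace Vale.Agent.Lib.P182

open Finset

variable {n : ℕ}

/-- `2ω_1 = (2, 0, …, 0)`: twice the highest weight of the vector representation. -/
def vec (n : ℕ) : Fin n → ℤ := fun i => if i.val = 0 then 2 else 0

/-- The vector `2 s e_k`. -/
def spike (k : Fin n) (s : ℤˣ) : Fin n → ℤ := fun i => if i = k then 2 * ((s : ℤˣ) : ℤ) else 0

theorem dominant_vec : Dominant (vec n) := by
  intro i j hij
  have h1 : i.val < j.val := hij
  have h2 : j.val ≠ 0 := by omega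
  simp only [vec, h2, if_false, abs_zero]
  split_ifs <;> norm_num

theorem isWt_vec : IsWt (vec n) := by
  intro i j
  simp only [vec]
  split_ifs <;> norm_num

theorem mem_orbit_vec_imp (h0 : 0 < n) {t : Fin n → ℤ} (ht : t ∈ orbit (vec n)) :
    ∃ k : Fin n, ∃ s : ℤˣ, t = spike k s := by
  obtain ⟨σ, e, _, rfl⟩ := mem_orbit.mp ht
  refine ⟨σ.symm ⟨0, h0⟩, e (σ.symm ⟨0, h0⟩), ?_⟩
  funext i
  simp only [wact, vec, spike]
  by_cases hi : i = σ.symm ⟨0, h0⟩
  · rw [if_pos hi, hi]
    simp
    ring
  · rw [if_neg hi]
    have : (σ i).val ≠ 0 := by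
      intro hc
      apply hi
      have : σ i = ⟨0, h0⟩ := Fin.ext hc
      rw [← this]; simp
    simp [this]

theorem spike_mem_orbit_vec (hn : 2 ≤ n) (k : Fin n) (s : ℤˣ) : spike k s ∈ orbit (vec n) := by
  have h0 : 0 < n := by omega
  obtain ⟨k2, hk2⟩ : ∃ k2 : Fin n, k ≠ k2 := by
    by_cases hk : k.val = 0
    · refine ⟨⟨1, by omega⟩, ?_⟩
      intro hcon
      have := congrArg Fin.val hcon
      simp at this
      omega
    · refine ⟨⟨0, h0⟩, ?_⟩
      intro hcon
      have := congrArg Fin.val hcon
      simp at this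
      omega
  refine mem_orbit.mpr ⟨Equiv.swap k ⟨0, h0⟩,
    fun m => (if m = k then s else 1) * (if m = k2 then s else 1), two_signs_mem s k k2 hk2, ?_⟩
  funext i
  simp only [wact, vec, spike]
  by_cases hi : i = k
  · rw [if_pos hi, hi, Equiv.swap_apply_left]
    simp [hk2]
    ring
  · have : (Equiv.swap k ⟨0, h0⟩ i).val ≠ 0 := by
      intro hc
      apply hi
      have h1 : Equiv.swap k ⟨0, h0⟩ i = ⟨0, h0⟩ := Fin.ext hc
      have h2 := congrArg (Equiv.swap k ⟨0, h0⟩) h1
      rw [Equiv.swap_apply_self, Equiv.swap_apply_right] at h2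
      exact h2
    rw [if_neg this, mul_zero, if_neg hi]

/-- Weyl's character formula for the vector representation. -/
theorem orbSum_vec_mul_alt_rho2 (hn : 2 ≤ n) :
    orbSum (vec n) * alt (rho2 n) = alt (vec n + rho2 n) := by
  classical
  have h0 : 0 < n := by omega
  rw [orbSum_mul_alt, add_comm (vec n)]
  apply Finset.sum_eq_single (vec n)
  · intro t ht hne
    obtain ⟨k, s, rfl⟩ := mem_orbit_vec_imp h0 ht
    rcases Int.units_eq_one_or s with hs | hs
    · by_cases hk : k.val = 0
      · exfalso
        apply hne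
        funext i
        simp only [spike, vec, hs]
        by_cases hi : i = k
        · rw [if_pos hi, hi, if_pos hk]; simp
        · rw [if_neg hi, if_neg]
          intro hc
          exact hi (Fin.ext (by omega))
      · have hk' : k.val - 1 < n := by have := k.isLt; omega
        apply alt_eq_zero_of_eq (i := ⟨k.val - 1, hk'⟩) (j := k)
        · intro hc
          have := congrArg Fin.val hc
          simp at this
          omega
        · have hne' : (⟨k.val - 1, hk'⟩ : Fin n) ≠ k := by
            intro hc
            have := congrArg Fin.val hc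
            simp at this
            omega
          simp only [Pi.add_apply, spike, rho2, hs, hne', if_false, if_true]
          have : ((k.val - 1 : ℕ) : ℤ) = (k.val : ℤ) - 1 := by omega
          rw [this]
          simp
          ring
    · by_cases hk : k.val + 1 < n
      · apply alt_eq_zero_of_eq (i := k) (j := ⟨k.val + 1, hk⟩)
        · intro hc
          have := congrArg Fin.val hc
          simp at this
        · have hne' : (⟨k.val + 1, hk⟩ : Fin n) ≠ k := by
            intro hc
            have := congrArg Fin.val hc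
            simp at this
          simp only [Pi.add_apply, spike, rho2, hs, hne', if_false, if_true]
          simp
          ring
      · have ha : n - 2 < n := by omega
        have hkv : k.val = n - 1 := by have := k.isLt; omega
        have hne' : (⟨n - 2, ha⟩ : Fin n) ≠ k := by
          intro hc
          have := congrArg Fin.val hc
          simp at this
          omega
        apply alt_eq_zero_of_eq_neg (i := ⟨n - 2, ha⟩) (j := k) hne'
        simp only [Pi.add_apply, spike, rho2, hs, hne', if_false, if_true]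
        have e1 : ((n - 2 : ℕ) : ℤ) = (n : ℤ) - 2 := by omega
        have e2 : (k.val : ℤ) = (n : ℤ) - 1 := by omega
        rw [e1, e2]
        simp
  · intro hcon
    exact absurd (self_mem_orbit _) hcon

theorem dominant_add_rho2_add_spike {M : Fin n → ℤ} (hM : Dominant M) (k : Fin n) (s : ℤˣ) :
    Dominant (M + rho2 n + spike k s) := by
  intro i j hij
  have h1 := hM i j hij
  have h2 := rho2_lt hij
  have h3 := rho2_nonneg j
  have h4 := abs_add_three (M j) (rho2 n j) (spike k s j)
  rw [abs_of_nonneg h3] at h4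
  have hs : ((s : ℤˣ) : ℤ) = 1 ∨ ((s : ℤˣ) : ℤ) = -1 := by
    rcases Int.units_eq_one_or s with h | h <;> simp [h]
  simp only [Pi.add_apply]
  by_cases hjk : j = k
  · have hik : i ≠ k := fun hc => (ne_of_lt hij) (hc.trans hjk.symm)
    have e1 : spike k s i = 0 := by simp [spike, hik]
    have e2 : |spike k s j| = 2 := by
      simp only [spike, hjk, if_true]
      rcases hs with h | h <;> rw [h] <;> norm_num
    omega
  · have e2 : |spike k s j| = 0 := by simp [spike, hjk]
    have e1 : -2 ≤ spike k s i := by
      simp only [spike]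
      split_ifs
      · rcases hs with h | h <;> rw [h] <;> norm_num
      · norm_num
    omega

/-- Multiplicity one in the tensor product with the vector representation. -/
theorem vec_mult_one (hn : 2 ≤ n) (M K : Fin n → ℤ) (hM : Dominant M) (hK : Dominant K)
    (χ : AddMonoidAlgebra ℤ (Fin n → ℤ)) (c : (Fin n → ℤ) →₀ ℤ)
    (hχ : χ * alt (rho2 n) = alt (vec n + rho2 n))
    (hcd : ∀ K' ∈ c.support, Dominant K')
    (hc : χ * alt (M + rho2 n) = ∑ K' ∈ c.support, c K' • alt (K' + rho2 n))
    (k : Fin n) (s : ℤˣ) (hKM : K = M + spike k s) : c K = 1 := by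
  classical
  have h0 : 0 < n := by omega
  have hχeq : χ = orbSum (vec n) :=
    mul_right_cancel₀ alt_rho2_ne_zero (hχ.trans (orbSum_vec_mul_alt_rho2 hn).symm)
  have h1 : (∑ t ∈ orbit (vec n), alt (M + rho2 n + t)).coeff (K + rho2 n) = c K := by
    rw [← orbSum_mul_alt, ← hχeq, hc, coeff_sum_alt c hcd K hK]
  rw [← h1, AddMonoidAlgebra.coeff_sum, Finsupp.finsetSum_apply]
  have h2 : ∀ t ∈ orbit (vec n), (alt (M + rho2 n + t)).coeff (K + rho2 n)
      = if t = spike k s then 1 else 0 := by
    intro t ht
    obtain ⟨k', s', rfl⟩ := mem_orbit_vec_imp h0 ht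
    rw [alt_coeff_dom (dominant_add_rho2_add_spike hM k' s') (sdom_add_rho2 hK)]
    by_cases h : spike k' s' = spike k s
    · rw [if_pos h, if_pos]
      rw [h, hKM]
      abel
    · rw [if_neg h, if_neg]
      intro hcon
      apply h
      rw [hKM] at hcon
      have h3 : M + rho2 n + spike k' s' = M + rho2 n + spike k s := by rw [hcon]; abel
      exact add_left_cancel h3
  rw [Finset.sum_congr rfl h2, Finset.sum_ite_eq']
  rw [if_pos (spike_mem_orbit_vec hn k s)]

theorem rho2_last (i : Fin n) (hi : ∀ j, j ≤ i) : rho2 n i = 0 := by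
  by_cases hn : i.val + 1 < n
  · have := hi ⟨i.val + 1, hn⟩
    have h2 : i.val + 1 ≤ i.val := this
    omega
  · have := i.isLt
    simp only [rho2]
    have : (i.val : ℤ) = (n : ℤ) - 1 := by omega
    rw [this]; ring

theorem sum_vec (h0 : 0 < n) : ∑ i, vec n i = 2 := by
  rw [Finset.sum_eq_single (⟨0, h0⟩ : Fin n)]
  · simp [vec]
  · intro b _ hb
    have : b.val ≠ 0 := fun hc => hb (Fin.ext hc)
    simp [vec, this]
  · intro hcon
    exact absurd (Finset.mem_univ _) hcon

theorem vec_nonneg (i : Fin n) : 0 ≤ vec n i := by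
  simp only [vec]; split_ifs <;> norm_num

/-- Support bound for the character of `V(N ω_1)`: the `ℓ¹` norm of every exponent is at most
`2N` (doubled coordinates). -/
theorem supp_bound_vec (hn : 2 ≤ n) (N : ℕ) (χ : AddMonoidAlgebra ℤ (Fin n → ℤ))
    (hχ : χ * alt (rho2 n) = alt (N • vec n + rho2 n)) :
    ∀ β ∈ χ.coeff.support, ∑ i, |β i| ≤ 2 * (N : ℤ) := by
  classical
  intro β hβ
  have h0 : 0 < n := by omega
  have hkey : ∀ s : Fin n → ℤˣ, ∑ i, ((s i : ℤˣ) : ℤ) * β i ≤ 2 * (N : ℤ) := by
    intro s
    let key : (Fin n → ℤ) →+ ℤ :=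
      { toFun := fun v => ∑ i, ((s i : ℤˣ) : ℤ) * v i
        map_zero' := by simp
        map_add' := by intro x y; simp [mul_add, Finset.sum_add_distrib] }
    have hkeyapp : ∀ w : Fin n → ℤ, key w = ∑ i, ((s i : ℤˣ) : ℤ) * w i := fun w => rfl
    have hB : ∀ c ∈ (χ * alt (rho2 n)).coeff.support,
        key c ≤ 2 * (N : ℤ) + ∑ i, rho2 n i := by
      intro c hc
      rw [hχ] at hc
      obtain ⟨σ, e, _, hw⟩ := exists_of_mem_support_alt hc
      rw [hkeyapp, ← hw]
      have h1 : ∑ i, ((s i : ℤˣ) : ℤ) * wact σ e (N • vec n + rho2 n) i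
          ≤ ∑ i, (N • vec n + rho2 n) (σ i) := by
        refine Finset.sum_le_sum (fun i _ => ?_)
        have h2 := le_abs_self (((s i : ℤˣ) : ℤ) * wact σ e (N • vec n + rho2 n) i)
        rw [abs_mul, units_abs, one_mul, abs_wact] at h2
        have h3 : 0 ≤ (N • vec n + rho2 n) (σ i) := by
          have e1 : (N • vec n + rho2 n) (σ i) = (N : ℤ) * vec n (σ i) + rho2 n (σ i) := by simp
          rw [e1]
          have := mul_nonneg (Nat.cast_nonneg (α := ℤ) N) (vec_nonneg (n := n) (σ i))
          have := rho2_nonneg (n := n) (σ i)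
          linarith
        rw [abs_of_nonneg h3] at h2
        exact h2
      rw [Equiv.sum_comp σ (fun i => (N • vec n + rho2 n) i)] at h1
      have h4 : ∑ i, (N • vec n + rho2 n) i = 2 * (N : ℤ) + ∑ i, rho2 n i := by
        have e1 : ∀ i, (N • vec n + rho2 n) i = (N : ℤ) * vec n i + rho2 n i := fun i => by simp
        rw [Finset.sum_congr rfl (fun i _ => e1 i), Finset.sum_add_distrib, ← Finset.mul_sum,
          sum_vec h0]
        ring
      linarith
    have hA : ∃ a ∈ (alt (rho2 n)).coeff.support, ∑ i, rho2 n i ≤ key a := by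
      have hl : n - 1 < n := by omega
      set l : Fin n := ⟨n - 1, hl⟩ with hldef
      have hlast : ∀ j : Fin n, j ≤ l := by
        intro j
        have := j.isLt
        show j.val ≤ n - 1
        omega
      set e0 : Fin n → ℤˣ := fun i => s i * (if i = l then ∏ j, s j else 1) with he0
      have he0mem : e0 ∈ evenSigns n := by
        rw [mem_evenSigns, Finset.prod_mul_distrib, Finset.prod_ite_eq']
        simp only [Finset.mem_univ, if_true]
        exact Int.units_mul_self _
      refine ⟨wact 1 e0 (rho2 n), ?_, ?_⟩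
      · rw [Finsupp.mem_support_iff, alt_coeff_wact rho2_regular _ _ he0mem]
        exact Units.ne_zero _
      · rw [hkeyapp]
        apply le_of_eq
        refine Finset.sum_congr rfl (fun i _ => ?_)
        simp only [wact, Equiv.Perm.coe_one, id]
        by_cases hi : i = l
        · rw [hi, rho2_last l hlast]; simp
        · have : e0 i = s i := by simp [he0, hi]
          rw [this, ← mul_assoc, ← Units.val_mul, Int.units_mul_self]
          simp
    have := key_bound key χ (alt (rho2 n)) _ _ hB hA β hβ
    rw [hkeyapp] at this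
    linarith
  have h1 := hkey (fun i => if 0 ≤ β i then 1 else -1)
  have h2 : ∀ i ∈ Finset.univ,
      (((if 0 ≤ β i then 1 else -1 : ℤˣ) : ℤˣ) : ℤ) * β i = |β i| := by
    intro i _
    split_ifs with h
    · rw [abs_of_nonneg h]; simp
    · rw [abs_of_neg (not_le.mp h)]; simp
  rw [Finset.sum_congr rfl h2] at h1
  exact h1

end Vale.Agent.Lib.P182
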