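import Vale.Agent.Lib.P182.PieriPoly
import Vale.Agent.Lib.P182.Vector

/-!
# The sphere sums in the group ring and their products with alternants
-/

namespace Vale.Agent.Lib.P182

open Finset Polynomial

variable {n : ℕ}

/-- Integer vectors of `ℓ¹`-norm `k`. -/
noncomputable def sphere (n k : ℕ) : Finset (Fin n → ℤ) :=
  (Fintype.piFinset fun _ : Fin n => Finset.Icc (-(k : ℤ)) k).filter (fun m => ∑ i, |m i| = k)

theorem mem_sphere {k : ℕ} {m : Fin n → ℤ} : m ∈ sphere n k ↔ ∑ i, |m i| = k := by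
  unfold sphere
  rw [Finset.mem_filter, Fintype.mem_piFinset]
  constructor
  · exact fun h => h.2
  · intro h
    refine ⟨fun i => ?_, h⟩
    rw [Finset.mem_Icc]
    have h1 : |m i| ≤ ∑ j, |m j| :=
      Finset.single_le_sum (fun j _ => abs_nonneg (m j)) (Finset.mem_univ i)
    rw [h] at h1
    exact abs_le.mp h1

/-- The sum of the exponentials `e^{2m}` over the integer vectors `m` of `ℓ¹`-norm `k`. -/
noncomputable def Qd (n k : ℕ) : AddMonoidAlgebra ℤ (Fin n → ℤ) :=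
  ∑ m ∈ sphere n k, AddMonoidAlgebra.single ((2 : ℤ) • m) (1 : ℤ)

theorem wact_two_smul (σ : Equiv.Perm (Fin n)) (e : Fin n → ℤˣ) (m : Fin n → ℤ) :
    wact σ e ((2 : ℤ) • m) = (2 : ℤ) • wact σ e m := by
  funext i
  simp only [wact, Pi.smul_apply, smul_eq_mul]
  ring

theorem wact_mem_sphere {k : ℕ} {m : Fin n → ℤ} (hm : m ∈ sphere n k)
    (σ : Equiv.Perm (Fin n)) (e : Fin n → ℤˣ) : wact σ e m ∈ sphere n k := by
  rw [mem_sphere] at hm ⊢
  rw [← hm]
  simp only [abs_wact]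
  exact Equiv.sum_comp σ (fun i => |m i|)

theorem sphere_stable (k : ℕ) (σ : Equiv.Perm (Fin n)) (e : Fin n → ℤˣ) :
    ∑ m ∈ sphere n k, AddMonoidAlgebra.single (wact σ e ((2 : ℤ) • m)) (1 : ℤ)
      = ∑ m ∈ sphere n k, AddMonoidAlgebra.single ((2 : ℤ) • m) (1 : ℤ) := by
  classical
  have himg : (sphere n k).image (wact σ e) = sphere n k := by
    apply Finset.eq_of_subset_of_card_le
    · intro t ht
      obtain ⟨t', ht', rfl⟩ := Finset.mem_image.mp ht
      exact wact_mem_sphere ht' σ e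
    · rw [Finset.card_image_of_injective _ (wact_injective σ e)]
  conv_rhs => rw [← himg]
  rw [Finset.sum_image (fun x _ y _ h => wact_injective σ e h)]
  refine Finset.sum_congr rfl (fun m _ => ?_)
  rw [wact_two_smul]

theorem Qd_mul_alt (k : ℕ) (v : Fin n → ℤ) :
    Qd n k * alt v = ∑ m ∈ sphere n k, alt (v + (2 : ℤ) • m) :=
  sum_single_mul_alt (sphere n k) (fun m => (2 : ℤ) • m) (fun σ e _ => sphere_stable k σ e) v

theorem isWt_add_two_smul {v : Fin n → ℤ} (hv : IsWt v) (m : Fin n → ℤ) : IsWt (v + (2 : ℤ) • m) := by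
  intro i j
  have := hv i j
  simp only [Pi.add_apply, Pi.smul_apply, smul_eq_mul]
  omega

theorem isAltComb_Qd_mul_alt (k : ℕ) (v : Fin n → ℤ) (hv : IsWt v) :
    IsAltComb (Qd n k * alt v) := by
  rw [Qd_mul_alt]
  exact isAltComb_sum _ _ (fun m _ => isAltComb_alt_of_isWt _ (isWt_add_two_smul hv m))

/-- The inner sum over the sphere. -/
theorem sphere_inner (k : ℕ) (D : Fin n → ℤ) (s : ℤ) (w Z : Fin n → ℤ) (hD : D = Z - w) :
    ∑ m ∈ sphere n k, (if w + (2 : ℤ) • m = Z then s else 0)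
      = if (∀ i, 2 ∣ D i) ∧ ∑ i, |D i| = 2 * (k : ℤ) then s else 0 := by
  classical
  by_cases hev : ∀ i, 2 ∣ D i
  · have hiff : ∀ m : Fin n → ℤ, (w + (2 : ℤ) • m = Z) ↔ m = fun i => D i / 2 := by
      intro m
      constructor
      · intro h
        funext i
        have h1 := congrFun h i
        have h2 := congrFun hD i
        simp only [Pi.add_apply, Pi.smul_apply, smul_eq_mul, Pi.sub_apply] at h1 h2
        omega
      · intro h
        funext i
        have h2 := congrFun hD i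
        obtain ⟨c, hc⟩ := hev i
        simp only [Pi.add_apply, Pi.smul_apply, smul_eq_mul, Pi.sub_apply, h] at h2 ⊢
        omega
    simp only [hiff]
    rw [Finset.sum_ite_eq' (sphere n k) (fun i => D i / 2) (fun _ => s)]
    have hmem : (fun i => D i / 2) ∈ sphere n k ↔ ∑ i, |D i| = 2 * (k : ℤ) := by
      rw [mem_sphere]
      have hterm : ∀ i, |D i| = 2 * |D i / 2| := by
        intro i
        obtain ⟨c, hc⟩ := hev i
        rw [hc, Int.mul_ediv_cancel_left c (by norm_num), abs_mul]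
        norm_num
      rw [Finset.sum_congr rfl (fun i _ => hterm i), ← Finset.mul_sum]
      constructor
      · intro h; rw [h]
      · intro h; omega
    by_cases hk : ∑ i, |D i| = 2 * (k : ℤ)
    · rw [if_pos (hmem.mpr hk), if_pos ⟨hev, hk⟩]
    · rw [if_neg (fun h => hk (hmem.mp h)), if_neg (fun h => hk h.2)]
  · rw [if_neg (fun h => hev h.1)]
    apply Finset.sum_eq_zero
    intro m _
    rw [if_neg]
    intro h
    apply hev
    intro i
    have h1 := congrFun h i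
    have h2 := congrFun hD i
    simp only [Pi.add_apply, Pi.smul_apply, smul_eq_mul, Pi.sub_apply] at h1 h2
    exact ⟨m i, by omega⟩


theorem Qd_mul_alt_expand (k : ℕ) (Y : Fin n → ℤ) :
    Qd n k * alt Y = ∑ σ : Equiv.Perm (Fin n), ∑ e ∈ evenSigns n, ∑ m ∈ sphere n k,
      AddMonoidAlgebra.single (wact σ e Y + (2 : ℤ) • m) ((Equiv.Perm.sign σ : ℤˣ) : ℤ) := by
  rw [mul_comm]
  unfold Qd alt
  rw [Finset.sum_mul]
  refine Finset.sum_congr rfl (fun σ _ => ?_)
  rw [Finset.sum_mul]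
  refine Finset.sum_congr rfl (fun e _ => ?_)
  rw [Finset.mul_sum]
  refine Finset.sum_congr rfl (fun m _ => ?_)
  rw [AddMonoidAlgebra.single_mul_single, mul_one]

theorem two_dvd_sub_unit_mul (u : ℤˣ) (a b : ℤ) (h : 2 ∣ a - b) :
    2 ∣ a - ((u : ℤˣ) : ℤ) * b := by
  rcases Int.units_eq_one_or u with h1 | h1
  · subst h1
    simpa using h
  · subst h1
    have : a - (((-1 : ℤˣ) : ℤˣ) : ℤ) * b = (a - b) + 2 * b := by
      simp; ring
    rw [this]
    exact dvd_add h (dvd_mul_right 2 b)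

/-- The coefficients of `Qd k * alt Y` at a vector `Z` are the coefficients of the signed sum
polynomial. -/
theorem coeff_Qd_mul_alt (k : ℕ) (Z Y : Fin n → ℤ) (hY : IsWt Y) :
    (Qd n k * alt Y).coeff Z
      = if (∀ i j, 2 ∣ Z i - Y j) then (fpoly Z Y).coeff k else 0 := by
  classical
  rw [Qd_mul_alt_expand]
  have h1 : (∑ σ : Equiv.Perm (Fin n), ∑ e ∈ evenSigns n, ∑ m ∈ sphere n k,
      AddMonoidAlgebra.single (wact σ e Y + (2 : ℤ) • m)
        ((Equiv.Perm.sign σ : ℤˣ) : ℤ)).coeff Z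
      = ∑ σ : Equiv.Perm (Fin n), ∑ e ∈ evenSigns n, ∑ m ∈ sphere n k,
        (if wact σ e Y + (2 : ℤ) • m = Z then ((Equiv.Perm.sign σ : ℤˣ) : ℤ) else 0) := by
    simp [AddMonoidAlgebra.coeff_sum, Finsupp.single_apply]
  rw [h1]
  have h2 : ∀ σ : Equiv.Perm (Fin n), ∀ e : Fin n → ℤˣ,
      ∑ m ∈ sphere n k,
        (if wact σ e Y + (2 : ℤ) • m = Z then ((Equiv.Perm.sign σ : ℤˣ) : ℤ) else 0)
      = if (∀ i, 2 ∣ (Z - wact σ e Y) i) ∧ ∑ i, |(Z - wact σ e Y) i| = 2 * (k : ℤ)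
          then ((Equiv.Perm.sign σ : ℤˣ) : ℤ) else 0 :=
    fun σ e => sphere_inner k _ _ _ _ rfl
  simp only [h2]
  by_cases hpar : ∀ i j, 2 ∣ Z i - Y j
  · rw [if_pos hpar]
    unfold fpoly
    rw [Polynomial.finset_sum_coeff]
    refine Finset.sum_congr rfl (fun σ _ => ?_)
    rw [Polynomial.finset_sum_coeff]
    refine Finset.sum_congr rfl (fun e _ => ?_)
    have hev : ∀ i, 2 ∣ (Z - wact σ e Y) i := fun i =>
      two_dvd_sub_unit_mul (e i) _ _ (hpar i (σ i))
    have hsum : ∑ i, |(Z - wact σ e Y) i| = ∑ i, |Z i - ((e i : ℤˣ) : ℤ) * Y (σ i)| := rfl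
    obtain ⟨c, hc⟩ := two_dvd_sum_abs Z Y hpar σ e
    have hnn : 0 ≤ ∑ i, |Z i - ((e i : ℤˣ) : ℤ) * Y (σ i)| :=
      Finset.sum_nonneg (fun i _ => abs_nonneg _)
    by_cases hk : ∑ i, |Z i - ((e i : ℤˣ) : ℤ) * Y (σ i)| = 2 * (k : ℤ)
    · rw [if_pos ⟨hev, by rw [hsum]; exact hk⟩]
      have : k = (∑ i, |Z i - ((e i : ℤˣ) : ℤ) * Y (σ i)|).toNat / 2 := by omega
      simp [Polynomial.coeff_X_pow, ← this]
    · rw [if_neg (fun h => hk (by rw [← hsum]; exact h.2))]
      have : ¬ (k = (∑ i, |Z i - ((e i : ℤˣ) : ℤ) * Y (σ i)|).toNat / 2) := by omega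
      simp [Polynomial.coeff_X_pow, this]
  · rw [if_neg hpar]
    apply Finset.sum_eq_zero
    intro σ _
    apply Finset.sum_eq_zero
    intro e _
    rw [if_neg]
    intro h
    apply hpar
    intro i j
    have h3 := h.1 i
    have h4 := hY (σ i) j
    simp only [Pi.sub_apply, wact_apply] at h3
    rcases Int.units_eq_one_or (e i) with h5 | h5 <;> rw [h5] at h3 <;> simp at h3 <;> omega


/-- The inverse power series of `(1 - X²)^m`. -/
noncomputable def Vser (m : ℕ) : PowerSeries ℤ :=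
  PowerSeries.invOfUnit (((1 - X ^ 2) ^ m : Polynomial ℤ) : PowerSeries ℤ) 1

theorem U_mul_Vser (m : ℕ) :
    (((1 - X ^ 2) ^ m : Polynomial ℤ) : PowerSeries ℤ) * Vser m = 1 := by
  apply PowerSeries.mul_invOfUnit
  rw [Polynomial.constantCoeff_coe]
  simp [Polynomial.coeff_zero_eq_eval_zero]

/-- The candidate for the character of the `k`-th multiple of the vector weight. -/
noncomputable def Pk (m k : ℕ) : AddMonoidAlgebra ℤ (Fin (m + 1) → ℤ) :=
  ∑ j ∈ Finset.range (k + 1), (PowerSeries.coeff (k - j) (Vser m)) • Qd (m + 1) j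

theorem coeff_Pk_mul_alt (m k : ℕ) (Z Y : Fin (m + 1) → ℤ) (hZ : SDom Z) (hY : SDom Y)
    (hYw : IsWt Y) :
    (Pk m k * alt Y).coeff Z
      = if (∀ i j, 2 ∣ Z i - Y j) then (bpoly Z Y).coeff k else 0 := by
  unfold Pk
  rw [Finset.sum_mul]
  have h1 : (∑ j ∈ Finset.range (k + 1),
      (PowerSeries.coeff (k - j) (Vser m)) • Qd (m + 1) j * alt Y).coeff Z
      = ∑ j ∈ Finset.range (k + 1),
        (PowerSeries.coeff (k - j) (Vser m)) * (Qd (m + 1) j * alt Y).coeff Z := by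
    rw [AddMonoidAlgebra.coeff_sum, Finsupp.finsetSum_apply]
    refine Finset.sum_congr rfl (fun j _ => ?_)
    rw [smul_mul_assoc, AddMonoidAlgebra.coeff_smul, Finsupp.smul_apply, smul_eq_mul]
  rw [h1]
  by_cases hpar : ∀ i j, 2 ∣ Z i - Y j
  · rw [if_pos hpar]
    simp only [coeff_Qd_mul_alt _ Z Y hYw, if_pos hpar]
    have h2 : PowerSeries.coeff k ((fpoly Z Y : PowerSeries ℤ) * Vser m)
        = ∑ j ∈ Finset.range (k + 1),
          (PowerSeries.coeff (k - j) (Vser m)) * (fpoly Z Y).coeff j := by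
      rw [PowerSeries.coeff_mul, Finset.Nat.sum_antidiagonal_eq_sum_range_succ
        (fun i j => PowerSeries.coeff i (fpoly Z Y : PowerSeries ℤ)
          * PowerSeries.coeff j (Vser m)) k]
      refine Finset.sum_congr rfl (fun j _ => ?_)
      rw [Polynomial.coeff_coe, mul_comm]
    rw [← h2, fpoly_eq_mul_bpoly Z Y hZ hY hpar, Polynomial.coe_mul,
      mul_comm ((((1 - X ^ 2) ^ m : Polynomial ℤ) : PowerSeries ℤ)) _, mul_assoc, U_mul_Vser,
      mul_one, Polynomial.coeff_coe]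
  · rw [if_neg hpar]
    simp only [coeff_Qd_mul_alt _ Z Y hYw, if_neg hpar, mul_zero, Finset.sum_const_zero]

theorem isAltComb_Pk_mul_alt (m k : ℕ) (v : Fin (m + 1) → ℤ) (hv : IsWt v) :
    IsAltComb (Pk m k * alt v) := by
  unfold Pk
  rw [Finset.sum_mul]
  apply isAltComb_sum
  intro j _
  rw [smul_mul_assoc]
  exact isAltComb_zsmul _ (isAltComb_Qd_mul_alt j v hv)

end Vale.Agent.Lib.P182
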