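import Vale.Agent.Lib.P182.PieriDet
import Vale.Agent.Lib.P182.Exist3

/-!
# The signed sum over the Weyl group of type `D_n` of `T^{|Z - wY|_1}`
-/

namespace Vale.Agent.Lib.P182

open Finset LaurentPolynomial Matrix

variable {n : ℕ}

/-- The signed sum `∑_{w ∈ W(D_n)} sgn(w) T^{|Z - wY|_1}`. -/
noncomputable def dsum (Z Y : Fin n → ℤ) : LaurentPolynomial ℤ :=
  ∑ σ : Equiv.Perm (Fin n), ∑ e ∈ evenSigns n,
    ((Equiv.Perm.sign σ : ℤˣ) : ℤ) • (T (∑ i, |Z i - ((e i : ℤˣ) : ℤ) * Y (σ i)|) : LaurentPolynomial ℤ)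

theorem T_sum {ι : Type*} (s : Finset ι) (f : ι → ℤ) :
    (T (∑ i ∈ s, f i) : LaurentPolynomial ℤ) = ∏ i ∈ s, T (f i) := by
  classical
  induction s using Finset.induction_on with
  | empty => simp
  | insert a s ha ih => rw [Finset.sum_insert ha, Finset.prod_insert ha, T_add, ih]

/-- A nontrivial even sign vector has at least two minus signs. -/
theorem exists_two_neg {e : Fin n → ℤˣ} (he : e ∈ evenSigns n) (hne : e ≠ 1) :
    ∃ i i' : Fin n, i ≠ i' ∧ e i = -1 ∧ e i' = -1 := by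
  obtain ⟨i, hi⟩ := Function.ne_iff.mp hne
  have hi1 : e i = -1 := by
    rcases Int.units_eq_one_or (e i) with h | h
    · exact absurd h hi
    · exact h
  by_contra hcon
  push Not at hcon
  have hall : ∀ k ∈ (Finset.univ : Finset (Fin n)), k ≠ i → e k = 1 := by
    intro k _ hk
    rcases Int.units_eq_one_or (e k) with h | h
    · exact h
    · exact absurd h (hcon i k (Ne.symm hk) hi1)
  have hprod : ∏ k, e k = e i :=
    Finset.prod_eq_single i hall (fun h => absurd (Finset.mem_univ i) h)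
  rw [mem_evenSigns, hprod, hi1] at he
  exact absurd he (by decide)

/-- Cancellation of the terms of a nontrivial even sign vector. -/
theorem dsum_cancel (Z Y : Fin n → ℤ) (hpos : ∀ i j, 0 ≤ Z i + Y j)
    (e : Fin n → ℤˣ) (he : e ∈ evenSigns n) (hne : e ≠ 1) :
    ∑ σ : Equiv.Perm (Fin n), ((Equiv.Perm.sign σ : ℤˣ) : ℤ) •
      (T (∑ i, |Z i - ((e i : ℤˣ) : ℤ) * Y (σ i)|) : LaurentPolynomial ℤ) = 0 := by
  obtain ⟨a, b, hab, ha, hb⟩ := exists_two_neg he hne
  have hexp : ∀ σ : Equiv.Perm (Fin n),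
      ∑ i, |Z i - ((e i : ℤˣ) : ℤ) * Y ((σ * Equiv.swap a b) i)|
        = ∑ i, |Z i - ((e i : ℤˣ) : ℤ) * Y (σ i)| := by
    intro σ
    have hterm : ∀ i, |Z i - ((e i : ℤˣ) : ℤ) * Y ((σ * Equiv.swap a b) i)|
        = |Z i - ((e i : ℤˣ) : ℤ) * Y (σ i)|
          + ((if i = a then Y (σ b) - Y (σ a) else 0)
            + (if i = b then Y (σ a) - Y (σ b) else 0)) := by
      intro i
      by_cases hia : i = a
      · subst hia
        rw [if_pos rfl, if_neg hab, Equiv.Perm.mul_apply, Equiv.swap_apply_left, ha]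
        have h1 := hpos i (σ b)
        have h2 := hpos i (σ i)
        have e1 : Z i - ((-1 : ℤˣ) : ℤ) * Y (σ b) = Z i + Y (σ b) := by simp
        have e2 : Z i - ((-1 : ℤˣ) : ℤ) * Y (σ i) = Z i + Y (σ i) := by simp
        rw [e1, e2, abs_of_nonneg h1, abs_of_nonneg h2]
        ring
      · by_cases hib : i = b
        · subst hib
          rw [if_neg hia, if_pos rfl, Equiv.Perm.mul_apply, Equiv.swap_apply_right, hb]
          have h1 := hpos i (σ a)
          have h2 := hpos i (σ i)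
          have e1 : Z i - ((-1 : ℤˣ) : ℤ) * Y (σ a) = Z i + Y (σ a) := by simp
          have e2 : Z i - ((-1 : ℤˣ) : ℤ) * Y (σ i) = Z i + Y (σ i) := by simp
          rw [e1, e2, abs_of_nonneg h1, abs_of_nonneg h2]
          ring
        · rw [if_neg hia, if_neg hib, Equiv.Perm.mul_apply,
            Equiv.swap_apply_of_ne_of_ne hia hib]
          ring
    rw [Finset.sum_congr rfl (fun i _ => hterm i), Finset.sum_add_distrib,
      Finset.sum_add_distrib, Finset.sum_ite_eq' Finset.univ a, Finset.sum_ite_eq' Finset.univ b]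
    simp
  apply Finset.sum_ninvolution (fun σ => σ * Equiv.swap a b)
  · intro σ
    rw [hexp σ, Equiv.Perm.sign_mul, Equiv.Perm.sign_swap hab]
    simp
  · intro σ _ h
    have h2 : Equiv.swap a b = 1 := by
      have := congrArg (fun τ => σ⁻¹ * τ) h
      simpa using this
    exact hab (Equiv.swap_eq_one_iff.mp h2)
  · intro σ
    exact Finset.mem_univ _
  · intro σ
    rw [mul_assoc, Equiv.swap_mul_self, mul_one]

/-- When all sums `Z_i + Y_j` are nonnegative the signed sum is a determinant. -/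
theorem dsum_eq_det (Z Y : Fin n → ℤ) (hpos : ∀ i j, 0 ≤ Z i + Y j) :
    dsum Z Y = det (pm Z Y) := by
  unfold dsum
  rw [Finset.sum_comm]
  rw [Finset.sum_eq_single_of_mem (1 : Fin n → ℤˣ) one_mem_evenSigns
    (fun e he hne => dsum_cancel Z Y hpos e he hne)]
  rw [← det_transpose, det_apply]
  refine Finset.sum_congr rfl (fun σ _ => ?_)
  rw [T_sum]
  have : ∀ i, (T |Z i - (((1 : Fin n → ℤˣ) i : ℤˣ) : ℤ) * Y (σ i)| : LaurentPolynomial ℤ)
      = (pm Z Y)ᵀ (σ i) i := by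
    intro i
    simp [pm_apply]
  rw [Finset.prod_congr rfl (fun i _ => this i)]
  rw [Units.smul_def]

theorem units_conj (a b c : ℤˣ) : a * (a * b * c) * c = b := by
  have ha : a * a = 1 := Int.units_mul_self a
  have hc : c * c = 1 := Int.units_mul_self c
  calc a * (a * b * c) * c = (a * a) * b * (c * c) := by simp only [mul_assoc]
    _ = b := by rw [ha, hc, one_mul, mul_one]

/-- Invariance under a simultaneous sign change of `Z` and `Y`. -/
theorem dsum_flip (d : Fin n → ℤˣ) (Z Y : Fin n → ℤ) :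
    dsum (fun i => ((d i : ℤˣ) : ℤ) * Z i) (fun i => ((d i : ℤˣ) : ℤ) * Y i) = dsum Z Y := by
  unfold dsum
  refine Finset.sum_congr rfl (fun σ _ => ?_)
  refine Finset.sum_bij' (fun e _ => fun i => d i * e i * d (σ i))
    (fun e _ => fun i => d i * e i * d (σ i)) ?_ ?_ ?_ ?_ ?_
  · intro e he
    rw [mem_evenSigns] at he ⊢
    rw [Finset.prod_mul_distrib, Finset.prod_mul_distrib, he, mul_one, Equiv.prod_comp σ d,
      ← Finset.prod_mul_distrib]
    simp
  · intro e he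
    rw [mem_evenSigns] at he ⊢
    rw [Finset.prod_mul_distrib, Finset.prod_mul_distrib, he, mul_one, Equiv.prod_comp σ d,
      ← Finset.prod_mul_distrib]
    simp
  · intro e _
    funext i
    exact units_conj (d i) (e i) (d (σ i))
  · intro e _
    funext i
    exact units_conj (d i) (e i) (d (σ i))
  · intro e _
    congr 2
    refine Finset.sum_congr rfl (fun i _ => ?_)
    have h1 : ((d i : ℤˣ) : ℤ) * Z i - ((e i : ℤˣ) : ℤ) * (((d (σ i) : ℤˣ) : ℤ) * Y (σ i))
        = ((d i : ℤˣ) : ℤ) * (Z i - (((d i * e i * d (σ i) : ℤˣ)) : ℤ) * Y (σ i)) := by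
      have h2 : ((d i : ℤˣ) : ℤ) * ((d i : ℤˣ) : ℤ) = 1 := by
        rw [← Units.val_mul, Int.units_mul_self]; rfl
      push_cast
      linear_combination (((e i : ℤˣ) : ℤ) * ((d (σ i) : ℤˣ) : ℤ) * Y (σ i)) * h2
    rw [h1, abs_mul, units_abs, one_mul]


/-- The closed form of the signed sum. -/
noncomputable def cfD {m : ℕ} (Z Y : Fin (m + 1) → ℤ) : LaurentPolynomial ℤ :=
  if (∀ i : Fin m, |Y i.succ| ≤ Z i.castSucc ∧ |Z i.succ| ≤ Y i.castSucc) then
    T (∑ i, |Z i - Y i|) * ∏ i : Fin m,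
      (1 - T (2 * (min (Y i.castSucc) (Z i.castSucc) - max |Y i.succ| |Z i.succ|)))
  else 0

theorem max_abs_of_add_nonneg (a b : ℤ) (h : 0 ≤ a + b) : max a b = max |a| |b| := by
  rcases abs_cases a with ⟨h1, h2⟩ | ⟨h1, h2⟩ <;> rcases abs_cases b with ⟨h3, h4⟩ | ⟨h3, h4⟩ <;>
    rcases le_total a b with h5 | h5 <;> rcases le_total |a| |b| with h6 | h6 <;>
    simp only [max_eq_right, max_eq_left, h5, h6] <;> omega

theorem interl_abs_iff (zc zs yc ys : ℤ) (hz : |zs| < zc) (hy : |ys| < yc) (h : 0 ≤ zs + ys) :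
    (ys ≤ zc ∧ zs ≤ yc) ↔ (|ys| ≤ zc ∧ |zs| ≤ yc) := by
  rcases abs_cases zs with ⟨h1, h2⟩ | ⟨h1, h2⟩ <;> rcases abs_cases ys with ⟨h3, h4⟩ | ⟨h3, h4⟩ <;>
    constructor <;> intro h5 <;> constructor <;> omega

theorem strictAnti_of_sdom {v : Fin n → ℤ} (h : SDom v) : StrictAnti v := by
  intro i j hij
  have := h i j hij
  have := le_abs_self (v j)
  omega

theorem sdom_add_nonneg {m : ℕ} {Z Y : Fin (m + 1) → ℤ} (hZ : SDom Z) (hY : SDom Y)
    (h : 0 ≤ Z (Fin.last m) + Y (Fin.last m)) : ∀ i j, 0 ≤ Z i + Y j := by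
  intro i j
  rcases eq_or_lt_of_le (Fin.le_last i) with hi | hi
  · rcases eq_or_lt_of_le (Fin.le_last j) with hj | hj
    · rw [hi, hj]; exact h
    · have h1 := hY j _ hj
      rw [hi]
      rcases abs_cases (Y (Fin.last m)) with ⟨h3, h4⟩ | ⟨h3, h4⟩ <;> omega
  · have h1 := hZ i _ hi
    rcases eq_or_lt_of_le (Fin.le_last j) with hj | hj
    · rw [hj]
      rcases abs_cases (Z (Fin.last m)) with ⟨h3, h4⟩ | ⟨h3, h4⟩ <;> omega
    · have h2 := hY j _ hj
      rcases abs_cases (Z (Fin.last m)) with ⟨h3, h4⟩ | ⟨h3, h4⟩ <;>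
        rcases abs_cases (Y (Fin.last m)) with ⟨h5, h6⟩ | ⟨h5, h6⟩ <;> omega

/-- The closed form in the case where all sums are nonnegative. -/
theorem dsum_eq_cfD_of_nonneg {m : ℕ} (Z Y : Fin (m + 1) → ℤ) (hZ : SDom Z) (hY : SDom Y)
    (h : 0 ≤ Z (Fin.last m) + Y (Fin.last m)) : dsum Z Y = cfD Z Y := by
  have hpos := sdom_add_nonneg hZ hY h
  rw [dsum_eq_det Z Y hpos, det_pm_eq m Z Y (strictAnti_of_sdom hZ) (strictAnti_of_sdom hY)]
  unfold cfD
  have hlt : ∀ i : Fin m, i.castSucc < i.succ := fun i => by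
    rw [Fin.lt_def]; simp
  have hcond : (∀ i : Fin m, Y i.succ ≤ Z i.castSucc ∧ Z i.succ ≤ Y i.castSucc)
      ↔ (∀ i : Fin m, |Y i.succ| ≤ Z i.castSucc ∧ |Z i.succ| ≤ Y i.castSucc) := by
    constructor
    · intro h1 i
      exact (interl_abs_iff _ _ _ _ (hZ _ _ (hlt i)) (hY _ _ (hlt i)) (hpos _ _)).mp (h1 i)
    · intro h1 i
      exact (interl_abs_iff _ _ _ _ (hZ _ _ (hlt i)) (hY _ _ (hlt i)) (hpos _ _)).mpr (h1 i)
  have hfac : ∀ i : Fin m, max (Y i.succ) (Z i.succ) = max |Y i.succ| |Z i.succ| := fun i =>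
    max_abs_of_add_nonneg _ _ (by have := hpos i.succ i.succ; omega)
  by_cases hc : ∀ i : Fin m, Y i.succ ≤ Z i.castSucc ∧ Z i.succ ≤ Y i.castSucc
  · rw [if_pos hc, if_pos (hcond.mp hc)]
    congr 1
    refine Finset.prod_congr rfl (fun i _ => ?_)
    rw [hfac i]
  · rw [if_neg hc, if_neg (fun h1 => hc (hcond.mpr h1))]

/-- The sign vector with a single minus sign in the last position. -/
def lastFlip (m : ℕ) : Fin (m + 1) → ℤˣ := fun i => if i = Fin.last m then -1 else 1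

theorem lastFlip_castSucc {m : ℕ} (i : Fin m) : lastFlip m i.castSucc = 1 := by
  unfold lastFlip
  rw [if_neg (Fin.castSucc_lt_last i).ne]

theorem cfD_flip {m : ℕ} (Z Y : Fin (m + 1) → ℤ) :
    cfD (fun i => ((lastFlip m i : ℤˣ) : ℤ) * Z i) (fun i => ((lastFlip m i : ℤˣ) : ℤ) * Y i)
      = cfD Z Y := by
  unfold cfD
  have h1 : ∀ i : Fin (m + 1), |((lastFlip m i : ℤˣ) : ℤ) * Z i - ((lastFlip m i : ℤˣ) : ℤ) * Y i|
      = |Z i - Y i| := by
    intro i
    rw [← mul_sub, abs_mul, units_abs, one_mul]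
  simp only [h1, abs_mul, units_abs, one_mul, lastFlip_castSucc, Units.val_one]

theorem sdom_flip {m : ℕ} {Z : Fin (m + 1) → ℤ} (hZ : SDom Z) :
    SDom (fun i => ((lastFlip m i : ℤˣ) : ℤ) * Z i) := by
  intro i j hij
  have hi : i ≠ Fin.last m := (lt_of_lt_of_le hij (Fin.le_last j)).ne
  have : lastFlip m i = 1 := by
    unfold lastFlip; rw [if_neg hi]
  simp only [abs_mul, units_abs, one_mul, this, Units.val_one]
  exact hZ i j hij

/-- Closed form of the signed sum over the Weyl group of type `D`. -/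
theorem dsum_eq_cfD {m : ℕ} (Z Y : Fin (m + 1) → ℤ) (hZ : SDom Z) (hY : SDom Y) :
    dsum Z Y = cfD Z Y := by
  rcases le_or_gt 0 (Z (Fin.last m) + Y (Fin.last m)) with h | h
  · exact dsum_eq_cfD_of_nonneg Z Y hZ hY h
  · rw [← dsum_flip (lastFlip m) Z Y, ← cfD_flip Z Y]
    apply dsum_eq_cfD_of_nonneg _ _ (sdom_flip hZ) (sdom_flip hY)
    have : lastFlip m (Fin.last m) = -1 := by
      unfold lastFlip; rw [if_pos rfl]
    simp only [this]
    push_cast
    omega

end Vale.Agent.Lib.P182
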