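import Vale.Agent.Lib.P182.RkTop

/-!
# Degree in the first variable of an alternant of type `D_(n+1)`
-/

namespace Vale.Agent.Lib.P182

open Finset

variable {n : ℕ}

theorem rho2_succ (n : ℕ) : rho2 (n + 1) = Fin.cons (2 * (n : ℤ)) (rho2 n) := by
  funext i
  refine Fin.cases ?_ ?_ i
  · simp only [Fin.cons_zero, rho2, Fin.val_zero]
    push_cast
    ring
  · intro j
    simp only [Fin.cons_succ, rho2, Fin.val_succ]
    push_cast
    ring

/-- If the first coordinate of `v` dominates the absolute values of the others, every exponent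
of the alternant of `v` has first coordinate at most `v 0`. -/
theorem deg0Le_alt (v0 : ℤ) (v' : Fin n → ℤ) (h : ∀ i, |v' i| ≤ v0) :
    Deg0Le (alt (Fin.cons v0 v' : Fin (n + 1) → ℤ)) v0 := by
  intro γ hγ
  obtain ⟨σ, e, he, rfl⟩ := exists_of_mem_support_alt (Finsupp.mem_support_iff.mpr hγ)
  rcases Nat.eq_zero_or_pos n with hn | hn
  · subst hn
    have hσ : σ 0 = 0 := by
      apply Fin.ext
      have h1 := (σ 0).isLt
      simp only [Fin.val_zero]
      omega
    have he0 : e 0 = 1 := by
      have h1 := mem_evenSigns.mp he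
      simpa using h1
    rw [wact_apply, hσ, he0]
    simp
  · have hv0 : 0 ≤ v0 := le_trans (abs_nonneg _) (h ⟨0, hn⟩)
    have hall : ∀ i : Fin (n + 1), |(Fin.cons v0 v' : Fin (n + 1) → ℤ) i| ≤ v0 := by
      intro i
      refine Fin.cases ?_ ?_ i
      · rw [Fin.cons_zero, abs_of_nonneg hv0]
      · intro j
        rw [Fin.cons_succ]
        exact h j
    calc wact σ e (Fin.cons v0 v') 0 ≤ |wact σ e (Fin.cons v0 v') 0| := le_abs_self _
      _ = |(Fin.cons v0 v' : Fin (n + 1) → ℤ) (σ 0)| := abs_wact σ e _ 0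
      _ ≤ v0 := hall _

end Vale.Agent.Lib.P182
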