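import Vale.Agent.Lib.P182.RkTop

/-!
# The top-degree part of an alternant of type `D_(n+1)` is an alternant of type `D_n`
-/

namespace Vale.Agent.Lib.P182

open Finset

variable {n : ℕ}

/-- A sum over the even sign vectors with first sign one is a sum over the even sign vectors
in one variable less. -/
theorem rkalttop_sum_signs {M : Type*} [AddCommMonoid M] (G : (Fin n → ℤˣ) → M) :
    ∑ e ∈ evenSigns (n + 1), (if e 0 = 1 then G (Fin.tail e) else 0)
      = ∑ e' ∈ evenSigns n, G e' := by
  rw [← Finset.sum_filter]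
  refine Finset.sum_nbij' (fun e => Fin.tail e)
    (fun e' => (Fin.cons 1 e' : Fin (n + 1) → ℤˣ)) ?_ ?_ ?_ ?_ ?_
  · intro e he
    rw [Finset.mem_filter, mem_evenSigns] at he
    rw [mem_evenSigns]
    have h1 := he.1
    rw [Fin.prod_univ_succ, he.2, one_mul] at h1
    exact h1
  · intro e' he'
    rw [mem_evenSigns] at he'
    rw [Finset.mem_filter, mem_evenSigns, Fin.prod_univ_succ]
    simp [he']
  · intro e he
    rw [Finset.mem_filter] at he
    show (Fin.cons 1 (Fin.tail e) : Fin (n + 1) → ℤˣ) = e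
    rw [← he.2]
    exact Fin.cons_self_tail e
  · intro e' _
    rfl
  · intro e _
    rfl

/-- The first coordinate of an image of `(v0, v')` under the Weyl group is `v0` only for the
elements fixing the first coordinate. -/
theorem rkalttop_cond (v0 : ℤ) (v' : Fin n → ℤ) (h : ∀ i, |v' i| < v0)
    (σ : Equiv.Perm (Fin (n + 1))) (e : Fin (n + 1) → ℤˣ) (he : e ∈ evenSigns (n + 1)) :
    ((e 0 : ℤ) * (Fin.cons v0 v' : Fin (n + 1) → ℤ) (σ 0) = v0) ↔ (σ 0 = 0 ∧ e 0 = 1) := by
  constructor
  · intro hc
    rcases Fin.eq_zero_or_eq_succ (σ 0) with h0 | ⟨j, hj⟩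
    · refine ⟨h0, ?_⟩
      rw [h0, Fin.cons_zero] at hc
      rcases Int.units_eq_one_or (e 0) with h1 | h1
      · exact h1
      · exfalso
        rw [h1] at hc
        have hv0 : v0 = 0 := by
          simp at hc
          omega
        rcases Nat.eq_zero_or_pos n with hn | hn
        · subst hn
          rw [mem_evenSigns, Fin.prod_univ_one, h1] at he
          exact absurd he (by decide)
        · have h2 := h ⟨0, hn⟩
          have h3 := abs_nonneg (v' ⟨0, hn⟩)
          omega
    · exfalso
      rw [hj, Fin.cons_succ] at hc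
      have h1 := h j
      have h2 : |(e 0 : ℤ) * v' j| = |v' j| := by
        rcases Int.units_eq_one_or (e 0) with h3 | h3 <;> simp [h3]
      rw [hc] at h2
      have h4 := le_abs_self v0
      omega
  · rintro ⟨h0, h1⟩
    rw [h0, h1, Fin.cons_zero]
    simp

/-- If the first coordinate of `v = (v0, v')` strictly dominates the absolute values of the
others, the part of degree `v0` in the first variable of the alternant of `v` is the alternant
of `v'` (in one variable less). -/
theorem top_alt (v0 : ℤ) (v' : Fin n → ℤ) (h : ∀ i, |v' i| < v0) :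
    top v0 (alt (Fin.cons v0 v' : Fin (n + 1) → ℤ)) = alt v' := by
  unfold alt
  rw [top_sum]
  have step1 : ∀ σ : Equiv.Perm (Fin (n + 1)),
      top v0 (∑ e ∈ evenSigns (n + 1),
        AddMonoidAlgebra.single (wact σ e (Fin.cons v0 v' : Fin (n + 1) → ℤ))
          ((Equiv.Perm.sign σ : ℤˣ) : ℤ))
      = ∑ e ∈ evenSigns (n + 1), if σ 0 = 0 ∧ e 0 = 1 then
          AddMonoidAlgebra.single (Fin.tail (wact σ e (Fin.cons v0 v' : Fin (n + 1) → ℤ)))
            ((Equiv.Perm.sign σ : ℤˣ) : ℤ) else 0 := by
    intro σ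
    rw [top_sum]
    apply Finset.sum_congr rfl
    intro e he
    rw [top_single]
    have hc : wact σ e (Fin.cons v0 v' : Fin (n + 1) → ℤ) 0 = v0 ↔ σ 0 = 0 ∧ e 0 = 1 :=
      rkalttop_cond v0 v' h σ e he
    by_cases hcond : σ 0 = 0 ∧ e 0 = 1
    · rw [if_pos hcond, if_pos (hc.mpr hcond)]
    · rw [if_neg hcond, if_neg (fun hh => hcond (hc.mp hh))]
  rw [Finset.sum_congr rfl (fun σ _ => step1 σ)]
  rw [← Equiv.sum_comp Equiv.Perm.decomposeFin.symm, Fintype.sum_prod_type]
  rw [Finset.sum_eq_single (0 : Fin (n + 1))]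
  · apply Finset.sum_congr rfl
    intro σ' _
    rw [← rkalttop_sum_signs (fun e' =>
      AddMonoidAlgebra.single (wact σ' e' v') ((Equiv.Perm.sign σ' : ℤˣ) : ℤ))]
    apply Finset.sum_congr rfl
    intro e _
    by_cases he0 : e 0 = 1
    · rw [if_pos he0, if_pos ⟨Equiv.Perm.decomposeFin_symm_apply_zero 0 σ', he0⟩]
      have e1 : Fin.tail (wact (Equiv.Perm.decomposeFin.symm ((0 : Fin (n + 1)), σ')) e
          (Fin.cons v0 v' : Fin (n + 1) → ℤ)) = wact σ' (Fin.tail e) v' := by
        funext i
        simp [Fin.tail, wact, Equiv.Perm.decomposeFin_symm_apply_succ]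
      have e2 : Equiv.Perm.sign (Equiv.Perm.decomposeFin.symm ((0 : Fin (n + 1)), σ'))
          = Equiv.Perm.sign σ' := by
        rw [Equiv.Perm.decomposeFin.symm_sign]
        simp
      rw [e1, e2]
    · rw [if_neg he0, if_neg (fun hh => he0 hh.2)]
  · intro p _ hp
    apply Finset.sum_eq_zero
    intro σ' _
    apply Finset.sum_eq_zero
    intro e _
    rw [if_neg]
    intro hh
    exact hp (by rw [← hh.1, Equiv.Perm.decomposeFin_symm_apply_zero])
  · intro hh
    exact absurd (Finset.mem_univ _) hh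

end Vale.Agent.Lib.P182
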