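import Vale.Agent.Lib.P182.RkAltDeg
import Vale.Agent.Lib.P182.RkAltTop
import Vale.Agent.Lib.P182.Exist3

/-!
# Reduction of rank on the facet where the first coordinates add up

The multiplicity of `V(a + b, K')` in `V(a, L') ⊗ V(b, M')` for `D_(n+1)` is the multiplicity
of `V(K')` in `V(L') ⊗ V(M')` for `D_n`.
-/

namespace Vale.Agent.Lib.P182

open Finset

variable {n : ℕ}

theorem rkfacet_add_rho (K : Fin (n + 1) → ℤ) :
    K + rho2 (n + 1) = Fin.cons (K 0 + 2 * (n : ℤ)) (Fin.tail K + rho2 n) := by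
  rw [rho2_succ]
  funext i
  refine Fin.cases ?_ (fun j => ?_) i
  · simp
  · simp [Fin.tail]

theorem rkfacet_bound {K : Fin (n + 1) → ℤ} (hK : Dominant K) (i : Fin n) :
    |(Fin.tail K + rho2 n) i| < K 0 + 2 * (n : ℤ) := by
  have h1 : |K i.succ| ≤ K 0 := hK 0 i.succ (Fin.succ_pos i)
  have h2 := rho2_nonneg i
  have h3 := rho2_le i
  have h4 := abs_add_le (K i.succ) (rho2 n i)
  rw [abs_of_nonneg h2] at h4
  show |K i.succ + rho2 n i| < K 0 + 2 * (n : ℤ)
  linarith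

theorem rkfacet_deg {K : Fin (n + 1) → ℤ} (hK : Dominant K) :
    Deg0Le (alt (K + rho2 (n + 1))) (K 0 + 2 * (n : ℤ)) := by
  rw [rkfacet_add_rho]
  exact deg0Le_alt _ _ (fun i => le_of_lt (rkfacet_bound hK i))

theorem rkfacet_top {K : Fin (n + 1) → ℤ} (hK : Dominant K) :
    top (K 0 + 2 * (n : ℤ)) (alt (K + rho2 (n + 1))) = alt (Fin.tail K + rho2 n) := by
  rw [rkfacet_add_rho]
  exact top_alt _ _ (fun i => rkfacet_bound hK i)

theorem facet_mult (L' M' : Fin n → ℤ) (a b : ℤ)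
    (hL : Dominant (Fin.cons a L' : Fin (n + 1) → ℤ))
    (hM : Dominant (Fin.cons b M' : Fin (n + 1) → ℤ))
    {c : (Fin (n + 1) → ℤ) →₀ ℤ}
    (hc : IsTensorMult (Fin.cons a L' : Fin (n + 1) → ℤ) (Fin.cons b M') c)
    {c' : (Fin n → ℤ) →₀ ℤ} (hc' : IsTensorMult L' M' c') (K' : Fin n → ℤ) :
    c (Fin.cons (a + b) K') = c' K' := by
  classical
  have hrdom : Dominant (rho2 (n + 1)) := fun i j hij => le_of_lt (sdom_rho2 i j hij)
  have dL : Deg0Le (alt ((Fin.cons a L' : Fin (n + 1) → ℤ) + rho2 (n + 1)))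
      (a + 2 * (n : ℤ)) := by
    have h := rkfacet_deg hL
    rwa [Fin.cons_zero] at h
  have tL : top (a + 2 * (n : ℤ)) (alt ((Fin.cons a L' : Fin (n + 1) → ℤ) + rho2 (n + 1)))
      = alt (L' + rho2 n) := by
    have h := rkfacet_top hL
    rwa [Fin.cons_zero, Fin.tail_cons] at h
  have dM : Deg0Le (alt ((Fin.cons b M' : Fin (n + 1) → ℤ) + rho2 (n + 1)))
      (b + 2 * (n : ℤ)) := by
    have h := rkfacet_deg hM
    rwa [Fin.cons_zero] at h
  have tM : top (b + 2 * (n : ℤ)) (alt ((Fin.cons b M' : Fin (n + 1) → ℤ) + rho2 (n + 1)))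
      = alt (M' + rho2 n) := by
    have h := rkfacet_top hM
    rwa [Fin.cons_zero, Fin.tail_cons] at h
  have hz : Dominant (0 : Fin (n + 1) → ℤ) := by
    intro i j _
    simp
  have d0 : Deg0Le (alt (rho2 (n + 1))) (2 * (n : ℤ)) := by
    have h := rkfacet_deg hz
    rwa [zero_add, Pi.zero_apply, zero_add] at h
  have t0 : top (2 * (n : ℤ)) (alt (rho2 (n + 1))) = alt (rho2 n) := by
    have h := rkfacet_top hz
    have ht : Fin.tail (0 : Fin (n + 1) → ℤ) = 0 := rfl
    rwa [zero_add, Pi.zero_apply, zero_add, ht, zero_add] at h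
  obtain ⟨S, hS⟩ : ∃ S, S = ∑ K ∈ c.support, c K • alt (K + rho2 (n + 1)) := ⟨_, rfl⟩
  have hprod : alt ((Fin.cons a L' : Fin (n + 1) → ℤ) + rho2 (n + 1))
      * alt ((Fin.cons b M' : Fin (n + 1) → ℤ) + rho2 (n + 1)) = alt (rho2 (n + 1)) * S := by
    rw [hS]
    exact hc.2
  have dLM := deg0Le_mul dL dM
  -- the degree of the sum
  have dS : Deg0Le S (a + b + 2 * (n : ℤ)) := by
    have hB : ∀ γ' ∈ (S * alt (rho2 (n + 1))).coeff.support,
        (Pi.evalAddMonoidHom (fun _ : Fin (n + 1) => ℤ) 0) γ' ≤ a + b + 4 * (n : ℤ) := by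
      intro γ' hγ'
      rw [mul_comm, ← hprod] at hγ'
      have h1 := dLM γ' (Finsupp.mem_support_iff.mp hγ')
      simp only [Pi.evalAddMonoidHom_apply]
      linarith
    have hA : ∃ γ' ∈ (alt (rho2 (n + 1))).coeff.support,
        2 * (n : ℤ) ≤ (Pi.evalAddMonoidHom (fun _ : Fin (n + 1) => ℤ) 0) γ' := by
      refine ⟨rho2 (n + 1), ?_, ?_⟩
      · rw [Finsupp.mem_support_iff, alt_coeff_dom hrdom sdom_rho2, if_pos rfl]
        exact one_ne_zero
      · simp only [Pi.evalAddMonoidHom_apply]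
        simp [rho2]
    have hkb := key_bound _ S (alt (rho2 (n + 1))) _ _ hB hA
    intro γ hγ
    have h1 := hkb γ (Finsupp.mem_support_iff.mpr hγ)
    simp only [Pi.evalAddMonoidHom_apply] at h1
    linarith
  -- the parts of top degree of both sides
  have e1 : a + 2 * (n : ℤ) + (b + 2 * (n : ℤ)) = 2 * (n : ℤ) + (a + b + 2 * (n : ℤ)) := by
    ring
  have hL2 := top_mul dL dM
  have hR2 := top_mul d0 dS
  rw [hprod, e1, hR2, tL, tM, t0] at hL2
  have hS3 : top (a + b + 2 * (n : ℤ)) S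
      = ∑ K ∈ c.support, if K 0 = a + b then c K • alt (Fin.tail K + rho2 n) else 0 := by
    rw [hS, top_sum]
    apply Finset.sum_congr rfl
    intro K hK
    rw [top_zsmul]
    have hKd := hc.1 K hK
    have hK0 : K 0 ≤ a + b := by
      have h1 : S.coeff (K + rho2 (n + 1)) = c K := by
        rw [hS]
        exact coeff_sum_alt c hc.1 K hKd
      have h2 : S.coeff (K + rho2 (n + 1)) ≠ 0 := by
        rw [h1]
        exact Finsupp.mem_support_iff.mp hK
      have h3 := dS _ h2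
      have h4 : (K + rho2 (n + 1)) 0 = K 0 + 2 * (n : ℤ) := by
        rw [rkfacet_add_rho, Fin.cons_zero]
      linarith
    by_cases h : K 0 = a + b
    · rw [if_pos h, ← h, rkfacet_top hKd]
    · rw [if_neg h, top_eq_zero_of_lt (rkfacet_deg hKd) (by omega), smul_zero]
  -- the restricted multiplicity function
  have hinj : Set.InjOn (fun K2 : Fin n → ℤ => (Fin.cons (a + b) K2 : Fin (n + 1) → ℤ))
      ((fun K2 : Fin n → ℤ => (Fin.cons (a + b) K2 : Fin (n + 1) → ℤ)) ⁻¹' ↑c.support) :=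
    fun x _ y _ h => Fin.cons_right_injective (α := fun _ => ℤ) (a + b) h
  obtain ⟨c2, hc2⟩ : ∃ c2 : (Fin n → ℤ) →₀ ℤ,
      ∀ K2, c2 K2 = c (Fin.cons (a + b) K2 : Fin (n + 1) → ℤ) :=
    ⟨Finsupp.comapDomain _ c hinj, fun K2 => Finsupp.comapDomain_apply _ _ _ _⟩
  have hsum : ∑ K2 ∈ c2.support, c2 K2 • alt (K2 + rho2 n)
      = ∑ K ∈ c.support, if K 0 = a + b then c K • alt (Fin.tail K + rho2 n) else 0 := by
    rw [← Finset.sum_filter]
    refine Finset.sum_bij (fun K2 _ => (Fin.cons (a + b) K2 : Fin (n + 1) → ℤ)) ?_ ?_ ?_ ?_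
    · intro K2 hK2
      rw [Finset.mem_filter, Finsupp.mem_support_iff]
      rw [Finsupp.mem_support_iff, hc2] at hK2
      exact ⟨hK2, Fin.cons_zero _ _⟩
    · intro K1 _ K2 _ h
      exact Fin.cons_right_injective (α := fun _ => ℤ) (a + b) h
    · intro K hK
      rw [Finset.mem_filter, Finsupp.mem_support_iff] at hK
      have hKe : (Fin.cons (a + b) (Fin.tail K) : Fin (n + 1) → ℤ) = K := by
        rw [← hK.2]
        exact Fin.cons_self_tail K
      refine ⟨Fin.tail K, ?_, hKe⟩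
      rw [Finsupp.mem_support_iff, hc2, hKe]
      exact hK.1
    · intro K2 _
      rw [hc2, Fin.tail_cons]
  have h2 : IsTensorMult L' M' c2 := by
    refine ⟨?_, ?_⟩
    · intro K2 hK2 i j hij
      rw [Finsupp.mem_support_iff, hc2] at hK2
      have hd := hc.1 _ (Finsupp.mem_support_iff.mpr hK2)
      have h3 := hd i.succ j.succ (Fin.succ_lt_succ_iff.mpr hij)
      simpa using h3
    · rw [hsum, ← hS3]
      exact hL2.symm
  have h4 := tensorMult_unique h2 hc'
  rw [← hc2, h4]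

end Vale.Agent.Lib.P182
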