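import Vale.Agent.Lib.P182.RkFacet
import Vale.Agent.Lib.P182.Sym

/-!
# The saturation property passes from `Spin(2n+2)` to `Spin(2n)`
-/

namespace Vale.Agent.Lib.P182

open Finset

/-- The saturation property of `Spin(2n)` in doubled coordinates: for all dominant weights
`L, M, Nu` with `L + M + Nu` in (twice) the root lattice and all `N ≥ 1`, if the multiplicity of
`V((N Nu)^*)` in `V(N L) ⊗ V(N M)` is nonzero, then so is the multiplicity of `V(Nu^*)` in
`V(L) ⊗ V(M)`. -/
def SatProp (n : ℕ) : Prop :=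
  ∀ L M Nu : Fin n → ℤ, Dominant L → IsWt L → Dominant M → IsWt M → Dominant Nu →
    InTwoQ (L + M + Nu) → ∀ N : ℕ, 1 ≤ N → ∀ c cN : (Fin n → ℤ) →₀ ℤ,
      IsTensorMult L M c → IsTensorMult (N • L) (N • M) cN →
      cN (dual (N • Nu)) ≠ 0 → c (dual Nu) ≠ 0

variable {n : ℕ}

theorem dominant_cons {v : Fin n → ℤ} (hv : Dominant v) (x : ℤ) (hx : ∀ i, |v i| ≤ x) :
    Dominant (Fin.cons x v : Fin (n + 1) → ℤ) := by
  intro i j hij
  induction i using Fin.cases with
  | zero =>
    induction j using Fin.cases with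
    | zero => exact absurd hij (lt_irrefl _)
    | succ j =>
      rw [Fin.cons_zero, Fin.cons_succ]
      exact hx j
  | succ i =>
    induction j using Fin.cases with
    | zero => exact absurd hij (Fin.not_lt_zero _)
    | succ j =>
      rw [Fin.cons_succ, Fin.cons_succ]
      exact hv i j (Fin.succ_lt_succ_iff.mp hij)

theorem abs_le_head (hn : 2 ≤ n) {v : Fin n → ℤ} (hv : Dominant v) (i : Fin n) :
    |v i| ≤ v ⟨0, by omega⟩ := by
  by_cases hi : i = ⟨0, by omega⟩
  · have h1 := hv ⟨0, by omega⟩ ⟨1, by omega⟩ (by rw [Fin.lt_def]; simp)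
    have h2 : 0 ≤ v ⟨0, by omega⟩ := le_trans (abs_nonneg _) h1
    rw [hi, abs_of_nonneg h2]
  · refine hv ⟨0, by omega⟩ i ?_
    rw [Fin.lt_def]
    have h3 : i.val ≠ 0 := fun h0 => hi (Fin.ext h0)
    simp only
    omega

theorem isWt_cons {v : Fin n → ℤ} (hv : IsWt v) (x : ℤ) (hx : ∀ i, 2 ∣ x - v i) :
    IsWt (Fin.cons x v : Fin (n + 1) → ℤ) := by
  intro i j
  induction i using Fin.cases with
  | zero =>
    induction j using Fin.cases with
    | zero => simp
    | succ j =>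
      rw [Fin.cons_zero, Fin.cons_succ]
      exact hx j
  | succ i =>
    induction j using Fin.cases with
    | zero =>
      rw [Fin.cons_zero, Fin.cons_succ]
      have h1 := hx i
      omega
    | succ j =>
      rw [Fin.cons_succ, Fin.cons_succ]
      exact hv i j

theorem nsmul_cons (N : ℕ) (x : ℤ) (v : Fin n → ℤ) :
    N • (Fin.cons x v : Fin (n + 1) → ℤ) = Fin.cons (N • x) (N • v) := by
  funext i
  induction i using Fin.cases with
  | zero => simp
  | succ i => simp

theorem inTwoQ_cons_zero {x : Fin n → ℤ} (h : InTwoQ x) :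
    InTwoQ (Fin.cons 0 x : Fin (n + 1) → ℤ) := by
  refine ⟨fun i => ?_, ?_⟩
  · induction i using Fin.cases with
    | zero => simp
    | succ i =>
      rw [Fin.cons_succ]
      exact h.1 i
  · rw [Fin.sum_univ_succ]
    simp only [Fin.cons_zero, Fin.cons_succ, zero_add]
    exact h.2

theorem inTwoQ_add_dual {L M K : Fin n → ℤ} (hKw : IsWt K) (h : InTwoQ (L + M - K)) :
    InTwoQ (L + M + dual K) := by
  refine ⟨fun i => ?_, ?_⟩
  · have h1 := h.1 i
    simp only [Pi.add_apply, Pi.sub_apply, dual] at h1 ⊢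
    rcases Int.units_eq_one_or (dsgn n i) with h2 | h2 <;> rw [h2] <;> simp <;> omega
  · have h1 := h.2
    have hsplit : ∑ i, (L + M + dual K) i
        = ∑ i, (L + M - K) i + ∑ i, (((dsgn n i : ℤˣ) : ℤ) + 1) * K i := by
      rw [← Finset.sum_add_distrib]
      refine Finset.sum_congr rfl (fun i _ => ?_)
      simp only [Pi.add_apply, Pi.sub_apply, dual]
      ring
    rw [hsplit]
    exact dvd_add h1 (four_dvd_sum_dsgn K hKw)

theorem dominant_of_smul {K : Fin n → ℤ} (N : ℕ) (hN : 1 ≤ N) (h : Dominant (N • K)) :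
    Dominant K := by
  intro i j hij
  have h1 := h i j hij
  simp only [Pi.smul_apply, nsmul_eq_mul] at h1
  have hNpos : (0 : ℤ) < (N : ℤ) := by exact_mod_cast hN
  rw [abs_mul, abs_of_pos hNpos] at h1
  exact le_of_mul_le_mul_left h1 hNpos

/-- Rank monotonicity: the saturation property for `Spin(2n+2)` implies the saturation property
for `Spin(2n)`. -/
theorem rank_mono (n : ℕ) (hn : 2 ≤ n) (h : SatProp (n + 1)) : SatProp n := by
  intro L' M' Nu' hL' hLw' hM' hMw' hNu' hQ' N hN c' cN' hc' hcN' hne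
  have hNuw' : IsWt Nu' := isWt_third hLw' hMw' hQ'
  have hKd' : Dominant (dual Nu') := dominant_dual hNu'
  have hKw' : IsWt (dual Nu') := isWt_dual hNuw'
  have hQ1 : InTwoQ (L' + M' - dual Nu') := inTwoQ_sub_dual hNuw' hQ'
  rw [dual_nsmul] at hne
  have hL : Dominant (Fin.cons (L' ⟨0, by omega⟩) L' : Fin (n + 1) → ℤ) :=
    dominant_cons hL' _ (abs_le_head hn hL')
  have hM : Dominant (Fin.cons (M' ⟨0, by omega⟩) M' : Fin (n + 1) → ℤ) :=
    dominant_cons hM' _ (abs_le_head hn hM')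
  have hLw : IsWt (Fin.cons (L' ⟨0, by omega⟩) L' : Fin (n + 1) → ℤ) :=
    isWt_cons hLw' _ (fun i => hLw' _ i)
  have hMw : IsWt (Fin.cons (M' ⟨0, by omega⟩) M' : Fin (n + 1) → ℤ) :=
    isWt_cons hMw' _ (fun i => hMw' _ i)
  obtain ⟨c, hc⟩ := exists_tensorMult _ _ hL hLw hMw
  obtain ⟨cN, hcN⟩ := exists_tensorMult _ _ (dominant_smul hL N) (isWt_smul hLw N)
    (isWt_smul hMw N)
  have e1 := facet_mult L' M' _ _ hL hM hc hc' (dual Nu')
  have hLN := nsmul_cons N (L' ⟨0, by omega⟩) L'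
  have hMN := nsmul_cons N (M' ⟨0, by omega⟩) M'
  have hLNd := dominant_smul hL N
  have hMNd := dominant_smul hM N
  rw [hLN] at hLNd
  rw [hMN] at hMNd
  rw [hLN, hMN] at hcN
  have e2 := facet_mult (N • L') (N • M') _ _ hLNd hMNd hcN hcN' (N • dual Nu')
  have hNK : N • (Fin.cons (L' ⟨0, by omega⟩ + M' ⟨0, by omega⟩) (dual Nu') : Fin (n + 1) → ℤ)
      = Fin.cons (N • L' ⟨0, by omega⟩ + N • M' ⟨0, by omega⟩) (N • dual Nu') := by
    rw [nsmul_cons, smul_add]
  have hcNK : cN (N • (Fin.cons (L' ⟨0, by omega⟩ + M' ⟨0, by omega⟩) (dual Nu') :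
      Fin (n + 1) → ℤ)) ≠ 0 := by
    rw [hNK, e2]
    exact hne
  have hNKd := hcN.1 _ (Finsupp.mem_support_iff.mpr hcNK)
  have hKd := dominant_of_smul N hN hNKd
  have hKw : IsWt (Fin.cons (L' ⟨0, by omega⟩ + M' ⟨0, by omega⟩) (dual Nu') :
      Fin (n + 1) → ℤ) := by
    refine isWt_cons hKw' _ (fun i => ?_)
    have h1 := hQ1.1 i
    have h2 := hLw' ⟨0, by omega⟩ i
    have h3 := hMw' ⟨0, by omega⟩ i
    simp only [Pi.add_apply, Pi.sub_apply] at h1
    omega
  have hQK : InTwoQ ((Fin.cons (L' ⟨0, by omega⟩) L' : Fin (n + 1) → ℤ)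
      + Fin.cons (M' ⟨0, by omega⟩) M'
      - Fin.cons (L' ⟨0, by omega⟩ + M' ⟨0, by omega⟩) (dual Nu')) := by
    have h4 : (Fin.cons (L' ⟨0, by omega⟩) L' : Fin (n + 1) → ℤ)
        + Fin.cons (M' ⟨0, by omega⟩) M'
        - Fin.cons (L' ⟨0, by omega⟩ + M' ⟨0, by omega⟩) (dual Nu')
        = Fin.cons 0 (L' + M' - dual Nu') := by
      funext i
      induction i using Fin.cases with
      | zero => simp
      | succ i => simp
    rw [h4]
    exact inTwoQ_cons_zero hQ1
  have hQ := inTwoQ_add_dual hKw hQK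
  rw [← hLN, ← hMN] at hcN
  have hres := h _ _ _ hL hLw hM hMw (dominant_dual hKd) hQ N hN c cN hc hcN
  rw [dual_nsmul, dual_dual] at hres
  have h5 := hres hcNK
  rw [e1] at h5
  exact h5

/-- The saturation property for `Spin(2m)` implies the saturation property for `Spin(2n)` for
all `2 ≤ n ≤ m`. -/
theorem rank_mono_le (n : ℕ) (hn : 2 ≤ n) : ∀ m : ℕ, n ≤ m → SatProp m → SatProp n := by
  intro m hnm
  induction m, hnm using Nat.le_induction with
  | base => exact fun h => h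
  | succ m hm ih => exact fun h => ih (rank_mono m (le_trans hn hm) h)

end Vale.Agent.Lib.P182
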