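import Vale.Agent.Lib.P182.FrIp

/-!
# The top-degree part of a group-ring element with respect to the first variable

For `f ∈ ℤ[ℤ^(n+1)]` the element `top d f ∈ ℤ[ℤ^n]` collects the terms of `f` whose exponent has
first coordinate `d`, with that coordinate removed.
-/

namespace Vale.Agent.Lib.P182

open Finset

/-- All exponents of `f` have first coordinate at most `a`. -/
def Deg0Le {n : ℕ} (f : AddMonoidAlgebra ℤ (Fin (n + 1) → ℤ)) (a : ℤ) : Prop :=
  ∀ γ : Fin (n + 1) → ℤ, f.coeff γ ≠ 0 → γ 0 ≤ a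

/-- The part of `f` of degree `d` in the first variable, with the first variable removed. -/
noncomputable def top {n : ℕ} (d : ℤ) (f : AddMonoidAlgebra ℤ (Fin (n + 1) → ℤ)) :
    AddMonoidAlgebra ℤ (Fin n → ℤ) :=
  ∑ γ ∈ f.coeff.support,
    if γ 0 = d then AddMonoidAlgebra.single (Fin.tail γ) (f.coeff γ) else 0

variable {n : ℕ}

/-- `top d f` as a sum over the coefficient function. -/
theorem rktop_eq_sum (d : ℤ) (f : AddMonoidAlgebra ℤ (Fin (n + 1) → ℤ)) :
    top d f = f.coeff.sum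
      (fun γ r => if γ 0 = d then AddMonoidAlgebra.single (Fin.tail γ) r else 0) := rfl

/-- Every element is the sum of its terms. -/
theorem rktop_sum_single (f : AddMonoidAlgebra ℤ (Fin (n + 1) → ℤ)) :
    f = ∑ γ ∈ f.coeff.support, AddMonoidAlgebra.single γ (f.coeff γ) := by
  apply AddMonoidAlgebra.coeff_injective
  rw [AddMonoidAlgebra.coeff_sum]
  exact (Finsupp.sum_single f.coeff).symm

theorem top_single (d : ℤ) (γ : Fin (n + 1) → ℤ) (r : ℤ) :
    top d (AddMonoidAlgebra.single γ r)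
      = if γ 0 = d then AddMonoidAlgebra.single (Fin.tail γ) r else 0 := by
  rw [rktop_eq_sum, AddMonoidAlgebra.coeff_single]
  exact Finsupp.sum_single_index (by simp)

theorem top_add (d : ℤ) (f g : AddMonoidAlgebra ℤ (Fin (n + 1) → ℤ)) :
    top d (f + g) = top d f + top d g := by
  rw [rktop_eq_sum, rktop_eq_sum, rktop_eq_sum, AddMonoidAlgebra.coeff_add]
  refine Finsupp.sum_add_index' (fun γ => by simp) (fun γ r₁ r₂ => ?_)
  split_ifs
  · exact AddMonoidAlgebra.single_add _ _ _
  · simp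

theorem top_zsmul (d : ℤ) (z : ℤ) (f : AddMonoidAlgebra ℤ (Fin (n + 1) → ℤ)) :
    top d (z • f) = z • top d f :=
  map_zsmul (AddMonoidHom.mk' (top d) (top_add d)) z f

theorem top_sum {ι : Type*} (s : Finset ι) (d : ℤ)
    (f : ι → AddMonoidAlgebra ℤ (Fin (n + 1) → ℤ)) :
    top d (∑ i ∈ s, f i) = ∑ i ∈ s, top d (f i) :=
  map_sum (AddMonoidHom.mk' (top d) (top_add d)) f s

theorem top_eq_zero_of_lt {f : AddMonoidAlgebra ℤ (Fin (n + 1) → ℤ)} {a d : ℤ}
    (hf : Deg0Le f a) (h : a < d) : top d f = 0 := by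
  unfold top
  refine Finset.sum_eq_zero (fun γ hγ => ?_)
  have h1 : γ 0 ≤ a := hf γ (Finsupp.mem_support_iff.mp hγ)
  rw [if_neg (by omega)]

theorem deg0Le_mul {f g : AddMonoidAlgebra ℤ (Fin (n + 1) → ℤ)} {a b : ℤ}
    (hf : Deg0Le f a) (hg : Deg0Le g b) : Deg0Le (f * g) (a + b) := by
  classical
  intro γ hγ
  have hmem := AddMonoidAlgebra.support_coeff_mul_subset f g (Finsupp.mem_support_iff.mpr hγ)
  obtain ⟨c, hc, e, he, rfl⟩ := Finset.mem_add.mp hmem
  have h1 := hf c (Finsupp.mem_support_iff.mp hc)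
  have h2 := hg e (Finsupp.mem_support_iff.mp he)
  simp only [Pi.add_apply]
  omega

/-- The top-degree part is multiplicative. -/
theorem top_mul {f g : AddMonoidAlgebra ℤ (Fin (n + 1) → ℤ)} {a b : ℤ}
    (hf : Deg0Le f a) (hg : Deg0Le g b) : top (a + b) (f * g) = top a f * top b g := by
  have hL : top (a + b) (f * g) = ∑ γ ∈ f.coeff.support, ∑ δ ∈ g.coeff.support,
      top (a + b) (AddMonoidAlgebra.single (γ + δ) (f.coeff γ * g.coeff δ)) := by
    conv_lhs => rw [rktop_sum_single f, rktop_sum_single g, Finset.sum_mul_sum]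
    rw [top_sum]
    refine Finset.sum_congr rfl (fun γ _ => ?_)
    rw [top_sum]
    refine Finset.sum_congr rfl (fun δ _ => ?_)
    rw [AddMonoidAlgebra.single_mul_single]
  have hR : top a f * top b g = ∑ γ ∈ f.coeff.support, ∑ δ ∈ g.coeff.support,
      (if γ 0 = a then AddMonoidAlgebra.single (Fin.tail γ) (f.coeff γ) else 0) *
        (if δ 0 = b then AddMonoidAlgebra.single (Fin.tail δ) (g.coeff δ) else 0) := by
    unfold top
    rw [Finset.sum_mul_sum]
  rw [hL, hR]
  refine Finset.sum_congr rfl (fun γ hγ => ?_)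
  refine Finset.sum_congr rfl (fun δ hδ => ?_)
  have h1 : γ 0 ≤ a := hf γ (Finsupp.mem_support_iff.mp hγ)
  have h2 : δ 0 ≤ b := hg δ (Finsupp.mem_support_iff.mp hδ)
  rw [top_single]
  by_cases hγa : γ 0 = a
  · by_cases hδb : δ 0 = b
    · have hsum : (γ + δ) 0 = a + b := by simp [hγa, hδb]
      have htail : Fin.tail (γ + δ) = Fin.tail γ + Fin.tail δ := by
        funext i
        simp [Fin.tail]
      rw [if_pos hsum, if_pos hγa, if_pos hδb, AddMonoidAlgebra.single_mul_single, htail]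
    · have hsum : ¬ (γ + δ) 0 = a + b := by
        simp only [Pi.add_apply]
        omega
      rw [if_neg hsum, if_neg hδb, mul_zero]
  · have hsum : ¬ (γ + δ) 0 = a + b := by
      simp only [Pi.add_apply]
      omega
    rw [if_neg hsum, if_neg hγa, zero_mul]

end Vale.Agent.Lib.P182
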