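import Vale.Agent.Lib.P182.Sort

namespace Vale.Agent.Lib.P182

open Finset

variable {n : ℕ}

/-- Threshold indicator. -/
def ind (t x : ℤ) : ℤ := if t < x then 1 else 0

theorem sum_ind (lo hi x : ℤ) (h1 : lo ≤ x) (h2 : x ≤ hi) :
    ∑ t ∈ Finset.Ico lo hi, ind t x = x - lo := by
  simp only [ind]
  rw [Finset.sum_boole, Finset.Ico_filter_lt, min_eq_right h2, Int.card_Ico]
  omega

theorem abs_sub_eq_sum_ind (lo hi x y : ℤ) (hx1 : lo ≤ x) (hx2 : x ≤ hi) (hy1 : lo ≤ y)
    (hy2 : y ≤ hi) : |x - y| = ∑ t ∈ Finset.Ico lo hi, |ind t x - ind t y| := by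
  rcases le_total x y with h | h
  · have h1 : ∀ t ∈ Finset.Ico lo hi, |ind t x - ind t y| = ind t y - ind t x := by
      intro t _
      simp only [ind]
      split_ifs <;> first | omega | simp
    rw [Finset.sum_congr rfl h1, Finset.sum_sub_distrib, sum_ind lo hi y hy1 hy2,
      sum_ind lo hi x hx1 hx2, abs_of_nonpos (by omega)]
    ring
  · have h1 : ∀ t ∈ Finset.Ico lo hi, |ind t x - ind t y| = ind t x - ind t y := by
      intro t _
      simp only [ind]
      split_ifs <;> first | omega | simp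
    rw [Finset.sum_congr rfl h1, Finset.sum_sub_distrib, sum_ind lo hi y hy1 hy2,
      sum_ind lo hi x hx1 hx2, abs_of_nonneg (by omega)]
    ring

/-- Sorting lemma for the `ℓ¹` norm, unsigned version. -/
theorem l1_unsigned (a b : Fin n → ℤ) (ha : ∀ i j, i ≤ j → a j ≤ a i)
    (hb : ∀ i j, i ≤ j → b j ≤ b i) (σ : Equiv.Perm (Fin n)) :
    ∑ i, |a i - b i| ≤ ∑ i, |a i - b (σ i)| := by
  set S : ℤ := ∑ i, |a i| + ∑ i, |b i| with hS
  have hbound_a : ∀ i, -S ≤ a i ∧ a i ≤ S := by
    intro i
    have h1 : |a i| ≤ ∑ k, |a k| :=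
      Finset.single_le_sum (fun k _ => abs_nonneg (a k)) (Finset.mem_univ i)
    have h2 : 0 ≤ ∑ k, |b k| := Finset.sum_nonneg (fun k _ => abs_nonneg (b k))
    have h3 := abs_le.mp (le_refl |a i|)
    constructor <;> omega
  have hbound_b : ∀ i, -S ≤ b i ∧ b i ≤ S := by
    intro i
    have h1 : |b i| ≤ ∑ k, |b k| :=
      Finset.single_le_sum (fun k _ => abs_nonneg (b k)) (Finset.mem_univ i)
    have h2 : 0 ≤ ∑ k, |a k| := Finset.sum_nonneg (fun k _ => abs_nonneg (a k))
    have h3 := abs_le.mp (le_refl |b i|)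
    constructor <;> omega
  have e1 : ∀ i, |a i - b i| = ∑ t ∈ Finset.Ico (-S) S, |ind t (a i) - ind t (b i)| :=
    fun i => abs_sub_eq_sum_ind _ _ _ _ (hbound_a i).1 (hbound_a i).2 (hbound_b i).1 (hbound_b i).2
  have e2 : ∀ i, |a i - b (σ i)| = ∑ t ∈ Finset.Ico (-S) S, |ind t (a i) - ind t (b (σ i))| :=
    fun i => abs_sub_eq_sum_ind _ _ _ _ (hbound_a i).1 (hbound_a i).2 (hbound_b _).1 (hbound_b _).2
  rw [Finset.sum_congr rfl (fun i _ => e1 i), Finset.sum_congr rfl (fun i _ => e2 i),
    Finset.sum_comm, Finset.sum_comm (s := Finset.univ)]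
  refine Finset.sum_le_sum (fun t _ => ?_)
  have hnest : (∀ i, ind t (a i) ≤ ind t (b i)) ∨ (∀ i, ind t (b i) ≤ ind t (a i)) := by
    by_contra hcon
    push Not at hcon
    obtain ⟨⟨i, hi⟩, ⟨j, hj⟩⟩ := hcon
    simp only [ind] at hi hj
    have hi1 : t < a i := by by_contra h; simp [h] at hi; split_ifs at hi <;> omega
    have hi2 : ¬ t < b i := by intro h; simp [h] at hi; split_ifs at hi <;> omega
    have hj1 : t < b j := by by_contra h; simp [h] at hj; split_ifs at hj <;> omega
    have hj2 : ¬ t < a j := by intro h; simp [h] at hj; split_ifs at hj <;> omega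
    rcases le_total i j with h | h
    · have := hb i j h; omega
    · have := ha j i h; omega
  have hperm : ∑ i, ind t (b (σ i)) = ∑ i, ind t (b i) :=
    Equiv.sum_comp σ (fun i => ind t (b i))
  have hle := Finset.abs_sum_le_sum_abs (fun i => ind t (a i) - ind t (b (σ i))) Finset.univ
  rw [Finset.sum_sub_distrib, hperm] at hle
  rcases hnest with h | h
  · have h1 : ∀ i ∈ Finset.univ, |ind t (a i) - ind t (b i)| = ind t (b i) - ind t (a i) := by
      intro i _
      rw [abs_of_nonpos (by have := h i; omega)]; ring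
    rw [Finset.sum_congr rfl h1, Finset.sum_sub_distrib]
    have h2 := neg_abs_le (∑ i, ind t (a i) - ∑ i, ind t (b i))
    linarith
  · have h1 : ∀ i ∈ Finset.univ, |ind t (a i) - ind t (b i)| = ind t (a i) - ind t (b i) := by
      intro i _
      rw [abs_of_nonneg (by have := h i; omega)]
    rw [Finset.sum_congr rfl h1, Finset.sum_sub_distrib]
    have h2 := le_abs_self (∑ i, ind t (a i) - ∑ i, ind t (b i))
    linarith

theorem abs_add_eq (p q : ℤ) : p + q = |p - q| + 2 * min p q := by
  rcases le_total p q with h | h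
  · rw [min_eq_left h, abs_of_nonpos (by omega)]; ring
  · rw [min_eq_right h, abs_of_nonneg (by omega)]; ring

/-- For strictly dominant `X`, `Y` whose last coordinates have opposite signs, some coordinate of
`X` and of a Weyl conjugate of `Y` have opposite signs. -/
theorem exists_opposite {X Y : Fin n → ℤ} (hX : SDom X) (hY : SDom Y)
    (σ : Equiv.Perm (Fin n)) (e : Fin n → ℤˣ) (he : e ∈ evenSigns n) (i : Fin n)
    (hlast : ∀ j, j ≤ i) (hsign : X i * Y i < 0) : ∃ j, X j * wact σ e Y j ≤ 0 := by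
  have hposX : ∀ j, j ≠ i → 0 < X j := by
    intro j hj
    exact lt_of_le_of_lt (abs_nonneg _) (hX j i (lt_of_le_of_ne (hlast j) hj))
  have hposY : ∀ j, j ≠ i → 0 < Y j := by
    intro j hj
    exact lt_of_le_of_lt (abs_nonneg _) (hY j i (lt_of_le_of_ne (hlast j) hj))
  by_contra hcon
  push Not at hcon
  have hpos : 0 < ∏ j, X j * wact σ e Y j := Finset.prod_pos (fun j _ => hcon j)
  have hprodw : ∏ j, wact σ e Y j = ∏ j, Y j := by
    simp only [wact]
    rw [Finset.prod_mul_distrib, Equiv.prod_comp σ Y]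
    have : ∏ j, ((e j : ℤˣ) : ℤ) = 1 := by
      rw [← Units.coe_prod, mem_evenSigns.mp he]
      simp
    rw [this, one_mul]
  rw [Finset.prod_mul_distrib, hprodw, ← Finset.prod_mul_distrib] at hpos
  rw [← Finset.mul_prod_erase Finset.univ _ (Finset.mem_univ i)] at hpos
  have hrest : 0 < ∏ j ∈ Finset.univ.erase i, X j * Y j := by
    apply Finset.prod_pos
    intro j hj
    have hji : j ≠ i := (Finset.mem_erase.mp hj).1
    exact mul_pos (hposX j hji) (hposY j hji)
  nlinarith

/-- Sorting lemma for the `ℓ¹` norm and the Weyl group of type `D_n`. -/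
theorem l1_sort {X Y : Fin n → ℤ} (hX : SDom X) (hY : SDom Y)
    (σ : Equiv.Perm (Fin n)) (e : Fin n → ℤˣ) (he : e ∈ evenSigns n) :
    ∑ i, |X i - Y i| ≤ ∑ i, |X i - wact σ e Y i| := by
  have hXanti : ∀ i j, i ≤ j → |X j| ≤ |X i| := by
    intro i j hij
    rcases hij.lt_or_eq with h1 | h1
    · exact le_trans (le_of_lt (hX i j h1)) (le_abs_self _)
    · rw [h1]
  have hYanti : ∀ i j, i ≤ j → |Y j| ≤ |Y i| := by
    intro i j hij
    rcases hij.lt_or_eq with h1 | h1
    · exact le_trans (le_of_lt (hY i j h1)) (le_abs_self _)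
    · rw [h1]
  have huns := l1_unsigned (fun i => |X i|) (fun i => |Y i|) hXanti hYanti σ
  have hterm : ∀ j, |(|X j| - |Y (σ j)|)| ≤ |X j - wact σ e Y j| := by
    intro j
    have h1 := abs_abs_sub_abs_le (X j) (wact σ e Y j)
    rw [abs_wact] at h1
    exact h1
  by_cases hall : ∀ i, 0 ≤ X i * Y i
  · have h1 : ∀ i ∈ Finset.univ, |X i - Y i| = |(|X i| - |Y i|)| :=
      fun i _ => abs_sub_of_mul_nonneg (hall i)
    rw [Finset.sum_congr rfl h1]
    exact le_trans huns (Finset.sum_le_sum (fun j _ => hterm j))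
  · push Not at hall
    obtain ⟨l, hl⟩ := hall
    have hlast : ∀ j, j ≤ l := by
      intro j
      by_contra hcon
      push Not at hcon
      have h1 : 0 < X l := lt_of_le_of_lt (abs_nonneg _) (hX l j hcon)
      have h2 : 0 < Y l := lt_of_le_of_lt (abs_nonneg _) (hY l j hcon)
      have := mul_pos h1 h2
      omega
    obtain ⟨j, hj⟩ := exists_opposite hX hY σ e he l hlast hl
    set m : ℤ := 2 * min |X l| |Y l| with hm
    have hmnonneg : 0 ≤ m := by
      have := abs_nonneg (X l); have := abs_nonneg (Y l)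
      have := le_min (abs_nonneg (X l)) (abs_nonneg (Y l))
      omega
    -- left side
    have hL : ∀ i ∈ Finset.univ, |X i - Y i| = |(|X i| - |Y i|)| + (if i = l then m else 0) := by
      intro i _
      by_cases hil : i = l
      · rw [hil, if_pos rfl, abs_sub_of_mul_nonpos (le_of_lt hl), hm]
        exact abs_add_eq _ _
      · rw [if_neg hil, add_zero]
        have h1 : 0 < X i := lt_of_le_of_lt (abs_nonneg _) (hX i l (lt_of_le_of_ne (hlast i) hil))
        have h2 : 0 < Y i := lt_of_le_of_lt (abs_nonneg _) (hY i l (lt_of_le_of_ne (hlast i) hil))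
        exact abs_sub_of_mul_nonneg (le_of_lt (mul_pos h1 h2))
    have hR : ∀ i ∈ Finset.univ,
        |(|X i| - |Y (σ i)|)| + (if i = j then m else 0) ≤ |X i - wact σ e Y i| := by
      intro i _
      by_cases hij : i = j
      · rw [hij, if_pos rfl, abs_sub_of_mul_nonpos hj, abs_wact]
        have h1 := hXanti j l (hlast j)
        have h2 := hYanti (σ j) l (hlast (σ j))
        have h3 := min_le_min h1 h2
        have h4 := abs_add_eq |X j| |Y (σ j)|
        omega
      · rw [if_neg hij, add_zero]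
        exact hterm i
    rw [Finset.sum_congr rfl hL]
    refine le_trans ?_ (Finset.sum_le_sum hR)
    rw [Finset.sum_add_distrib, Finset.sum_add_distrib, Finset.sum_ite_eq', Finset.sum_ite_eq']
    simp only [Finset.mem_univ, if_true]
    linarith

end Vale.Agent.Lib.P182
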